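import Crest.Agent.R123.Stage

/-! Lower bound for products of the multipliers along orbits of the rotation. -/

set_option autoImplicit false

open Finset

namespace Crest.Agent.R123

namespace Win

variable (W : Win)

/-- The base orbit. -/
noncomputable def xi (ξ : Circle) (t : ℕ) : ℂ := ((W.om ^ t * ξ : Circle) : ℂ)

open Classical in
lemma le_a (n : ℕ) (ξ : ℂ) :
    lam / 2 ^ ((range n).filter fun i => dd ξ < W.s i).card ≤ W.a n ξ := by
  have hl := lam_pos
  induction n with
  | zero => simp [a]
  | succ n ih =>
    rw [a_succ, range_add_one, filter_insert]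
    have := W.p_le_one n ξ
    split_ifs with h
    · rw [card_insert_of_notMem (by simp), pow_succ, ← div_div]
      have h0 := W.a_nonneg n ξ
      nlinarith
    · rw [W.p_eq_zero (not_lt.1 h)]
      linarith

open Classical in
lemma card_visits_le (i : ℕ) (ξ : Circle) (T : ℕ) :
    ((range T).filter fun l => dd (W.xi ξ l) < W.s i).card ≤
      (if i < 5 then T else 0) + T / 2 ^ i + 1 := by
  split_ifs with hi
  · have := card_filter_le (range T) fun l => dd (W.xi ξ l) < W.s i
    rw [card_range] at this
    exact this.trans ((Nat.le_add_right _ _).trans (Nat.le_succ _))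
  · rw [zero_add, ← card_range (T / 2 ^ i + 1)]
    have key : ∀ l l', l < l' → l / 2 ^ i = l' / 2 ^ i → dd (W.xi ξ l) < W.s i →
        ¬ dd (W.xi ξ l') < W.s i := by
      intro l l' hll h h1
      have h2 : l' - l < 2 ^ i := by
        have h3 := Nat.div_add_mod l (2 ^ i)
        have h4 := Nat.div_add_mod l' (2 ^ i)
        have h5 := Nat.mod_lt l' (show 2 ^ i > 0 by positivity)
        rw [h] at h3
        omega
      have := W.gap i (by omega) (W.om ^ l * ξ) (l' - l) (by omega) h2 h1
      rwa [← mul_assoc, ← pow_add, Nat.sub_add_cancel hll.le] at this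
    refine card_le_card_of_injOn (fun l => l / 2 ^ i) (fun l hl => ?_) fun l hl l' hl' h => ?_
    · have := mem_range.1 (mem_filter.1 hl).1
      exact mem_coe.2 (mem_range.2 (Nat.lt_succ_of_le (Nat.div_le_div_right this.le)))
    · rcases lt_trichotomy l l' with h1 | h1 | h1
      · exact (key l l' h1 h (mem_filter.1 hl).2 (mem_filter.1 hl').2).elim
      · exact h1
      · exact (key l' l h1 h.symm (mem_filter.1 hl').2 (mem_filter.1 hl).2).elim

open Classical in
lemma sum_cnt_le (n : ℕ) (ξ : Circle) (T : ℕ) :
    ∑ l ∈ range T, ((range n).filter fun i => dd (W.xi ξ l) < W.s i).card ≤ 7 * T + n := by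
  have h1 : ∑ l ∈ range T, ((range n).filter fun i => dd (W.xi ξ l) < W.s i).card =
      ∑ i ∈ range n, ((range T).filter fun l => dd (W.xi ξ l) < W.s i).card := by
    simp only [card_filter]
    exact sum_comm
  rw [h1]
  refine (sum_le_sum fun i _ => W.card_visits_le i ξ T).trans ?_
  rw [sum_add_distrib, sum_add_distrib]
  have h2 : ∑ i ∈ range n, (if i < 5 then T else 0) ≤ 5 * T := by
    rw [← sum_filter, sum_const, smul_eq_mul]
    refine Nat.mul_le_mul_right _ ?_
    rw [← card_range 5]
    exact card_le_card fun i hi => mem_range.2 (mem_filter.1 hi).2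
  have h3 := Nat.geom_sum_le (le_refl 2) T n
  simp only [sum_const, card_range, smul_eq_mul, mul_one]
  omega

lemma le_prod_a (n : ℕ) (ξ : Circle) (T : ℕ) :
    (2 : ℝ) ^ T / 2 ^ n ≤ ∏ l ∈ range T, W.a n (W.xi ξ l) / 8 := by
  classical
  have hl := lam_pos
  calc (2 : ℝ) ^ T / 2 ^ n = (lam / 8) ^ T / 2 ^ (7 * T + n) := by
        have : lam / 8 = 2 ^ 8 := by unfold lam; norm_num
        rw [this, ← pow_mul, show 8 * T = 7 * T + T by ring, pow_add, pow_add]
        field_simp
    _ ≤ (lam / 8) ^ T /
          2 ^ (∑ l ∈ range T, ((range n).filter fun i => dd (W.xi ξ l) < W.s i).card) := by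
        gcongr
        · norm_num
        · exact W.sum_cnt_le n ξ T
    _ = ∏ l ∈ range T,
          lam / 2 ^ ((range n).filter fun i => dd (W.xi ξ l) < W.s i).card / 8 := by
        rw [← prod_pow_eq_pow_sum, ← card_range T, ← prod_const, card_range, ← prod_div_distrib]
        exact prod_congr rfl fun l _ => by ring
    _ ≤ _ := prod_le_prod (fun l _ => by positivity) fun l _ => by
        have := W.le_a n (W.xi ξ l)
        linarith

end Win

end Crest.Agent.R123
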