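import Mathlib

/-! Row 123 (S0163): interface between the local construction, the homology computation,
the entropy lemma and the global assembly. -/

set_option autoImplicit false

open scoped Manifold ContDiff

namespace Crest.Agent.R123

/-- The fibre: four complex registers, sup norm. Register `2` is the main one. -/
abbrev V : Type := ZMod 4 → ℂ

/-- Orbit of the skew product `(ξ, v) ↦ (om ξ, g (ξ, v))`, fibre component. -/
noncomputable def orb (om : Circle) (g : ℂ × V → V) (ξ : Circle) (v : V) : ℕ → V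
  | 0 => v
  | t + 1 => g (((om ^ t * ξ : Circle) : ℂ), orb om g ξ v t)

/-- The local model near the invariant circle. -/
structure LocalData where
  om : Circle
  r : ℝ
  g : ℂ × V → V
  r_pos : 0 < r
  r_le : r ≤ 1 / 100
  smooth : ∀ (ξ : Circle) (v : V), ContDiffAt ℝ 1 g ((ξ : ℂ), v)
  far : ∀ (ξ : ℂ) (v : V), 4 * r ≤ ‖v‖ → g (ξ, v) = Pi.single 2 (v 2 ^ 2 / r)
  small : ∀ (ξ : Circle) (v : V), ‖v‖ ≤ 4 * r → ‖g ((ξ : ℂ), v)‖ ≤ 1 / 2
  visits : ∀ ε : ℝ, 0 < ε → ∃ C : ℕ, ∀ (ξ : Circle) (v : V) (n : ℕ),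
    ((Finset.range n).filter
      (fun t => ε ≤ ‖orb om g ξ v t‖ ∧ ‖orb om g ξ v t‖ ≤ 2)).card ≤ C

/-- The unit sphere of `W ⊕ ℝ` (Euclidean sum). -/
abbrev Sph (W : Type) [NormedAddCommGroup W] : Type := Metric.sphere (0 : WithLp 2 (W × ℝ)) 1

/-- Second singular homology with real coefficients, as in the statement. -/
noncomputable abbrev H2 :=
  (AlgebraicTopology.singularHomologyFunctor (ModuleCat.{0} ℝ) 2).obj (ModuleCat.of ℝ ℝ)

/-- The suspension of angle doubling has eigenvalue `2` on `H₂(S²; ℝ)`. -/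
def SphereEigen : Prop :=
  ∀ g : C(Sph ℂ, Sph ℂ),
    (∀ x : Sph ℂ, (g x).1.fst = x.1.fst ^ 2 / (‖x.1.fst‖ : ℂ) ∧ (g x).1.snd = x.1.snd) →
    ∃ c : H2.obj (TopCat.of (Sph ℂ)), c ≠ 0 ∧ (H2.map (TopCat.ofHom g)).hom c = (2 : ℝ) • c

/-- Zero entropy for skew products over an isometry whose fibre orbits stay near `y₀` except for
boundedly many times until they are absorbed at `y₁`. -/
def EntropyLemma : Prop :=
  ∀ (B Y : Type) [MetricSpace B] [CompactSpace B] [Nonempty B] [MetricSpace Y] [CompactSpace Y]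
    (T : B × Y → B × Y) (R : B → B), Isometry R → (∀ x, (T x).1 = R x.1) → ∀ y₀ y₁ : Y,
    (∀ ε : ℝ, 0 < ε → ∃ C : ℕ, ∀ (x : B × Y) (n : ℕ), ∃ τ ≤ n,
      ((Finset.range τ).filter (fun i => ε ≤ dist (T^[i] x).2 y₀)).card ≤ C ∧
      ∀ i, τ ≤ i → i < n → (T^[i] x).2 = y₁) →
    Dynamics.coverEntropy T Set.univ = 0

/-- The conclusion of S0163. -/
def Goal : Prop :=
  ∃ (n : ℕ) (M : Type) (_ : MetricSpace M) (_ : CompactSpace M) (_ : Nonempty M)
    (_ : ChartedSpace (EuclideanSpace ℝ (Fin n)) M)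
    (_ : IsManifold (modelWithCornersSelf ℝ (EuclideanSpace ℝ (Fin n))) ∞ M)
    (f : C(M, M)),
    ContMDiff (modelWithCornersSelf ℝ (EuclideanSpace ℝ (Fin n)))
        (modelWithCornersSelf ℝ (EuclideanSpace ℝ (Fin n))) 1 ⇑f ∧
      Dynamics.coverEntropy ⇑f Set.univ = 0 ∧
      Module.End.HasEigenvalue
        (((AlgebraicTopology.singularHomologyFunctor (ModuleCat.{0} ℝ) 2).obj
            (ModuleCat.of ℝ ℝ)).map (TopCat.ofHom f)).hom (2 : ℝ)

end Crest.Agent.R123
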