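import Crest.Agent.R123.Period

/-! Every orbit visits the middle region boundedly often; the local data exist. -/

set_option autoImplicit false

open Finset Filter

namespace Crest.Agent.R123

namespace Par

variable (P : Par)

lemma J_pos (k : ℕ) : 0 < P.J k := by
  obtain ⟨t, -, h, -⟩ := P.ret k 1
  omega

lemma St_one (ξ : Circle) (v : V) (c : ZMod 4) :
    P.St 1 (ξ, v) c = lam • Sq (P.R 2) (v 2) := by
  have hp : ∀ i, i ≤ 4 → ∀ η : Circle, P.p i η = 1 := fun i hi η => P.p_eq_one (P.dd_le_core hi η)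
  have ho : ∀ i, i ≤ 4 → ∀ η : Circle, P.o i η = 0 := fun i hi η => P.o_eq_zero (by
    have := P.dd_le_core hi η; have := P.e_pos i; linarith)
  have hbk : P.bk ξ = ((P.om⁻¹ * ξ : Circle) : ℂ) := by rw [Circle.coe_mul]; rfl
  have ht : P.term (P.R 2) (P.J 1) 2 ξ v = Sq (P.R 2) (v 2) := by
    obtain ⟨J, hJ⟩ : ∃ J, P.J 1 = J + 1 := ⟨P.J 1 - 1, by have := P.J_pos 1; omega⟩
    unfold Win.term
    rw [hJ, sum_range_succ']
    simp only [Win.age, hbk, hp 2 (by norm_num), ho 2 (by norm_num)]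
    simp
  have ha : P.a 1 ξ = lam / 2 := by
    rw [P.a_inside, pow_one]
    have := P.dd_le_core (i := 1) (by norm_num) ξ; have := P.e_pos 1; linarith
  have hw := win_le (0 + 1) c
  simp only [St, Win.F, Win.nw, hp _ hw, ho _ hw, tr2, zero_add, if_true, ha]
  rw [show (1 + 1 : ℕ) = 2 from rfl, ht]
  module

lemma top_step (ξ : Circle) {v : V} (hv : 2 * P.R 1 < ‖v‖) :
    ‖P.g (ξ, v)‖ = ‖P.g (ξ, v) 2‖ ∧ (‖v‖ = ‖v 2‖ → 2 * ‖v‖ ≤ ‖P.g (ξ, v)‖) := by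
  have hl := lam_pos
  have hR0 := P.R_pos 0
  have r0 := rr_nonneg (P.R 0) v
  have r1 := rr_le_one (P.R 0) v
  have hA : v 2 ^ 2 / ((P.R 0 / 2 : ℝ) : ℂ) = (2 / P.R 0 : ℝ) • v 2 ^ 2 := by
    rw [Complex.real_smul]; push_cast
    have : (P.R 0 : ℂ) ≠ 0 := by exact_mod_cast hR0.ne'
    field_simp
  have c1 : Cn (v 2 ^ 2) ((1 - rr (P.R 0) v) • (2 / P.R 0 : ℝ) • v 2 ^ 2) :=
    ((Cn.refl _).smul (by positivity)).smul (by linarith)
  have c2 : Cn (v 2 ^ 2) (rr (P.R 0) v • lam • Sq (P.R 2) (v 2)) :=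
    (((Cn.refl _).Sq _).smul hl.le).smul r0
  have h2 : P.g (ξ, v) 2 = (1 - rr (P.R 0) v) • (2 / P.R 0 : ℝ) • v 2 ^ 2 +
      rr (P.R 0) v • lam • Sq (P.R 2) (v 2) := by
    rw [P.g_top hv]
    simp only [G, Pi.add_apply, Pi.smul_apply, zero_add, St_one]
    simp only [St, Pi.single_eq_same, hA]
  have h3 : ∀ c, c ≠ 2 → P.g (ξ, v) c = rr (P.R 0) v • lam • Sq (P.R 2) (v 2) := fun c hc => by
    rw [P.g_top hv]
    simp only [G, Pi.add_apply, Pi.smul_apply, zero_add, St_one]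
    simp only [St, Pi.single_eq_of_ne hc, smul_zero, zero_add]
  have h4 : ‖P.g (ξ, v)‖ = ‖P.g (ξ, v) 2‖ := by
    refine le_antisymm ((pi_norm_le_iff_of_nonneg (norm_nonneg _)).2 fun c => ?_)
      (norm_le_pi_norm _ _)
    by_cases hc : c = 2
    · rw [hc]
    · rw [h3 c hc, h2, c1.norm_add c2]
      exact le_add_of_nonneg_left (norm_nonneg _)
  refine ⟨h4, fun h5 => ?_⟩
  rw [h4, h2, c1.norm_add c2, norm_smul, norm_smul, norm_smul, norm_smul, norm_pow,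
    Real.norm_of_nonneg r0, Real.norm_of_nonneg (by linarith), Real.norm_of_nonneg hl.le,
    Real.norm_of_nonneg (by positivity), ← h5]
  have h6 : ‖v‖ / 8 ≤ ‖Sq (P.R 2) (v 2)‖ := by
    rw [h5]
    refine le_norm_Sq (P.R_pos 2) ?_
    have := P.R_anti (show 1 ≤ 2 by norm_num)
    have := P.R_pos 1
    linarith
  have h7 : 2 * ‖v‖ ≤ lam * ‖Sq (P.R 2) (v 2)‖ := by
    have : lam = 2048 := by unfold lam; norm_num
    rw [this]; linarith [norm_nonneg v]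
  rcases le_total ‖v‖ (P.R 0) with h8 | h8
  · rw [rr_eq_one hR0 h8]; linarith
  · have h9 : 2 * ‖v‖ ≤ 2 / P.R 0 * ‖v‖ ^ 2 := by
      rw [div_mul_eq_mul_div, le_div_iff₀ hR0]; nlinarith
    nlinarith

lemma top_orbit (ξ : Circle) {v : V} (hv : 2 * P.R 1 < ‖v‖) (h : ‖v‖ = ‖v 2‖) (t : ℕ) :
    ‖P.y ξ v t‖ = ‖P.y ξ v t 2‖ ∧ 2 ^ t * ‖v‖ ≤ ‖P.y ξ v t‖ := by
  induction t with
  | zero => simpa [y_zero] using h
  | succ t ih =>
    have h1 : 2 * P.R 1 < ‖P.y ξ v t‖ := hv.trans_le (le_trans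
      (le_mul_of_one_le_left (norm_nonneg _) (one_le_pow₀ (by norm_num))) ih.2)
    obtain ⟨h2, h3⟩ := P.top_step (P.om ^ t * ξ) h1
    refine ⟨h2, le_trans ?_ (h3 ih.1)⟩
    rw [pow_succ]; linarith [ih.2]

lemma two_R_le_Bd : 2 * P.R 1 ≤ P.Bd 0 := by
  have := P.le_Bd 0
  have := P.one_le_EE 0
  have := P.R_pos 1
  simp only [zero_add] at *
  nlinarith

lemma exists_top : ∃ C₀ : ℕ, ∀ (ξ : Circle) (v : V), 2 * P.R 1 < ‖v‖ → ‖v‖ = ‖v 2‖ →
    ∀ t, C₀ ≤ t → 2 < ‖P.y ξ v t‖ := by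
  have hR := P.R_pos 1
  obtain ⟨C₀, hC⟩ := pow_unbounded_of_one_lt (1 / P.R 1) (one_lt_two (α := ℝ))
  refine ⟨C₀, fun ξ v hv h t ht => lt_of_lt_of_le ?_ (P.top_orbit ξ hv h t).2⟩
  have h1 : (2 : ℝ) ^ C₀ ≤ 2 ^ t := pow_le_pow_right₀ (by norm_num) ht
  rw [div_lt_iff₀ hR] at hC
  have h2 : (0 : ℝ) < 2 ^ C₀ := by positivity
  nlinarith

lemma zone {K k : ℕ} (hk : K ≤ k) {x : ℝ} (h1 : P.Bd k < x) (h2 : x ≤ P.Bd K) :
    ∃ m, K ≤ m ∧ m < k ∧ P.Bd (m + 1) < x ∧ x ≤ P.Bd m := by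
  induction k, hk using Nat.le_induction with
  | base => linarith
  | succ k hk ih =>
    by_cases h : P.Bd k < x
    · obtain ⟨m, h3, h4, h5⟩ := ih h
      exact ⟨m, h3, by omega, h5⟩
    · exact ⟨k, hk, by omega, h1, not_lt.1 h⟩

/-- A regenerated state. -/
def Good (k : ℕ) (ξ : Circle) (v : V) : Prop :=
  ∃ w : ℂ, v = (fun _ => w) ∧ P.Bd k < ‖w‖ ∧ dd (P.bk ξ) ≤ P.s (k + 4) / 2

lemma core_mono {n m : ℕ} (h : n ≤ m) {x : ℝ} (hx : x ≤ P.s m / 2) : x ≤ P.s n / 2 := by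
  have := P.s_anti h; linarith

lemma escape (K : ℕ) : ∃ C : ℕ, ∀ k ≤ K, ∀ (ξ : Circle) (v : V), P.Good k ξ v →
    ∀ t, C ≤ t → 2 < ‖P.y ξ v t‖ := by
  obtain ⟨C₀, hC₀⟩ := P.exists_top
  have key : ∀ j : ℕ, ∀ k ≤ K, ∀ (ξ : Circle) (w : ℂ), P.Bd k < ‖w‖ →
      dd (P.bk ξ) ≤ P.s (k + 4) / 2 → P.Bd 0 < 2 ^ j * ‖w‖ →
      ∀ t, j * P.J K + C₀ ≤ t → 2 < ‖P.y ξ (fun _ => w) t‖ := by
    intro j
    induction j with
    | zero =>
      intro k _ ξ w _ _ h t ht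
      refine hC₀ ξ _ ?_ (pi_norm_const _) t (by omega)
      rw [pi_norm_const]; linarith [P.two_R_le_Bd]
    | succ j ih =>
      intro k hk ξ w h1 h2 h t ht
      by_cases h3 : P.Bd 0 < ‖w‖
      · refine hC₀ ξ _ ?_ (pi_norm_const _) t (by omega)
        rw [pi_norm_const]; linarith [P.two_R_le_Bd]
      · obtain ⟨m, -, h4, h5, h6⟩ := P.zone (Nat.zero_le k) h1 (not_lt.1 h3)
        obtain ⟨T, w', -, hT, -, hy, hw', hc⟩ := period h5 h6 (P.core_mono (by omega) h2)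
        have hT' : T ≤ P.J K := hT.trans (P.J_mono (by omega))
        have hT'' : T ≤ t := by rw [add_mul] at ht; omega
        obtain ⟨t', rfl⟩ := Nat.exists_eq_add_of_le hT''
        rw [y_add, hy]
        refine ih (m + 1) (by omega) _ w' (by linarith [norm_nonneg w]) hc ?_ t' ?_
        · rw [pow_succ] at h
          have : (0 : ℝ) < 2 ^ j := by positivity
          nlinarith
        · rw [add_mul] at ht; omega
  obtain ⟨j, hj⟩ := pow_unbounded_of_one_lt (P.Bd 0 / P.Bd K) (one_lt_two (α := ℝ))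
  refine ⟨j * P.J K + C₀, fun k hk ξ v ⟨w, hv, h1, h2⟩ t ht => ?_⟩
  rw [hv]
  refine key j k hk ξ w h1 h2 ?_ t ht
  rw [div_lt_iff₀ (P.Bd_pos K)] at hj
  have := P.Bd_anti hk
  have : (0 : ℝ) < 2 ^ j := by positivity
  nlinarith

lemma star {k : ℕ} (ξ : Circle) {v : V} (hv : ‖v‖ ≤ P.Bd k) :
    ∃ T, 0 < T ∧ T ≤ P.J (k + 1) ∧ (∀ t < T, ‖P.y ξ v t‖ < P.R k) ∧
      (P.Good (k + 3) (P.om ^ T * ξ) (P.y ξ v T) ∨ ‖P.y ξ v T‖ ≤ P.Bd (k + 1)) := by
  obtain ⟨t, -, h2, h3⟩ := P.ret (k + 1) ξ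
  refine ⟨t + 1, Nat.succ_pos _, h2, fun l hl => (P.y_up ξ hv (by omega)).2, ?_⟩
  have hup := (P.y_up ξ hv h2.le).2
  by_cases h4 : 2 * P.R (k + 2 + 2) < ‖P.y ξ v t‖
  · obtain ⟨m, -, h5, h6, h7⟩ := P.cover_le (show k ≤ k + 2 by omega) h4 hup
    have hy : P.y ξ v (t + 1) = fun _ => P.NN m (P.xi ξ t) (P.y ξ v t) := by
      rw [y_succ, P.g_mid h6 h7, P.G_core (k := m) (ξ := P.xi ξ t) (P.core_mono (by omega) h3)]
    by_cases h8 : P.Bd (k + 3) < ‖P.NN m (P.xi ξ t) (P.y ξ v t)‖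
    · exact Or.inl ⟨_, hy, h8, by rw [P.bk_succ]; exact h3⟩
    · right
      rw [hy, pi_norm_const]
      exact (not_lt.1 h8).trans (P.Bd_anti (by omega))
  · right
    rw [y_succ]
    refine (P.norm_g_le _ (hup.trans_le (P.R_anti (Nat.zero_le k)))).trans ?_
    have h5 := P.le_Bd (k + 1)
    have h6 := P.pow_le_EE (k := k + 1) (t := 1) (P.J_pos _)
    have h7 : P.R (k + 2 + 2) ≤ P.R (k + 1 + 1) := P.R_anti (by omega)
    have h8 := P.R_pos (k + 1 + 1)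
    have hl := lam_pos
    rw [pow_one] at h6
    calc 2 * lam * ‖P.y ξ v t‖ ≤ P.EE (k + 1) * (2 * P.R (k + 1 + 1)) :=
          mul_le_mul h6 (by linarith [not_lt.1 h4]) (norm_nonneg _) (by linarith)
      _ ≤ _ := by linarith

/-- Number of visits to the middle region. -/
noncomputable def vis (ε : ℝ) (ξ : Circle) (v : V) (n : ℕ) : ℕ :=
  ((range n).filter (fun t => ε ≤ ‖P.y ξ v t‖ ∧ ‖P.y ξ v t‖ ≤ 2)).card

lemma vis_le_of_escape {ε : ℝ} {ξ : Circle} {v : V} {C : ℕ} (h : ∀ t, C ≤ t → 2 < ‖P.y ξ v t‖)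
    (n : ℕ) : P.vis ε ξ v n ≤ C := by
  rw [← card_range C]
  refine card_le_card fun t ht => mem_range.2 ?_
  by_contra h1
  have := h t (not_lt.1 h1)
  linarith [(mem_filter.1 ht).2.2]

lemma vis_add (ε : ℝ) (ξ : Circle) (v : V) (T n : ℕ) :
    P.vis ε ξ v (T + n) = P.vis ε ξ v T + P.vis ε (P.om ^ T * ξ) (P.y ξ v T) n := by
  simp only [vis, card_filter, sum_range_add, y_add]

lemma vis_mono (ε : ℝ) (ξ : Circle) (v : V) {n m : ℕ} (h : n ≤ m) :
    P.vis ε ξ v n ≤ P.vis ε ξ v m :=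
  card_le_card (filter_subset_filter _ (range_subset_range.2 h))

lemma vis_le_add (ε : ℝ) (ξ : Circle) (v : V) (T n : ℕ) :
    P.vis ε ξ v n ≤ P.vis ε ξ v T + P.vis ε (P.om ^ T * ξ) (P.y ξ v T) (n - T) := by
  rw [← vis_add]
  exact P.vis_mono _ _ _ (by omega)

lemma vis_le_self (ε : ℝ) (ξ : Circle) (v : V) (n : ℕ) : P.vis ε ξ v n ≤ n :=
  (card_filter_le _ _).trans (card_range n).le

lemma vis_eq_zero {ε : ℝ} {ξ : Circle} {v : V} {n : ℕ} (h : ∀ t < n, ‖P.y ξ v t‖ < ε) :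
    P.vis ε ξ v n = 0 := by
  rw [vis, card_eq_zero, filter_eq_empty_iff]
  intro t ht h1
  linarith [h t (mem_range.1 ht), h1.1]

theorem vis_bound {ε : ℝ} (hε : 0 < ε) : ∃ C : ℕ, ∀ (ξ : Circle) (v : V) (n : ℕ),
    P.vis ε ξ v n ≤ C := by
  obtain ⟨K, hK⟩ := P.exists_R_lt hε
  obtain ⟨C, hC⟩ := P.escape K
  obtain ⟨C₀, hC₀⟩ := P.exists_top
  have c1 : ∀ n k (ξ : Circle) (v : V), P.Good k ξ v → P.vis ε ξ v n ≤ C := by
    intro n
    induction n using Nat.strong_induction_on with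
    | _ n ih =>
      intro k ξ v hg
      rcases le_total k K with hk | hk
      · exact P.vis_le_of_escape (hC k hk ξ v hg) n
      obtain ⟨w, rfl, h1, h2⟩ := hg
      by_cases h3 : P.Bd K < ‖w‖
      · exact P.vis_le_of_escape (hC K le_rfl ξ _ ⟨w, rfl, h3, P.core_mono (by omega) h2⟩) n
      obtain ⟨m, h4, h5, h6, h7⟩ := P.zone hk h1 (not_lt.1 h3)
      obtain ⟨T, w', hT0, -, hup, hy, hw', hc⟩ := period h6 h7 (P.core_mono (by omega) h2)
      rcases Nat.eq_zero_or_pos n with rfl | hn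
      · exact (P.vis_le_self _ _ _ _).trans (Nat.zero_le _)
      refine (P.vis_le_add ε ξ _ T n).trans ?_
      rw [P.vis_eq_zero fun t ht => (hup t ht).trans_le ((P.R_anti h4).trans hK.le), zero_add]
      exact ih _ (by omega) (m + 1) _ _ ⟨w', hy, by linarith [norm_nonneg w], hc⟩
  have c2 : ∀ n k, K ≤ k → ∀ (ξ : Circle) (v : V), ‖v‖ ≤ P.Bd k → P.vis ε ξ v n ≤ C := by
    intro n
    induction n using Nat.strong_induction_on with
    | _ n ih =>
      intro k hk ξ v hv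
      obtain ⟨T, hT0, -, hup, h⟩ := P.star ξ hv
      rcases Nat.eq_zero_or_pos n with rfl | hn
      · exact (P.vis_le_self _ _ _ _).trans (Nat.zero_le _)
      refine (P.vis_le_add ε ξ _ T n).trans ?_
      rw [P.vis_eq_zero fun t ht => (hup t ht).trans_le ((P.R_anti hk).trans hK.le), zero_add]
      rcases h with h | h
      · exact c1 _ _ _ _ h
      · exact ih _ (by omega) (k + 1) (by omega) _ _ h
  have c3 : ∀ d k, K ≤ k + d → ∀ n (ξ : Circle) (v : V), ‖v‖ ≤ P.Bd k →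
      P.vis ε ξ v n ≤ C + d * P.J K := by
    intro d
    induction d with
    | zero => intro k hk n ξ v hv; simpa using c2 n k hk ξ v hv
    | succ d ih =>
      intro k hk n ξ v hv
      rcases le_or_gt K k with hk' | hk'
      · exact (c2 n k hk' ξ v hv).trans (Nat.le_add_right _ _)
      obtain ⟨T, -, hT, -, h⟩ := P.star ξ hv
      refine (P.vis_le_add ε ξ _ T n).trans ?_
      have h1 := (P.vis_le_self ε ξ v T).trans (hT.trans (P.J_mono hk'))
      rcases h with h | h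
      · have := c1 (n - T) _ _ _ h
        rw [add_mul]; omega
      · have := ih (k + 1) (by omega) (n - T) (P.om ^ T * ξ) _ h
        rw [add_mul]; omega
  refine ⟨1 + (C₀ + (C + K * P.J K)), fun ξ v n => ?_⟩
  by_cases h : ‖v‖ ≤ P.Bd 0
  · have := c3 K 0 (by omega) n ξ v h
    omega
  · refine (P.vis_le_add ε ξ v 1 n).trans (add_le_add (P.vis_le_self _ _ _ _) ?_)
    by_cases h' : 2 * P.R 1 < ‖P.y ξ v 1‖
    · have h1 := (P.top_step (P.om ^ 0 * ξ) (v := v) (by linarith [P.two_R_le_Bd])).1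
      exact (P.vis_le_of_escape (hC₀ _ _ h' h1) _).trans (Nat.le_add_right _ _)
    · exact (c3 K 0 (by omega) _ _ _ ((not_lt.1 h').trans P.two_R_le_Bd)).trans
        (Nat.le_add_left _ _)

lemma g_far (ξ : ℂ) {v : V} (h : 2 * P.R 0 ≤ ‖v‖) :
    P.g (ξ, v) = Pi.single 2 (v 2 ^ 2 / ((P.R 0 / 2 : ℝ) : ℂ)) := by
  have h1 := P.R_succ_le 0
  have h2 := P.R_pos 1
  rw [P.g_top (by simp only [zero_add] at *; linarith)]
  simp [G, rr_eq_zero (P.R_pos 0) h, St]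

lemma g_small (ξ : ℂ) {v : V} (h : ‖v‖ ≤ 2 * P.R 0) : ‖P.g (ξ, v)‖ ≤ 1 / 2 := by
  have hl : lam = 2048 := by unfold lam; norm_num
  have h0 := P.R_pos 0
  have h1 := P.R_zero
  rw [hl] at h1
  have h2 : 2 * lam * ‖v‖ ≤ 1 / 2 := by rw [hl]; linarith
  by_cases h3 : ‖v‖ < P.R 0
  · exact (P.norm_g_le ξ h3).trans h2
  · have h4 := P.R_succ_le 0
    have h5 := P.R_pos 1
    rw [P.g_top (by simp only [zero_add] at *; linarith)]
    refine norm_convex_le (rr_nonneg _ _) (rr_le_one _ _) ?_ ((P.norm_F_le _ _ _ _).trans h2)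
    simp only [St]
    rw [Pi.norm_single, norm_div, norm_pow, Complex.norm_real, Real.norm_of_nonneg (by positivity),
      div_le_iff₀ (by positivity)]
    have h6 := (norm_le_pi_norm v 2).trans h
    have h7 : ‖v 2‖ ^ 2 ≤ (2 * P.R 0) ^ 2 := by gcongr
    nlinarith

end Par

theorem exists_localData : Nonempty LocalData := by
  obtain ⟨P⟩ := exists_par
  have h0 := P.R_pos 0
  have h1 := P.R_zero
  have hl : lam = 2048 := by unfold lam; norm_num
  rw [hl] at h1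
  exact ⟨{ om := P.om
           r := P.R 0 / 2
           g := P.g
           r_pos := by positivity
           r_le := by linarith
           smooth := P.contDiffAt_g
           far := fun ξ v h => P.g_far ξ (by linarith)
           small := fun ξ v h => P.g_small ξ (by linarith)
           visits := fun ε hε => P.vis_bound hε }⟩

end Crest.Agent.R123
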