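import Crest.Agent.R123.Defs

/-! Row 123: the zero entropy lemma. -/

set_option autoImplicit false

open Filter

namespace Crest.Agent.R123.Ent

theorem card_small_subsets {α : Type} [DecidableEq α] (s : Finset α) (C : ℕ) :
    (s.powerset.filter (fun t => t.card ≤ C)).card ≤ (s.card + 1) ^ C := by
  induction C with
  | zero =>
    rw [pow_zero, Finset.card_le_one]
    intro a ha b hb
    simp only [Finset.mem_filter, Nat.le_zero, Finset.card_eq_zero] at ha hb
    rw [ha.2, hb.2]
  | succ C ih =>
    have hsub : s.powerset.filter (fun t => t.card ≤ C + 1) ⊆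
        ((Finset.insertNone s) ×ˢ (s.powerset.filter (fun t => t.card ≤ C))).image
          (fun p => p.1.elim p.2 (fun x => insert x p.2)) := by
      intro t ht
      simp only [Finset.mem_filter, Finset.mem_powerset] at ht
      rw [Finset.mem_image]
      rcases t.eq_empty_or_nonempty with rfl | ⟨x, hx⟩
      · exact ⟨(none, ∅), by simp, rfl⟩
      · refine ⟨(some x, t.erase x), ?_, by simp [Finset.insert_erase hx]⟩
        simp only [Finset.mem_product, Finset.some_mem_insertNone, Finset.mem_filter,
          Finset.mem_powerset]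
        refine ⟨ht.1 hx, (Finset.erase_subset _ _).trans ht.1, ?_⟩
        rw [Finset.card_erase_of_mem hx]; omega
    refine (Finset.card_le_card hsub).trans (Finset.card_image_le.trans ?_)
    rw [Finset.card_product, Finset.card_insertNone, pow_succ, mul_comm]
    exact Nat.mul_le_mul_right _ ih

theorem expGrowth_poly (u : ℕ → ENNReal) (K m : ℕ) (h : ∀ n, u n ≤ (K * (n + 1) ^ m : ℕ)) :
    ExpGrowth.expGrowthSup u ≤ 0 := by
  rw [← EReal.le_of_forall_lt_iff_le]
  intro a ha
  have ha' : 0 < a := by exact_mod_cast ha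
  apply Eventually.expGrowthSup_le
  have h1 := (isLittleO_pow_exp_pos_mul_atTop m ha').comp_tendsto
    (tendsto_atTop_add_const_right atTop (1 : ℝ) tendsto_natCast_atTop_atTop)
  have h2 := h1.bound (c := 1 / ((K + 1) * Real.exp a)) (by positivity)
  filter_upwards [h2] with n hn
  refine (h n).trans ?_
  have : ((a : EReal) * (n : EReal)) = ((a * n : ℝ) : EReal) := by norm_cast
  rw [this, EReal.exp_coe, ← ENNReal.ofReal_natCast]
  apply ENNReal.ofReal_le_ofReal
  simp only [Function.comp, Real.norm_eq_abs] at hn
  rw [abs_of_nonneg (by positivity), abs_of_nonneg (by positivity), mul_add, mul_one,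
    Real.exp_add] at hn
  have h3 : 1 / ((K + 1) * Real.exp a) * (Real.exp (a * n) * Real.exp a)
      = Real.exp (a * n) / (K + 1) := by field_simp
  rw [h3, le_div_iff₀ (by positivity)] at hn
  push_cast
  have : (0 : ℝ) ≤ (n + 1) ^ m := by positivity
  nlinarith

theorem coverMincard_le_of_code {X K : Type} [Nonempty X] (T : X → X) (U : SetRel X X) (n : ℕ)
    (code : X → K) (s : Finset K) (hs : ∀ x, code x ∈ s)
    (h : ∀ x y, code x = code y → (x, y) ∈ Dynamics.dynEntourage T U n) :
    Dynamics.coverMincard T Set.univ U n ≤ s.card := by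
  classical
  have hc : Dynamics.IsDynCoverOf T Set.univ U n (s.image (Function.invFun code)) := by
    intro x _
    refine ⟨Function.invFun code (code x), ?_, h _ _ (Function.invFun_eq ⟨x, rfl⟩).symm⟩
    exact Finset.mem_coe.2 (Finset.mem_image_of_mem _ (hs x))
  exact hc.coverMincard_le_card.trans (by exact_mod_cast Finset.card_image_le)

theorem exists_net (B : Type) [MetricSpace B] [CompactSpace B] {ε : ℝ} (hε : 0 < ε) :
    ∃ (a : Finset B) (κ : B → B), ∀ b, κ b ∈ a ∧ dist b (κ b) < ε := by
  obtain ⟨t, -, hfin, hcov⟩ := finite_cover_balls_of_compact (isCompact_univ (X := B)) hε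
  have : ∀ b, ∃ y, y ∈ hfin.toFinset ∧ dist b y < ε := by
    intro b
    have := hcov (Set.mem_univ b)
    simp only [Set.mem_iUnion] at this
    obtain ⟨y, hy, hb⟩ := this
    exact ⟨y, by simpa using hy, hb⟩
  choose κ hκ using this
  exact ⟨_, κ, hκ⟩

end Crest.Agent.R123.Ent

namespace Crest.Agent.R123

open Ent

theorem entropyLemma : EntropyLemma := by
  intro B Y _ _ _ _ _ T R hR hT y₀ y₁ H
  classical
  have : Nonempty (B × Y) := ⟨(Classical.arbitrary B, y₀)⟩
  refine le_antisymm ?_ (Dynamics.coverEntropy_nonneg T Set.univ_nonempty)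
  rw [Dynamics.coverEntropy_eq_iSup_basis Metric.uniformity_basis_dist]
  refine iSup₂_le fun δ hδ => ?_
  have hε : 0 < δ / 2 := by positivity
  obtain ⟨C, hC⟩ := H _ hε
  obtain ⟨a, κ, hκ⟩ := exists_net B hε
  obtain ⟨a', lab, hlab⟩ := exists_net Y hε
  have hfst : ∀ i x, (T^[i] x).1 = R^[i] x.1 := by
    intro i
    induction i with
    | zero => intro x; rfl
    | succ i ih => intro x; rw [Function.iterate_succ_apply', Function.iterate_succ_apply', hT, ih]
  have hiso : ∀ i (b b' : B), dist (R^[i] b) (R^[i] b') = dist b b' := by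
    intro i
    induction i with
    | zero => intro b b'; rfl
    | succ i ih =>
      intro b b'
      rw [Function.iterate_succ_apply', Function.iterate_succ_apply', hR.dist_eq, ih]
  refine expGrowth_poly _ (a.card * (a'.card + 1) ^ C) (C + 1) fun n => ?_
  choose τ hτ hcard habs using fun x => hC x n
  have key := coverMincard_le_of_code T {p | dist p.1 p.2 < δ} n
    (fun x => (κ x.1, τ x, ((Finset.range (τ x)).filter
      (fun i => δ / 2 ≤ dist (T^[i] x).2 y₀)).image (fun i => (i, lab (T^[i] x).2))))
    (a ×ˢ (Finset.range (n + 1)) ×ˢ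
      (((Finset.range n) ×ˢ a').powerset.filter (fun t => t.card ≤ C))) ?_ ?_
  · refine le_trans (ENat.toENNReal_mono key) ?_
    rw [ENat.toENNReal_coe, Nat.cast_le, Finset.card_product, Finset.card_product,
      Finset.card_range]
    have h1 := card_small_subsets ((Finset.range n) ×ˢ a') C
    rw [Finset.card_product, Finset.card_range] at h1
    have h2 : (n * a'.card + 1) ^ C ≤ ((a'.card + 1) * (n + 1)) ^ C :=
      Nat.pow_le_pow_left (by nlinarith) C
    calc _ ≤ a.card * ((n + 1) * ((a'.card + 1) * (n + 1)) ^ C) := by gcongr; exact h1.trans h2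
      _ = _ := by rw [mul_pow]; ring
  · intro x
    simp only [Finset.mem_product, Finset.mem_range, Finset.mem_filter, Finset.mem_powerset]
    refine ⟨(hκ _).1, Nat.lt_succ_of_le (hτ x), ?_, Finset.card_image_le.trans (hcard x)⟩
    intro p hp
    simp only [Finset.mem_image, Finset.mem_filter, Finset.mem_range] at hp
    obtain ⟨i, ⟨hi, -⟩, rfl⟩ := hp
    simp only [Finset.mem_product, Finset.mem_range]
    exact ⟨hi.trans_le (hτ x), (hlab _).1⟩
  · intro x y hxy
    simp only [Prod.mk.injEq] at hxy
    obtain ⟨h1, h2, h3⟩ := hxy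
    rw [Dynamics.mem_dynEntourage]
    intro i hi
    change dist (T^[i] x) (T^[i] y) < δ
    rw [Prod.dist_eq, max_lt_iff, hfst, hfst, hiso]
    constructor
    · have := dist_triangle_right x.1 y.1 (κ x.1)
      have h4 := (hκ x.1).2
      have h5 := (hκ y.1).2
      rw [← h1] at h5
      linarith
    · rcases lt_or_ge i (τ x) with hlt | hge
      · have hbad : ∀ {x y : B × Y}, i < τ x → ((Finset.range (τ x)).filter
            (fun i => δ / 2 ≤ dist (T^[i] x).2 y₀)).image (fun i => (i, lab (T^[i] x).2)) =
            ((Finset.range (τ y)).filter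
            (fun i => δ / 2 ≤ dist (T^[i] y).2 y₀)).image (fun i => (i, lab (T^[i] y).2)) →
            δ / 2 ≤ dist (T^[i] x).2 y₀ → dist (T^[i] x).2 (T^[i] y).2 < δ := by
          intro x y hlt h3 hb
          have : (i, lab (T^[i] x).2) ∈ ((Finset.range (τ y)).filter
            (fun i => δ / 2 ≤ dist (T^[i] y).2 y₀)).image (fun i => (i, lab (T^[i] y).2)) := by
            rw [← h3]
            exact Finset.mem_image_of_mem _ (by simp [hlt, hb])
          obtain ⟨j, -, hj⟩ := Finset.mem_image.1 this
          simp only [Prod.mk.injEq] at hj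
          obtain ⟨rfl, hj⟩ := hj
          have := dist_triangle_right (T^[j] x).2 (T^[j] y).2 (lab (T^[j] x).2)
          have h4 := (hlab (T^[j] x).2).2
          have h5 := (hlab (T^[j] y).2).2
          rw [hj] at h5
          linarith
        by_cases hx : δ / 2 ≤ dist (T^[i] x).2 y₀
        · exact hbad hlt h3 hx
        · by_cases hy : δ / 2 ≤ dist (T^[i] y).2 y₀
          · rw [dist_comm]; exact hbad (h2 ▸ hlt) h3.symm hy
          · have := dist_triangle_right (T^[i] x).2 (T^[i] y).2 y₀
            linarith
      · rw [habs x i hge hi, habs y i (h2 ▸ hge) hi, dist_self]; exact hδ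

end Crest.Agent.R123
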