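import Crest.Agent.R123.Glob4

/-! Row 123: homology and assembly. -/

set_option autoImplicit false

open scoped Manifold ContDiff unitInterval

noncomputable section

namespace Crest.Agent.R123.Glob

def sq' (w : ℂ) : ℂ := w ^ 2 / (‖w‖ : ℂ)

theorem norm_sq' (w : ℂ) : ‖sq' w‖ = ‖w‖ := by
  unfold sq'
  rw [norm_div, norm_pow, Complex.norm_real, norm_norm]
  rcases eq_or_ne ‖w‖ 0 with h | h
  · simp [h]
  · field_simp

theorem continuous_sq' : Continuous sq' := by
  refine continuous_iff_continuousAt.2 fun w => ?_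
  rcases eq_or_ne w 0 with rfl | h
  · have h0 : sq' 0 = 0 := by simp [sq']
    rw [ContinuousAt, h0, tendsto_zero_iff_norm_tendsto_zero]
    simp only [norm_sq']
    exact tendsto_norm_zero
  · refine ContinuousAt.div (by fun_prop) (by fun_prop) ?_
    exact_mod_cast norm_ne_zero_iff.2 h

theorem continuous_w : Continuous fun y : Sph ℂ => y.1.fst :=
  (cd_fst (W := ℂ)).continuous.comp continuous_subtype_val

theorem continuous_t : Continuous fun y : Sph ℂ => y.1.snd :=
  (cd_snd (W := ℂ)).continuous.comp continuous_subtype_val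

theorem norm_g1 (y : Sph ℂ) : ‖pk (sq' y.1.fst) y.1.snd‖ = 1 := by
  have h := norm_sq (pk (sq' y.1.fst) y.1.snd)
  rw [pk_fst, pk_snd, norm_sq', sph_sq] at h
  nlinarith [norm_nonneg (pk (sq' y.1.fst) y.1.snd)]

theorem continuous_g1 : Continuous fun y : Sph ℂ => pk (sq' y.1.fst) y.1.snd :=
  continuous_pk.comp ((continuous_sq'.comp continuous_w).prodMk continuous_t)

/-- suspension of angle doubling -/
def g1 : C(Sph ℂ, Sph ℂ) :=
  ⟨fun y => ⟨pk (sq' y.1.fst) y.1.snd, mem_sphere_zero_iff_norm.2 (norm_g1 y)⟩,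
    continuous_g1.subtype_mk _⟩

def inc : C(Sph ℂ, M) := ⟨fun y => (1, y, PP 0), by fun_prop⟩

def prj : C(M, Sph ℂ) := ⟨fun x => x.2.1, by fun_prop⟩

variable (D : LocalData)

def fc : C(M, M) := ⟨ff D, (cm_ff D).continuous⟩

/-- the middle component of the homotopy -/
def hmid (τ : ℝ) (y : Sph ℂ) : EE ℂ :=
  (1 - τ) • pk (WW D (1 : Circle) y.1 (PP (0 : Vz)).1) (TT D y.1.snd) + τ • pk (sq' y.1.fst) y.1.snd

theorem hmid_ne {τ : ℝ} (h0 : 0 ≤ τ) (h1 : τ ≤ 1) (y : Sph ℂ) : hmid D τ y ≠ 0 := by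
  rcases h0.eq_or_lt with rfl | h0
  · simpa [hmid] using F1_ne D _ y _
  intro h
  have e1 : (1 - τ) • WW D (1 : Circle) y.1 (PP (0 : Vz)).1 + τ • sq' y.1.fst = 0 :=
    congrArg WithLp.fst h
  have e2 : (1 - τ) * TT D y.1.snd + τ * y.1.snd = 0 := congrArg WithLp.snd h
  have hr := D.r_pos
  rcases le_total y.1.snd (-1 / 2) with ht | ht
  · unfold TT at e2
    rw [chi_low ht, zero_div] at e2
    nlinarith [mul_nonneg (sub_nonneg.2 h1) (sq_nonneg y.1.snd)]
  · rw [(high_eq D _ y _ ht).1] at e1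
    rcases eq_or_ne y.1.fst 0 with hw | hw
    · have h3 := sph_sq y
      rw [hw, norm_zero] at h3
      have h4 : y.1.snd = 1 := by nlinarith
      rw [h4, TT_high D (by norm_num)] at e2
      have : 0 ≤ (1 - τ) * (1 / D.r) := mul_nonneg (sub_nonneg.2 h1) (by positivity)
      linarith
    · have hn : 0 < ‖y.1.fst‖ := norm_pos_iff.2 hw
      have h3 : (((1 - τ) * bet y.1.snd / D.r + τ / ‖y.1.fst‖ : ℝ) : ℂ) * y.1.fst ^ 2 = 0 := by
        rw [← e1]
        simp only [Complex.real_smul, sq']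
        push_cast
        ring
      rcases mul_eq_zero.1 h3 with h4 | h4
      · have h5 : (1 - τ) * bet y.1.snd / D.r + τ / ‖y.1.fst‖ = 0 := by exact_mod_cast h4
        have : 0 ≤ (1 - τ) * bet y.1.snd / D.r :=
          div_nonneg (mul_nonneg (sub_nonneg.2 h1) (bet_nonneg _)) hr.le
        have : 0 < τ / ‖y.1.fst‖ := by positivity
        linarith
      · exact hw (pow_eq_zero_iff (two_ne_zero) |>.1 h4)

def homot : ContinuousMap.Homotopy ((fc D).comp inc) (inc.comp g1) where
  toFun p := (Circle.exp ((1 - (p.1 : ℝ)) * Complex.arg D.om),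
    ⟨nrm (hmid D p.1 p.2), nrm_mem (hmid_ne D p.1.2.1 p.1.2.2 p.2)⟩,
    PP ((1 - (p.1 : ℝ)) • ZZ D (1 : Circle) p.2.1 (PP (0 : Vz)).1))
  continuous_toFun := by
    have hτ : Continuous fun p : I × Sph ℂ => (p.1 : ℝ) := by fun_prop
    have hW : Continuous fun y : Sph ℂ =>
        pk (WW D (1 : Circle) y.1 (PP (0 : Vz)).1) (TT D y.1.snd) :=
      Continuous.comp (f := fun y : Sph ℂ => ((1, y, PP 0) : M))
        (g := fun x : M => pk (WW D x.1 x.2.1.1 x.2.2.1) (TT D x.2.1.1.snd))
        (cm_W D).continuous (by fun_prop)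
    have hZ : Continuous fun y : Sph ℂ => ZZ D (1 : Circle) y.1 (PP (0 : Vz)).1 :=
      Continuous.comp (f := fun y : Sph ℂ => ((1, y, PP 0) : M))
        (g := fun x : M => ZZ D x.1 x.2.1.1 x.2.2.1) (cm_Z D).continuous (by fun_prop)
    refine Continuous.prodMk (by fun_prop) (Continuous.prodMk (Continuous.subtype_mk ?_ _) ?_)
    · refine continuous_nrm ?_ fun p => hmid_ne D p.1.2.1 p.1.2.2 p.2
      exact ((continuous_const.sub hτ).smul (hW.comp continuous_snd)).add
        (hτ.smul (continuous_g1.comp continuous_snd))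
    · exact continuous_PP.comp ((continuous_const.sub hτ).smul (hZ.comp continuous_snd))
  map_zero_left y := by
    refine Prod.ext ?_ (Prod.ext (Subtype.ext ?_) ?_)
    · change Circle.exp ((1 - ((0 : I) : ℝ)) * Complex.arg D.om) = D.om * 1
      simp [Circle.exp_arg]
    · change nrm (hmid D ((0 : I) : ℝ) y) = nrm _
      simp [hmid, inc]
    · change PP ((1 - ((0 : I) : ℝ)) • _) = PP _
      simp [inc]
  map_one_left y := by
    refine Prod.ext ?_ (Prod.ext (Subtype.ext ?_) ?_)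
    · change Circle.exp ((1 - ((1 : I) : ℝ)) * Complex.arg D.om) = 1
      simp
    · change nrm (hmid D ((1 : I) : ℝ) y) = pk (sq' y.1.fst) y.1.snd
      have : hmid D ((1 : I) : ℝ) y = pk (sq' y.1.fst) y.1.snd := by simp [hmid]
      rw [this, nrm_of_norm (norm_g1 y)]
    · change PP ((1 - ((1 : I) : ℝ)) • _) = PP 0
      simp

theorem H2_comp {X Y Z : Type} [TopologicalSpace X] [TopologicalSpace Y] [TopologicalSpace Z]
    (f : C(X, Y)) (g : C(Y, Z)) (c : H2.obj (TopCat.of X)) :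
    (H2.map (TopCat.ofHom (g.comp f))).hom c =
      (H2.map (TopCat.ofHom g)).hom ((H2.map (TopCat.ofHom f)).hom c) := by
  rw [TopCat.ofHom_comp, H2.map_comp]; rfl

theorem eigen (hH : SphereEigen) :
    Module.End.HasEigenvalue (H2.map (TopCat.ofHom (fc D))).hom (2 : ℝ) := by
  obtain ⟨c, hc, hg⟩ := hH g1 fun x => ⟨rfl, rfl⟩
  have h1 : H2.map (TopCat.ofHom ((fc D).comp inc)) = H2.map (TopCat.ofHom (inc.comp g1)) :=
    TopCat.Homotopy.congr_homologyMap_singularChainComplexFunctor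
      (f := TopCat.ofHom ((fc D).comp inc)) (g := TopCat.ofHom (inc.comp g1)) (homot D) _ 2
  refine Module.End.hasEigenvalue_of_hasEigenvector
    (x := (H2.map (TopCat.ofHom inc)).hom c) ⟨?_, fun h => hc ?_⟩
  · rw [Module.End.mem_eigenspace_iff, ← H2_comp, h1, H2_comp, hg, map_smul]
  · have h2 : (H2.map (TopCat.ofHom (prj.comp inc))).hom c = c := by
      have : TopCat.ofHom (prj.comp inc) = CategoryTheory.CategoryStruct.id _ := rfl
      rw [this, H2.map_id]; rfl
    rw [← h2, H2_comp, h, map_zero]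

end Crest.Agent.R123.Glob

namespace Crest.Agent.R123

open Glob

theorem goal_of (D : LocalData) (hH : SphereEigen) (hZ : EntropyLemma) : Goal := by
  obtain ⟨cs, im, hf⟩ := transport II 11 (by simp [Module.finrank_prod]) (ff D) (cm_ff D)
  exact ⟨11, M, inferInstance, inferInstance, ⟨(1, NP, NP)⟩, cs, im, fc D, hf,
    entropy_zero D hZ, eigen D hH⟩

end Crest.Agent.R123
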