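import Crest.Agent.R123.Defs

/-! Row 123: transport of charts to a Euclidean model space. -/

set_option autoImplicit false

open scoped Manifold ContDiff

namespace Crest.Agent.R123.Glob

theorem transport {E H M : Type} [NormedAddCommGroup E] [NormedSpace ℝ E] [TopologicalSpace H]
    [TopologicalSpace M] (I : ModelWithCorners ℝ E H) [I.Boundaryless] [FiniteDimensional ℝ E]
    [ChartedSpace H M] [IsManifold I ∞ M] (n : ℕ) (hn : Module.finrank ℝ E = n) (f : M → M)
    (hf : ContMDiff I I 1 f) :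
    ∃ (_ : ChartedSpace (EuclideanSpace ℝ (Fin n)) M)
      (_ : IsManifold (modelWithCornersSelf ℝ (EuclideanSpace ℝ (Fin n))) ∞ M),
      ContMDiff (modelWithCornersSelf ℝ (EuclideanSpace ℝ (Fin n)))
        (modelWithCornersSelf ℝ (EuclideanSpace ℝ (Fin n))) 1 f := by
  let L : E ≃L[ℝ] EuclideanSpace ℝ (Fin n) :=
    ContinuousLinearEquiv.ofFinrankEq (by simp [hn])
  let φ : H ≃ₜ EuclideanSpace ℝ (Fin n) := I.toHomeomorph.trans L.toHomeomorph
  letI cs : ChartedSpace (EuclideanSpace ℝ (Fin n)) M :=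
    { atlas := (fun e => e.transHomeomorph φ) '' atlas H M
      chartAt := fun x => (chartAt H x).transHomeomorph φ
      mem_chart_source := fun x => mem_chart_source H x
      chart_mem_atlas := fun x => ⟨_, chart_mem_atlas H x, rfl⟩ }
  refine ⟨cs, isManifold_of_contDiffOn _ _ _ ?_, fun x => ?_⟩
  · rintro _ _ ⟨e, he, rfl⟩ ⟨e', he', rfl⟩
    have h1 := (contDiffGroupoid ∞ I).compatible he he'
    rw [contDiffGroupoid, mem_groupoid_of_pregroupoid] at h1
    have h2 : ContDiffOn ℝ ∞ (I ∘ e.symm ≫ₕ e' ∘ I.symm)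
      (I.symm ⁻¹' (e.symm ≫ₕ e').source ∩ Set.range I) := h1.1
    have h3 := L.contDiff.comp_contDiffOn (h2.comp (s := (modelWithCornersSelf ℝ _).symm ⁻¹'
      ((e.transHomeomorph φ).symm ≫ₕ e'.transHomeomorph φ).source ∩
        Set.range (modelWithCornersSelf ℝ (EuclideanSpace ℝ (Fin n))))
      L.symm.contDiff.contDiffOn ?_)
    · exact h3
    · rintro y ⟨hy, -⟩
      exact ⟨hy, by simp [I.range_eq_univ]⟩
  · have h1 := contMDiffAt_iff.1 (hf x)
    rw [contMDiffAt_iff]
    refine ⟨h1.1, ?_⟩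
    have h2 := h1.2
    rw [I.range_eq_univ, contDiffWithinAt_univ] at h2
    rw [ModelWithCorners.range_eq_univ, contDiffWithinAt_univ]
    have h3 : ContDiffAt ℝ 1 (L ∘ (extChartAt I (f x) ∘ f ∘ (extChartAt I x).symm) ∘ L.symm)
        (L (extChartAt I x x)) :=
      L.contDiff.contDiffAt.comp _ (ContDiffAt.comp _ (by simpa using h2)
        L.symm.contDiff.contDiffAt)
    exact h3

end Crest.Agent.R123.Glob
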