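import Crest.Agent.R123.Glob1

/-! Row 123: the global map, definitions and pointwise facts. -/

set_option autoImplicit false

noncomputable section

namespace Crest.Agent.R123.Glob

abbrev Vz : Type := PiLp 2 (fun _ : ZMod 4 => ℂ)
abbrev EE (W : Type) : Type := WithLp 2 (W × ℝ)
abbrev M : Type := Circle × Sph ℂ × Sph Vz

def chi (t : ℝ) : ℝ := Real.smoothTransition (4 * t + 2)
def sig (t : ℝ) : ℝ := (1 - chi t) * (-t) + chi t
def bet (t : ℝ) : ℝ := Real.smoothTransition (1 - 2 * t)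

theorem chi_low {t : ℝ} (h : t ≤ -1 / 2) : chi t = 0 :=
  Real.smoothTransition.zero_of_nonpos (by linarith)
theorem chi_high {t : ℝ} (h : -1 / 4 ≤ t) : chi t = 1 :=
  Real.smoothTransition.one_of_one_le (by linarith)
theorem chi_nonneg (t : ℝ) : 0 ≤ chi t := Real.smoothTransition.nonneg _
theorem chi_le (t : ℝ) : chi t ≤ 1 := Real.smoothTransition.le_one _
theorem bet_low {t : ℝ} (h : t ≤ 0) : bet t = 1 :=
  Real.smoothTransition.one_of_one_le (by linarith)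
theorem bet_high {t : ℝ} (h : 1 / 2 ≤ t) : bet t = 0 :=
  Real.smoothTransition.zero_of_nonpos (by linarith)
theorem bet_nonneg (t : ℝ) : 0 ≤ bet t := Real.smoothTransition.nonneg _
theorem bet_le (t : ℝ) : bet t ≤ 1 := Real.smoothTransition.le_one _

theorem sig_low {t : ℝ} (h : t ≤ -1 / 2) : sig t = -t := by simp [sig, chi_low h]

theorem sig_pos (t : ℝ) : 0 < sig t := by
  rcases le_total t (-1 / 4) with h | h
  · have h1 := chi_nonneg t
    have h2 := chi_le t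
    unfold sig
    nlinarith
  · simp [sig, chi_high h]

theorem sig_le {t : ℝ} (h : -1 ≤ t) : sig t ≤ 1 := by
  have h1 := chi_nonneg t
  have h2 := chi_le t
  unfold sig
  nlinarith

section gen
variable {W : Type} [NormedAddCommGroup W] [NormedSpace ℝ W]

def pk (a : W) (t : ℝ) : EE W := WithLp.toLp 2 (a, t)

omit [NormedAddCommGroup W] [NormedSpace ℝ W] in
@[simp] theorem pk_fst (a : W) (t : ℝ) : (pk a t).fst = a := rfl
omit [NormedAddCommGroup W] [NormedSpace ℝ W] in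
@[simp] theorem pk_snd (a : W) (t : ℝ) : (pk a t).snd = t := rfl

omit [NormedAddCommGroup W] [NormedSpace ℝ W] in
theorem pk_eta (y : EE W) : pk y.fst y.snd = y := rfl

omit [NormedSpace ℝ W] in
theorem norm_sq (y : EE W) : ‖y‖ ^ 2 = ‖y.fst‖ ^ 2 + y.snd ^ 2 := by
  rw [WithLp.prod_norm_sq_eq_of_L2, Real.norm_eq_abs, sq_abs]

omit [NormedSpace ℝ W] in
theorem pk_ne_zero_of_snd {a : W} {t : ℝ} (h : t ≠ 0) : pk a t ≠ 0 :=
  fun e => h (congrArg WithLp.snd e)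

omit [NormedSpace ℝ W] in
theorem pk_ne_zero_of_fst {a : W} {t : ℝ} (h : a ≠ 0) : pk a t ≠ 0 :=
  fun e => h (congrArg WithLp.fst e)

omit [NormedSpace ℝ W] in
theorem sph_sq (y : Sph W) : ‖y.1.fst‖ ^ 2 + y.1.snd ^ 2 = 1 := by
  rw [← norm_sq, norm_eq_of_mem_sphere y]; norm_num

def crd (y : EE W) : W := (sig y.snd)⁻¹ • y.fst

def nrm (y : EE W) : EE W := ‖y‖⁻¹ • y

theorem nrm_mem {y : EE W} (h : y ≠ 0) : nrm y ∈ Metric.sphere (0 : EE W) 1 := by
  rw [mem_sphere_zero_iff_norm, nrm, norm_smul, norm_inv, norm_norm,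
    inv_mul_cancel₀ (norm_ne_zero_iff.2 h)]

theorem nrm_smul {c : ℝ} (hc : 0 < c) (y : EE W) : nrm (c • y) = nrm y := by
  unfold nrm
  rw [norm_smul, Real.norm_eq_abs, abs_of_pos hc, smul_smul, mul_inv, mul_comm c⁻¹,
    mul_assoc, inv_mul_cancel₀ hc.ne', mul_one]

theorem nrm_of_norm {y : EE W} (h : ‖y‖ = 1) : nrm y = y := by simp [nrm, h]

theorem nrm_snd (y : EE W) : (nrm y).snd = ‖y‖⁻¹ * y.snd := rfl
theorem nrm_fst (y : EE W) : (nrm y).fst = ‖y‖⁻¹ • y.fst := rfl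

/-- central projection onto the lower hemisphere -/
def PP (a : W) : Sph W := ⟨nrm (pk a (-1)), nrm_mem (pk_ne_zero_of_snd (by norm_num))⟩

omit [NormedSpace ℝ W] in
theorem one_le_norm_pk (a : W) : 1 ≤ ‖pk a (-1 : ℝ)‖ := by
  have h := norm_sq (pk a (-1 : ℝ))
  simp only [pk_fst, pk_snd] at h
  nlinarith [norm_nonneg (pk a (-1 : ℝ)), sq_nonneg ‖a‖]

theorem PP_low_iff (a : W) : (PP a).1.snd ≤ -1 / 2 ↔ ‖a‖ ^ 2 ≤ 3 := by
  have h := norm_sq (pk a (-1 : ℝ))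
  have h1 := one_le_norm_pk a
  simp only [pk_fst, pk_snd] at h
  change ‖pk a (-1 : ℝ)‖⁻¹ * (-1) ≤ -1 / 2 ↔ _
  generalize ‖pk a (-1 : ℝ)‖ = N at h h1
  rw [show N⁻¹ * (-1) ≤ -1 / 2 ↔ 2⁻¹ ≤ N⁻¹ by constructor <;> intro h <;> linarith,
    inv_le_inv₀ (by norm_num) (by linarith)]
  constructor <;> intro h2 <;> nlinarith

theorem crd_PP {a : W} (h : (PP a).1.snd ≤ -1 / 2) : crd (PP a).1 = a := by
  unfold crd
  rw [sig_low h]
  have h1 := one_le_norm_pk a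
  change (-(‖pk a (-1 : ℝ)‖⁻¹ * (-1)))⁻¹ • ‖pk a (-1 : ℝ)‖⁻¹ • a = a
  rw [smul_smul, show -(‖pk a (-1 : ℝ)‖⁻¹ * (-1)) = ‖pk a (-1 : ℝ)‖⁻¹ by ring,
    inv_mul_cancel₀ (inv_ne_zero (by linarith)), one_smul]

omit [NormedSpace ℝ W] in
theorem continuous_pk : Continuous fun p : W × ℝ => pk p.1 p.2 := WithLp.prod_continuous_toLp _ _ _

theorem continuous_nrm {X : Type} [TopologicalSpace X] {F : X → EE W} (hF : Continuous F)
    (h : ∀ x, F x ≠ 0) : Continuous fun x => nrm (F x) :=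
  (hF.norm.inv₀ fun x => norm_ne_zero_iff.2 (h x)).smul hF

theorem continuous_PP : Continuous (PP : W → Sph W) :=
  Continuous.subtype_mk (continuous_nrm (continuous_pk.comp (continuous_id.prodMk continuous_const))
    fun _ => pk_ne_zero_of_snd (by norm_num)) _

/-- north pole -/
def NP : Sph W := ⟨nrm (pk 0 1), nrm_mem (pk_ne_zero_of_snd (by norm_num))⟩

theorem NP_snd : (NP : Sph W).1.snd = 1 := by
  have h := norm_sq (pk (0 : W) (1 : ℝ))
  simp only [pk_fst, pk_snd, norm_zero] at h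
  have h1 : ‖pk (0 : W) (1 : ℝ)‖ = 1 := by nlinarith [norm_nonneg (pk (0 : W) (1 : ℝ))]
  change ‖pk (0 : W) (1 : ℝ)‖⁻¹ * 1 = 1
  rw [h1]; norm_num

end gen

def toV : Vz ≃L[ℝ] V := PiLp.continuousLinearEquiv 2 ℝ (fun _ : ZMod 4 => ℂ)

def kill (v : V) : V := v - Pi.single 2 (v 2)

theorem kill_single (a : ℂ) : kill (Pi.single 2 a) = 0 := by simp [kill]
theorem kill_two (v : V) : kill v 2 = 0 := by simp [kill]
theorem kill_kill (v : V) : kill (kill v) = kill v := by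
  conv_lhs => rw [kill, kill_two]
  simp
theorem kill_add (v : V) : kill v + Pi.single 2 (v 2) = v := by simp [kill]
theorem kill_zero : kill 0 = 0 := by simp [kill]

theorem norm_kill_apply (v : V) (j : ZMod 4) : ‖kill v j‖ ≤ ‖v‖ := by
  by_cases h : j = 2
  · subst h; rw [kill_two, norm_zero]; exact norm_nonneg _
  · simp only [kill, Pi.sub_apply, Pi.single_eq_of_ne h, sub_zero]
    exact norm_le_pi_norm v j

theorem norm_symm_kill {v : V} (h : ‖v‖ ≤ 1 / 2) : ‖toV.symm (kill v)‖ ^ 2 ≤ 1 := by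
  rw [PiLp.norm_sq_eq_of_L2]
  calc _ ≤ ∑ _j : ZMod 4, (1 / 2 : ℝ) ^ 2 := by
        refine Finset.sum_le_sum fun j _ => ?_
        exact pow_le_pow_left₀ (norm_nonneg _) ((norm_kill_apply v j).trans h) 2
    _ = 1 := by simp [ZMod.card]; norm_num

variable (D : LocalData)

def vv (a : EE ℂ) (b : EE Vz) : V := kill (toV (crd b)) + Pi.single 2 (crd a)
def GG (ξ : ℂ) (a : EE ℂ) (b : EE Vz) : V := D.g (ξ, vv a b)
def WW (ξ : ℂ) (a : EE ℂ) (b : EE Vz) : ℂ :=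
  bet a.snd • (a.fst ^ 2 / D.r) +
    ((1 - chi a.snd) * sig a.snd ^ 2) • (GG D ξ a b 2 - vv a b 2 ^ 2 / D.r)
def TT (t : ℝ) : ℝ := -(1 - chi t) * t ^ 2 + chi t / D.r
def ZZ (ξ : ℂ) (a : EE ℂ) (b : EE Vz) : Vz := (1 - chi a.snd) • toV.symm (kill (GG D ξ a b))

theorem vv_two (a : EE ℂ) (b : EE Vz) : vv a b 2 = crd a := by simp [vv, kill_two]

theorem low_eq (ξ : ℂ) {a : EE ℂ} (b : EE Vz) (h : a.snd ≤ -1 / 2) :
    pk (WW D ξ a b) (TT D a.snd) = a.snd ^ 2 • pk (GG D ξ a b 2) (-1) := by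
  have ht : (a.snd : ℂ) ≠ 0 := by
    have : a.snd ≠ 0 := by linarith
    exact_mod_cast this
  have hr : (D.r : ℂ) ≠ 0 := by exact_mod_cast D.r_pos.ne'
  have h1 : WW D ξ a b = a.snd ^ 2 • GG D ξ a b 2 := by
    unfold WW
    rw [bet_low (by linarith), chi_low h, vv_two, crd, sig_low h]
    simp only [Complex.real_smul]
    push_cast
    field_simp
    ring
  have h2 : TT D a.snd = a.snd ^ 2 * (-1) := by unfold TT; rw [chi_low h]; ring
  rw [h1, h2]; rfl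

theorem far_of_mid (ξ : ℂ) (a : Sph ℂ) (b : EE Vz) (h1 : -1 / 2 ≤ a.1.snd) (h2 : a.1.snd ≤ -1 / 4) :
    GG D ξ a.1 b = Pi.single 2 (vv a.1 b 2 ^ 2 / D.r) := by
  apply D.far
  refine le_trans ?_ (norm_le_pi_norm _ 2)
  rw [vv_two, crd, norm_smul, norm_inv, Real.norm_eq_abs, abs_of_pos (sig_pos _)]
  have h3 := sph_sq a
  have h4 : 1 / 2 ≤ ‖a.1.fst‖ := by nlinarith [norm_nonneg a.1.fst]
  have h5 : 1 ≤ (sig a.1.snd)⁻¹ := (one_le_inv₀ (sig_pos _)).2 (sig_le (by linarith))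
  have := D.r_le
  nlinarith

theorem high_eq (ξ : ℂ) (a : Sph ℂ) (b : EE Vz) (h : -1 / 2 ≤ a.1.snd) :
    WW D ξ a.1 b = bet a.1.snd • (a.1.fst ^ 2 / D.r) ∧ ZZ D ξ a.1 b = 0 := by
  rcases le_total a.1.snd (-1 / 4) with h2 | h2
  · have := far_of_mid D ξ a b h h2
    unfold WW ZZ
    rw [this, kill_single]
    simp
  · unfold WW ZZ
    rw [chi_high h2]
    simp

theorem TT_high {t : ℝ} (h : -1 / 4 ≤ t) : TT D t = 1 / D.r := by
  unfold TT; rw [chi_high h]; ring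

theorem one_le_W (ξ : ℂ) (a : Sph ℂ) (b : EE Vz) (h1 : -1 / 2 ≤ a.1.snd) (h2 : a.1.snd ≤ -1 / 4) :
    1 ≤ ‖WW D ξ a.1 b‖ := by
  rw [(high_eq D ξ a b h1).1, bet_low (by linarith), one_smul, norm_div, norm_pow,
    Complex.norm_real, Real.norm_eq_abs, abs_of_pos D.r_pos, le_div_iff₀ D.r_pos]
  have h3 := sph_sq a
  have := D.r_le
  nlinarith

theorem F1_ne (ξ : ℂ) (a : Sph ℂ) (b : EE Vz) : pk (WW D ξ a.1 b) (TT D a.1.snd) ≠ 0 := by
  rcases le_total a.1.snd (-1 / 2) with h1 | h1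
  · apply pk_ne_zero_of_snd
    unfold TT
    rw [chi_low h1, zero_div]
    nlinarith
  · rcases le_total a.1.snd (-1 / 4) with h2 | h2
    · apply pk_ne_zero_of_fst
      intro h
      have := one_le_W D ξ a b h1 h2
      rw [h, norm_zero] at this
      linarith
    · apply pk_ne_zero_of_snd
      rw [TT_high D h2]
      exact (one_div_pos.2 D.r_pos).ne'

/-- the global map -/
def ff (x : M) : M :=
  (D.om * x.1, ⟨nrm (pk (WW D x.1 x.2.1.1 x.2.2.1) (TT D x.2.1.1.snd)), nrm_mem (F1_ne D _ _ _)⟩,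
    PP (ZZ D x.1 x.2.1.1 x.2.2.1))

/-- height -/
def ht (x : M) : ℝ := x.2.1.1.snd

/-- chart coordinate -/
def co (x : M) : V := vv x.2.1.1 x.2.2.1

theorem ff_low {x : M} (h : ht x ≤ -1 / 2) :
    (ff D x).2 = (PP (D.g (x.1, co x) 2), PP (toV.symm (kill (D.g (x.1, co x))))) := by
  refine Prod.ext (Subtype.ext ?_) ?_
  · change nrm _ = nrm _
    have : x.2.1.1.snd ≠ 0 := by unfold ht at h; linarith
    rw [low_eq D _ _ h, nrm_smul (by positivity)]
    rfl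
  · change PP _ = PP _
    unfold ZZ
    unfold ht at h
    rw [chi_low h, sub_zero, one_smul]
    rfl

theorem norm_kill_g (ξ : Circle) (v : V) : ‖toV.symm (kill (D.g (ξ, v)))‖ ^ 2 ≤ 1 := by
  rcases le_total ‖v‖ (4 * D.r) with h | h
  · exact norm_symm_kill (D.small ξ v h)
  · rw [D.far _ _ h, kill_single]; simp

theorem co_ff {x : M} (h : ht x ≤ -1 / 2) (h' : ht (ff D x) ≤ -1 / 2) :
    co (ff D x) = D.g (x.1, co x) ∧ ‖D.g (x.1, co x)‖ ≤ 2 := by
  unfold ht at h'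
  have e := ff_low D h
  rw [e] at h'
  have h2 := norm_kill_g D x.1 (co x)
  constructor
  · conv_lhs => unfold co
    rw [e]
    unfold vv
    rw [crd_PP h', crd_PP ((PP_low_iff _).2 (by linarith)), ContinuousLinearEquiv.apply_symm_apply,
      kill_kill, kill_add]
  · rw [PP_low_iff] at h'
    generalize D.g (x.1, co x) = G at h' h2
    rw [pi_norm_le_iff_of_nonneg (by norm_num)]
    intro j
    by_cases hj : j = 2
    · subst hj; nlinarith [norm_nonneg (G 2)]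
    · have h3 : ‖toV.symm (kill G) j‖ ≤ ‖toV.symm (kill G)‖ := PiLp.norm_apply_le _ j
      have h4 : toV.symm (kill G) j = G j := by
        change kill G j = G j
        simp [kill, Pi.single_eq_of_ne hj]
      rw [h4] at h3
      nlinarith [norm_nonneg (toV.symm (kill G))]

theorem ht_ff (x : M) : ht (ff D x) =
    ‖pk (WW D x.1 x.2.1.1 x.2.2.1) (TT D (ht x))‖⁻¹ * TT D (ht x) := rfl

theorem step1 {x : M} (h : -1 / 2 ≤ ht x) : -1 / 4 ≤ ht (ff D x) := by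
  rw [ht_ff]
  rcases le_total (ht x) (-1 / 4) with h2 | h2
  · have h3 := one_le_W D x.1 x.2.1 x.2.2.1 h h2
    have h4 := norm_sq (pk (WW D x.1 x.2.1.1 x.2.2.1) (TT D (ht x)))
    simp only [pk_fst, pk_snd] at h4
    have h0 := norm_nonneg (pk (WW D x.1 x.2.1.1 x.2.2.1) (TT D (ht x)))
    generalize ‖pk (WW D x.1 x.2.1.1 x.2.2.1) (TT D (ht x))‖ = N at h4 h0
    have h5 : 1 ≤ N := by nlinarith [sq_nonneg (TT D (ht x))]
    have h6 : -1 / 4 ≤ TT D (ht x) := by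
      unfold TT
      have := chi_nonneg (ht x)
      have := chi_le (ht x)
      have : 0 ≤ chi (ht x) / D.r := div_nonneg (chi_nonneg _) D.r_pos.le
      have : ht x ^ 2 ≤ 1 / 4 := by nlinarith
      nlinarith [sq_nonneg (ht x)]
    have h7 : N⁻¹ ≤ 1 := inv_le_one_of_one_le₀ h5
    have h8 : 0 ≤ N⁻¹ := by positivity
    nlinarith
  · rw [TT_high D h2]
    have := D.r_pos
    have : 0 ≤ ‖pk (WW D x.1 x.2.1.1 x.2.2.1) (1 / D.r)‖⁻¹ * (1 / D.r) := by positivity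
    linarith

theorem step2 {x : M} (h : -1 / 4 ≤ ht x) : 1 / 2 ≤ ht (ff D x) := by
  have hne := norm_pos_iff.2 (F1_ne D x.1 x.2.1 x.2.2.1)
  rw [ht_ff]
  have h4 := norm_sq (pk (WW D x.1 x.2.1.1 x.2.2.1) (TT D (ht x)))
  simp only [pk_fst, pk_snd] at h4
  change 0 < ‖pk (WW D x.1 x.2.1.1 x.2.2.1) (TT D (ht x))‖ at hne
  generalize ‖pk (WW D x.1 x.2.1.1 x.2.2.1) (TT D (ht x))‖ = N at h4 hne
  have hr := D.r_pos
  have h5 : ‖WW D x.1 x.2.1.1 x.2.2.1‖ ≤ 1 / D.r := by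
    rw [(high_eq D x.1 x.2.1 x.2.2.1 (by unfold ht at h; linarith)).1, norm_smul, norm_div, norm_pow,
      Complex.norm_real, Real.norm_eq_abs, Real.norm_eq_abs, abs_of_pos D.r_pos,
      abs_of_nonneg (bet_nonneg _)]
    have h3 := sph_sq x.2.1
    have h6 : ‖x.2.1.1.fst‖ ^ 2 / D.r ≤ 1 / D.r := by
      gcongr; nlinarith [sq_nonneg x.2.1.1.snd]
    exact (mul_le_of_le_one_left (by positivity) (bet_le _)).trans h6
  rw [TT_high D h] at h4 ⊢
  generalize 1 / D.r = T at h4 h5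
  have h6 : 0 ≤ T := (norm_nonneg _).trans h5
  have h7 : N ≤ 2 * T := by
    have := pow_le_pow_left₀ (norm_nonneg _) h5 2
    nlinarith
  rw [inv_mul_eq_div, le_div_iff₀ hne]
  linarith

theorem step3 {x : M} (h : 1 / 2 ≤ ht x) : (ff D x).2 = (NP, PP 0) := by
  have h1 := high_eq D x.1 x.2.1 x.2.2.1 (by unfold ht at h; linarith)
  refine Prod.ext (Subtype.ext ?_) ?_
  · change nrm _ = nrm _
    unfold ht at h
    rw [h1.1, bet_high h, zero_smul, TT_high D (by linarith), ← nrm_smul D.r_pos]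
    congr 1
    change pk (D.r • (0 : ℂ)) (D.r * (1 / D.r)) = _
    rw [smul_zero, mul_one_div_cancel D.r_pos.ne']
  · change PP _ = PP _
    rw [h1.2]

end Crest.Agent.R123.Glob
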