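import Crest.Agent.R123.Glob2

/-! Row 123: the global map is `C¹`. -/

set_option autoImplicit false

open scoped Manifold ContDiff

noncomputable section

namespace Crest.Agent.R123.Glob

theorem cd_chi : ContDiff ℝ 1 chi :=
  (Real.smoothTransition.contDiff (n := 1)).comp (by fun_prop)
theorem cd_bet : ContDiff ℝ 1 bet :=
  (Real.smoothTransition.contDiff (n := 1)).comp (by fun_prop)
theorem cd_sig : ContDiff ℝ 1 sig := by
  have := cd_chi
  unfold sig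
  fun_prop

section gen
variable {W : Type} [NormedAddCommGroup W] [NormedSpace ℝ W]

theorem cd_fst : ContDiff ℝ 1 (WithLp.fst : EE W → W) := (WithLp.fstL 2 ℝ W ℝ).contDiff
theorem cd_snd : ContDiff ℝ 1 (WithLp.snd : EE W → ℝ) := (WithLp.sndL 2 ℝ W ℝ).contDiff
theorem cd_pk : ContDiff ℝ 1 (fun p : W × ℝ => pk p.1 p.2) :=
  (WithLp.prodContinuousLinearEquiv 2 ℝ W ℝ).symm.contDiff

theorem cd_crd : ContDiff ℝ 1 (crd : EE W → W) :=
  ((cd_sig.comp cd_snd).inv fun _ => (sig_pos _).ne').smul cd_fst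

end gen

theorem cda_nrm {W : Type} [NormedAddCommGroup W] [InnerProductSpace ℝ W] {y : EE W} (h : y ≠ 0) :
    ContDiffAt ℝ 1 (nrm : EE W → EE W) y :=
  ((contDiffAt_norm ℝ h).inv (norm_ne_zero_iff.2 h)).smul contDiffAt_id

theorem cd_single : ContDiff ℝ 1 (fun a : ℂ => (Pi.single 2 a : V)) :=
  (ContinuousLinearMap.single ℝ (fun _ : ZMod 4 => ℂ) 2).contDiff

theorem cd_kill : ContDiff ℝ 1 kill :=
  contDiff_id.sub (cd_single.comp (contDiff_apply ℝ ℂ 2))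

abbrev Amb : Type := ℂ × EE ℂ × EE Vz

theorem cd_vv : ContDiff ℝ 1 (fun p : Amb => vv p.2.1 p.2.2) :=
  (cd_kill.comp (toV.contDiff.comp (cd_crd.comp (contDiff_snd.comp contDiff_snd)))).add
    (cd_single.comp (cd_crd.comp (contDiff_fst.comp contDiff_snd)))

variable (D : LocalData)

theorem cda_GG (ξ : Circle) (q : EE ℂ × EE Vz) :
    ContDiffAt ℝ 1 (fun p : Amb => GG D p.1 p.2.1 p.2.2) ((ξ : ℂ), q) :=
  ContDiffAt.comp (g := D.g) (f := fun p : Amb => (p.1, vv p.2.1 p.2.2)) _ (D.smooth ξ _)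
    (contDiff_fst.prodMk cd_vv).contDiffAt

theorem cd_t : ContDiff ℝ 1 (fun p : Amb => p.2.1.snd) :=
  cd_snd.comp (contDiff_fst.comp contDiff_snd)

theorem cd_w : ContDiff ℝ 1 (fun p : Amb => p.2.1.fst) :=
  cd_fst.comp (contDiff_fst.comp contDiff_snd)

theorem cda_WW (ξ : Circle) (q : EE ℂ × EE Vz) :
    ContDiffAt ℝ 1 (fun p : Amb => WW D p.1 p.2.1 p.2.2) ((ξ : ℂ), q) := by
  have h1 : ContDiff ℝ 1 (fun p : Amb => (1 - chi p.2.1.snd) * sig p.2.1.snd ^ 2) :=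
    (contDiff_const.sub (cd_chi.comp cd_t)).mul ((cd_sig.comp cd_t).pow 2)
  have h2 : ContDiffAt ℝ 1 (fun p : Amb => GG D p.1 p.2.1 p.2.2 2) ((ξ : ℂ), q) :=
    (contDiff_apply ℝ ℂ 2).contDiffAt.comp _ (cda_GG D ξ q)
  have h3 : ContDiff ℝ 1 (fun p : Amb => vv p.2.1 p.2.2 2 ^ 2 / (D.r : ℂ)) :=
    (((contDiff_apply ℝ ℂ 2).comp cd_vv).pow 2).div_const _
  exact ContDiffAt.add ((cd_bet.comp cd_t).smul ((cd_w.pow 2).div_const _)).contDiffAt
    (h1.contDiffAt.smul (h2.sub h3.contDiffAt))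

theorem cd_TT : ContDiff ℝ 1 (TT D) :=
  ((contDiff_const.sub cd_chi).neg.mul (contDiff_id.pow 2)).add (cd_chi.div_const _)

theorem cda_ZZ (ξ : Circle) (q : EE ℂ × EE Vz) :
    ContDiffAt ℝ 1 (fun p : Amb => ZZ D p.1 p.2.1 p.2.2) ((ξ : ℂ), q) :=
  (contDiff_const.sub (cd_chi.comp cd_t)).contDiffAt.smul
    ((toV.symm.contDiff.comp cd_kill).contDiffAt.comp _ (cda_GG D ξ q))

instance fact1 : Fact (Module.finrank ℝ (EE ℂ) = 2 + 1) :=
  ⟨by rw [(WithLp.linearEquiv 2 ℝ (ℂ × ℝ)).finrank_eq]; simp⟩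

instance fact2 : Fact (Module.finrank ℝ (EE Vz) = 8 + 1) :=
  ⟨by
    rw [(WithLp.linearEquiv 2 ℝ (Vz × ℝ)).finrank_eq, Module.finrank_prod,
      toV.toLinearEquiv.finrank_eq, Module.finrank_pi_fintype]
    simp [ZMod.card]⟩

abbrev II := (𝓡 1).prod ((𝓡 2).prod (𝓡 8))

def emb (x : M) : Amb := (x.1, x.2.1.1, x.2.2.1)

theorem cm_emb : ContMDiff II 𝓘(ℝ, Amb) 1 emb := by
  have h0 : ContMDiff (𝓡 1) 𝓘(ℝ, ℂ) 1 (fun z : Circle => (z : ℂ)) :=
    haveI : Fact (Module.finrank ℝ ℂ = 1 + 1) := Complex.finrank_real_complex_fact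
    contMDiff_coe_sphere
  refine ContMDiff.prodMk_space (h0.comp contMDiff_fst) (ContMDiff.prodMk_space ?_ ?_)
  · exact contMDiff_coe_sphere.comp (contMDiff_fst.comp contMDiff_snd)
  · exact contMDiff_coe_sphere.comp (contMDiff_snd.comp contMDiff_snd)

theorem cm_W : ContMDiff II 𝓘(ℝ, EE ℂ) 1
    (fun x : M => pk (WW D x.1 x.2.1.1 x.2.2.1) (TT D x.2.1.1.snd)) := fun x =>
  ContDiffAt.comp_contMDiffAt (f := emb)
    (g := fun p : Amb => pk (WW D p.1 p.2.1 p.2.2) (TT D p.2.1.snd))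
    (cd_pk.contDiffAt.comp _ ((cda_WW D x.1 _).prodMk ((cd_TT D).comp cd_t).contDiffAt)) (cm_emb x)

theorem cm_Z : ContMDiff II 𝓘(ℝ, Vz) 1 (fun x : M => ZZ D x.1 x.2.1.1 x.2.2.1) := fun x =>
  ContDiffAt.comp_contMDiffAt (f := emb) (g := fun p : Amb => ZZ D p.1 p.2.1 p.2.2)
    (cda_ZZ D x.1 _) (cm_emb x)

theorem cm_ff : ContMDiff II II 1 (ff D) := by
  refine ContMDiff.prodMk (contMDiff_const.mul contMDiff_fst) (ContMDiff.prodMk ?_ ?_)
  · refine ContMDiff.codRestrict_sphere (f := fun x : M =>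
      nrm (pk (WW D x.1 x.2.1.1 x.2.2.1) (TT D x.2.1.1.snd))) (fun x => ?_) _
    exact ContDiffAt.comp_contMDiffAt (g := nrm)
      (f := fun x : M => pk (WW D x.1 x.2.1.1 x.2.2.1) (TT D x.2.1.1.snd))
      (cda_nrm (F1_ne D _ _ _)) (cm_W D x)
  · refine ContMDiff.codRestrict_sphere (f := fun x : M =>
      nrm (pk (ZZ D x.1 x.2.1.1 x.2.2.1) (-1))) (fun x => ?_)
      (fun x => nrm_mem (pk_ne_zero_of_snd (by norm_num)))
    refine ContDiffAt.comp_contMDiffAt (g := nrm)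
      (f := fun x : M => pk (ZZ D x.1 x.2.1.1 x.2.2.1) (-1))
      (cda_nrm (pk_ne_zero_of_snd (by norm_num))) ?_
    exact cd_pk.contDiffAt.comp_contMDiffAt
      (f := fun x : M => (ZZ D x.1 x.2.1.1 x.2.2.1, (-1 : ℝ)))
      ((cm_Z D x).prodMk_space contMDiffAt_const)

end Crest.Agent.R123.Glob
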