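import Crest.Agent.R123.Glob3

/-! Row 123: the global map has zero entropy. -/

set_option autoImplicit false

noncomputable section

namespace Crest.Agent.R123.Glob

variable (D : LocalData)

theorem iter_fst (x : M) (k : ℕ) : ((ff D)^[k] x).1 = D.om ^ k * x.1 := by
  induction k with
  | zero => simp
  | succ k ih =>
    rw [Function.iterate_succ_apply', pow_succ', mul_assoc, ← ih]; rfl

theorem co_iter (x : M) (k : ℕ) (h : ∀ i ≤ k, ht ((ff D)^[i] x) ≤ -1 / 2) :
    co ((ff D)^[k] x) = orb D.om D.g x.1 (co x) k := by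
  induction k with
  | zero => rfl
  | succ k ih =>
    have h1 := h (k + 1) le_rfl
    rw [Function.iterate_succ_apply'] at h1 ⊢
    rw [(co_ff D (h k (Nat.le_succ k)) h1).1, ih fun i hi => h i (hi.trans (Nat.le_succ k)),
      iter_fst]
    rfl

/-- the fibre point with chart coordinate `v` -/
def fib (v : V) : Sph ℂ × Sph Vz := (PP (v 2), PP (toV.symm (kill v)))

theorem continuous_fib : Continuous fib :=
  (continuous_PP.comp (continuous_apply 2)).prodMk
    (continuous_PP.comp (toV.symm.continuous.comp cd_kill.continuous))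

theorem iter_low (x : M) (k : ℕ) (h : ∀ i ≤ k + 1, ht ((ff D)^[i] x) ≤ -1 / 2) :
    ((ff D)^[k + 1] x).2 = fib (orb D.om D.g x.1 (co x) (k + 1)) ∧
      ‖orb D.om D.g x.1 (co x) (k + 1)‖ ≤ 2 := by
  have h0 := co_iter D x (k + 1) h
  have h1 := h (k + 1) le_rfl
  rw [Function.iterate_succ_apply'] at h1 h0 ⊢
  have h2 := co_ff D (h k (Nat.le_succ k)) h1
  rw [← h0, h2.1]
  exact ⟨ff_low D (h k (Nat.le_succ k)), h2.2⟩

theorem absorbed (x : M) (k : ℕ) (h : -1 / 2 ≤ ht ((ff D)^[k] x)) (i : ℕ) (hi : k + 3 ≤ i) :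
    ((ff D)^[i] x).2 = (NP, PP 0) := by
  have h1 : ∀ j, 1 / 2 ≤ ht ((ff D)^[k + 2 + j] x) := by
    intro j
    induction j with
    | zero =>
      rw [add_zero, Function.iterate_succ_apply', Function.iterate_succ_apply']
      exact step2 D (step1 D h)
    | succ j ih =>
      rw [← add_assoc, Function.iterate_succ_apply']
      exact step2 D (by linarith)
  obtain ⟨j, rfl⟩ : ∃ j, i = k + 2 + j + 1 := ⟨i - (k + 3), by omega⟩
  rw [Function.iterate_succ_apply']
  exact step3 D (h1 j)

theorem isometry_om : Isometry fun z : Circle => D.om * z := by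
  refine Isometry.of_dist_eq fun a b => ?_
  change dist ((D.om * a : Circle) : ℂ) ((D.om * b : Circle) : ℂ) = dist (a : ℂ) (b : ℂ)
  rw [Circle.coe_mul, Circle.coe_mul, dist_eq_norm, dist_eq_norm, ← mul_sub, norm_mul,
    Circle.norm_coe, one_mul]

theorem entropy_zero (hZ : EntropyLemma) : Dynamics.coverEntropy (ff D) Set.univ = 0 := by
  refine hZ Circle (Sph ℂ × Sph Vz) (ff D) (fun z => D.om * z) (isometry_om D) (fun _ => rfl)
    (fib 0) (NP, PP 0) fun ε hε => ?_
  obtain ⟨δ, hδ, hfib⟩ := Metric.continuousAt_iff.1 (continuous_fib.continuousAt (x := 0)) ε hε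
  obtain ⟨C, hC⟩ := D.visits δ hδ
  refine ⟨C + 4, fun x n => ?_⟩
  obtain ⟨k, hk1, hk2⟩ : ∃ k, (∀ i < k, ht ((ff D)^[i] x) ≤ -1 / 2) ∧
      (n ≤ k ∨ -1 / 2 ≤ ht ((ff D)^[k] x)) := by
    by_cases h : ∃ k, -1 / 2 < ht ((ff D)^[k] x)
    · exact ⟨Nat.find h, fun i hi => not_lt.1 (Nat.find_min h hi), Or.inr (Nat.find_spec h).le⟩
    · push Not at h
      exact ⟨n, fun i _ => h i, Or.inl le_rfl⟩
  refine ⟨min n (k + 3), min_le_left _ _, ?_, fun i hi hin => ?_⟩
  · have hsub : (Finset.range (min n (k + 3))).filter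
        (fun i => ε ≤ dist ((ff D)^[i] x).2 (fib 0)) ⊆
        (Finset.range k).filter (fun t => δ ≤ ‖orb D.om D.g x.1 (co x) t‖ ∧
          ‖orb D.om D.g x.1 (co x) t‖ ≤ 2) ∪ {0, k, k + 1, k + 2} := by
      intro i hi
      simp only [Finset.mem_filter, Finset.mem_range, Finset.mem_union, Finset.mem_insert,
        Finset.mem_singleton, lt_min_iff] at hi ⊢
      rcases i with _ | i
      · exact Or.inr (Or.inl rfl)
      · by_cases hik : i + 1 < k
        · have := iter_low D x i fun j hj => hk1 j (by omega)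
          refine Or.inl ⟨hik, ?_, this.2⟩
          by_contra hlt
          have h2 := hfib (x := orb D.om D.g x.1 (co x) (i + 1)) (by simpa using hlt)
          rw [this.1] at hi
          linarith [hi.2]
        · right; omega
    refine (Finset.card_le_card hsub).trans ((Finset.card_union_le _ _).trans ?_)
    exact add_le_add (hC x.1 (co x) k) Finset.card_le_four
  · rcases hk2 with h | h
    · omega
    · exact absorbed D x k h i (by omega)

end Crest.Agent.R123.Glob
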