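import Crest.Agent.R123.Stage

/-! Gluing the stage maps along a sequence of radii; the glued map is `C¹`. -/

set_option autoImplicit false

open Filter Topology Finset

namespace Crest.Agent.R123

/-- The safety margin of stage `k`. -/
noncomputable def Win.EE (W : Win) (k : ℕ) : ℝ := (2 * lam) ^ W.J k * 2 ^ (k + 5)

lemma one_le_two_lam : 1 ≤ 2 * lam := by unfold lam; norm_num

lemma Win.one_le_EE (W : Win) (k : ℕ) : 1 ≤ W.EE k :=
  one_le_mul_of_one_le_of_one_le (one_le_pow₀ one_le_two_lam) (one_le_pow₀ (by norm_num))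

/-- Windows together with radii. -/
structure Par extends Win where
  R : ℕ → ℝ
  K : ℕ → ℝ
  R_pos : ∀ k, 0 < R k
  R_zero : R 0 ≤ 1 / (100 * lam)
  R_succ : ∀ k, R (k + 1) * (4 * toWin.EE k * toWin.EE (k + 1)) ≤ R k
  K_nonneg : ∀ k, 0 ≤ K k
  K_lip : ∀ k δ, ∀ ξ ∈ Metric.closedBall (0 : ℂ) 2, ∀ ξ' ∈ Metric.closedBall (0 : ℂ) 2, ∀ v,
    ‖toWin.F δ k (ξ, v) - toWin.F δ k (ξ', v)‖ ≤ K k * ‖v‖ * ‖ξ - ξ'‖
  RK : ∀ k, R k * (K (k + 1) + K (k + 2)) ≤ 1 / 2 ^ k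

theorem exists_par : Nonempty Par := by
  obtain ⟨W⟩ := exists_win
  choose K hK0 hK using W.exists_F_lip_xi
  have hb : ∀ k, ∃ b, 0 < b ∧ b * (K (k + 1) + K (k + 2)) ≤ 1 / 2 ^ k := fun k => by
    have := hK0 (k + 1); have := hK0 (k + 2)
    refine ⟨1 / 2 ^ k / (K (k + 1) + K (k + 2) + 1), by positivity, ?_⟩
    rw [div_mul_eq_mul_div, div_le_iff₀ (by positivity)]
    exact mul_le_mul_of_nonneg_left (by linarith) (by positivity)
  choose b hb0 hb using hb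
  have hl := lam_pos
  obtain ⟨R, hQ, hP⟩ := exists_seq (fun k x => 0 < x ∧ x ≤ b k ∧ x ≤ 1 / (100 * lam))
    (fun k x y => y * (4 * W.EE k * W.EE (k + 1)) ≤ x) (min (b 0) (1 / (100 * lam)))
    ⟨lt_min (hb0 0) (by positivity), min_le_left _ _, min_le_right _ _⟩ (by
      rintro k x ⟨h1, -, -⟩
      have := W.one_le_EE k; have := W.one_le_EE (k + 1)
      refine ⟨min (min (b (k + 1)) (1 / (100 * lam))) (x / (4 * W.EE k * W.EE (k + 1))),
        ⟨lt_min (lt_min (hb0 _) (by positivity)) (by positivity),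
          (min_le_left _ _).trans (min_le_left _ _), (min_le_left _ _).trans (min_le_right _ _)⟩,
        ?_⟩
      rw [← le_div_iff₀ (by positivity)]
      exact min_le_right _ _)
  refine ⟨⟨W, R, K, fun k => (hQ k).1, (hQ 0).2.2, hP, hK0, hK, fun k => ?_⟩⟩
  have := hK0 (k + 1); have := hK0 (k + 2)
  exact (mul_le_mul_of_nonneg_right (hQ k).2.1 (by positivity)).trans (hb k)

/-- A fixed bump function. -/
noncomputable def bump : ContDiffBump (0 : V) := ⟨1, 2, by norm_num, by norm_num⟩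

/-- The bump function at radius `ρ`. -/
noncomputable def rr (ρ : ℝ) (v : V) : ℝ := bump (ρ⁻¹ • v)

lemma rr_nonneg (ρ : ℝ) (v : V) : 0 ≤ rr ρ v := bump.nonneg
lemma rr_le_one (ρ : ℝ) (v : V) : rr ρ v ≤ 1 := bump.le_one

lemma rr_eq_one {ρ : ℝ} (hρ : 0 < ρ) {v : V} (h : ‖v‖ ≤ ρ) : rr ρ v = 1 :=
  bump.one_of_mem_closedBall (by
    rw [mem_closedBall_zero_iff, norm_smul, Real.norm_of_nonneg (by positivity),
      inv_mul_le_iff₀ hρ]
    simpa [bump] using h)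

lemma rr_eq_zero {ρ : ℝ} (hρ : 0 < ρ) {v : V} (h : 2 * ρ ≤ ‖v‖) : rr ρ v = 0 :=
  bump.zero_of_le_dist (by
    rw [dist_zero_right, norm_smul, Real.norm_of_nonneg (by positivity), le_inv_mul_iff₀ hρ]
    simpa [bump, mul_comm] using h)

lemma contDiff_rr (ρ : ℝ) : ContDiff ℝ 1 (rr ρ) :=
  bump.contDiff.comp (contDiff_id.const_smul _)

lemma exists_rr_lip : ∃ C : ℝ, 0 ≤ C ∧ ∀ ρ, 0 < ρ → ∀ v v' : V,
    |rr ρ v' - rr ρ v| * ‖v‖ ≤ C * ‖v' - v‖ := by
  obtain ⟨C, hC⟩ := ContDiff.lipschitzWith_of_hasCompactSupport bump.hasCompactSupport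
    (bump.contDiff (n := 1)) one_ne_zero
  refine ⟨4 * C + 2, by positivity, fun ρ hρ v v' => ?_⟩
  have hC0 : (0 : ℝ) ≤ C := C.2
  have hn := norm_nonneg (v' - v)
  rcases le_total ‖v‖ (4 * ρ) with h | h
  · have h1 := hC.norm_sub_le (ρ⁻¹ • v') (ρ⁻¹ • v)
    rw [← smul_sub, norm_smul, Real.norm_of_nonneg (by positivity : 0 ≤ ρ⁻¹),
      Real.norm_eq_abs] at h1
    calc _ ≤ (C * (ρ⁻¹ * ‖v' - v‖)) * (4 * ρ) := mul_le_mul h1 h (norm_nonneg _) (by positivity)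
      _ = 4 * C * ‖v' - v‖ := by field_simp
      _ ≤ _ := by nlinarith
  · rw [rr_eq_zero hρ (v := v) (by linarith), sub_zero, abs_of_nonneg (rr_nonneg _ _)]
    rcases le_total (2 * ρ) ‖v'‖ with h' | h'
    · rw [rr_eq_zero hρ h', zero_mul]; positivity
    · have h1 : ‖v‖ - ‖v'‖ ≤ ‖v' - v‖ := by rw [norm_sub_rev]; exact norm_sub_norm_le _ _
      have h2 : rr ρ v' * ‖v‖ ≤ ‖v‖ := mul_le_of_le_one_left (norm_nonneg _) (rr_le_one _ _)
      nlinarith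

lemma norm_convex_le {t C : ℝ} (h0 : 0 ≤ t) (h1 : t ≤ 1) {x y : V} (hx : ‖x‖ ≤ C) (hy : ‖y‖ ≤ C) :
    ‖(1 - t) • x + t • y‖ ≤ C := by
  refine (norm_add_le _ _).trans ?_
  rw [norm_smul, norm_smul, Real.norm_of_nonneg h0, Real.norm_of_nonneg (by linarith)]
  nlinarith

namespace Par

variable (P : Par)

lemma R_succ_le (k : ℕ) : 4 * P.R (k + 1) ≤ P.R k := by
  have h1 := P.R_succ k
  have h2 := P.one_le_EE k
  have h3 := P.one_le_EE (k + 1)
  have h4 := P.R_pos (k + 1)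
  have : 1 ≤ P.EE k * P.EE (k + 1) := one_le_mul_of_one_le_of_one_le h2 h3
  nlinarith

lemma R_anti : Antitone P.R := antitone_nat_of_succ_le fun k => by
  have := P.R_succ_le k; have := P.R_pos (k + 1); linarith

lemma tendsto_R : Tendsto P.R atTop (𝓝 0) := by
  have h : ∀ k, P.R k ≤ P.R 0 * (1 / 4) ^ k := fun k => by
    induction k with
    | zero => simp
    | succ k ih => have := P.R_succ_le k; rw [pow_succ]; linarith
  refine squeeze_zero (fun k => (P.R_pos k).le) h ?_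
  simpa using (tendsto_pow_atTop_nhds_zero_of_lt_one (r := (1 / 4 : ℝ)) (by norm_num)
    (by norm_num)).const_mul (P.R 0)

lemma exists_R_lt {ε : ℝ} (hε : 0 < ε) : ∃ k, P.R k < ε :=
  (P.tendsto_R.eventually (Iio_mem_nhds hε)).exists

/-- The stage maps, with the macroscopic map at stage `0`. -/
noncomputable def St : ℕ → ℂ × V → V
  | 0, x => Pi.single 2 (x.2 2 ^ 2 / ((P.R 0 / 2 : ℝ) : ℂ))
  | k + 1, x => P.F (P.R (k + 2)) (k + 1) x

/-- Transition from stage `k` to stage `k + 1`. -/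
noncomputable def G (k : ℕ) (x : ℂ × V) : V :=
  (1 - rr (P.R k) x.2) • P.St k x + rr (P.R k) x.2 • P.St (k + 1) x

open Classical in
/-- The glued map. -/
noncomputable def g (x : ℂ × V) : V :=
  if h : ∃ k, 2 * P.R (k + 1) < ‖x.2‖ then P.G (Nat.find h) x else 0

lemma contDiff_St (k : ℕ) : ContDiff ℝ 1 (P.St k) := by
  cases k with
  | zero =>
    refine contDiff_pi.2 fun c => ?_
    by_cases hc : c = 2
    · subst hc
      simp only [St, Pi.single_eq_same]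
      exact (((contDiff_apply ℝ ℂ (2 : ZMod 4)).comp contDiff_snd).pow 2).div_const _
    · simp only [St, Pi.single_eq_of_ne hc]
      exact contDiff_const
  | succ k => exact P.contDiff_F (P.R_pos _) _

lemma contDiff_G (k : ℕ) : ContDiff ℝ 1 (P.G k) :=
  ((contDiff_const.sub ((contDiff_rr _).comp contDiff_snd)).smul (P.contDiff_St k)).add
    (((contDiff_rr _).comp contDiff_snd).smul (P.contDiff_St (k + 1)))

lemma g_zero (ξ : ℂ) : P.g (ξ, 0) = 0 := by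
  unfold g
  rw [dif_neg]
  rintro ⟨k, hk⟩
  have := P.R_pos (k + 1)
  simp only [norm_zero] at hk
  linarith

lemma g_top {x : ℂ × V} (h : 2 * P.R 1 < ‖x.2‖) : P.g x = P.G 0 x := by
  classical
  unfold g
  rw [dif_pos ⟨0, h⟩, (Nat.find_eq_zero _).2 h]

lemma g_mid {k : ℕ} {x : ℂ × V} (h : 2 * P.R (k + 2) < ‖x.2‖) (h' : ‖x.2‖ < P.R k) :
    P.g x = P.G (k + 1) x := by
  classical
  unfold g
  have hex : ∃ k, 2 * P.R (k + 1) < ‖x.2‖ := ⟨k + 1, h⟩
  rw [dif_pos hex]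
  have h1 : Nat.find hex ≤ k + 1 := Nat.find_min' hex h
  have h2 := Nat.find_spec hex
  rcases h1.eq_or_lt with h3 | h3
  · rw [h3]
  · have h4 : Nat.find hex = k := by
      by_contra h5
      have := P.R_anti (show Nat.find hex + 1 ≤ k by omega)
      have := P.R_pos k
      linarith
    rw [h4] at h2 ⊢
    simp [G, rr_eq_one (P.R_pos k) h'.le, rr_eq_zero (P.R_pos (k + 1)) h2.le]

lemma cover_le {k n : ℕ} (hkn : k ≤ n) {ρ : ℝ} (h : 2 * P.R (n + 2) < ρ) (h' : ρ < P.R k) :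
    ∃ m, k ≤ m ∧ m ≤ n ∧ 2 * P.R (m + 2) < ρ ∧ ρ < P.R m := by
  induction n, hkn using Nat.le_induction with
  | base => exact ⟨k, le_rfl, le_rfl, h, h'⟩
  | succ n hn ih =>
    by_cases h1 : ρ < P.R (n + 1)
    · exact ⟨n + 1, by omega, le_rfl, h, h1⟩
    · obtain ⟨m, h2, h3, h4⟩ := ih (by
        have := P.R_succ_le (n + 1); have := P.R_pos (n + 2); linarith [not_lt.1 h1])
      exact ⟨m, h2, by omega, h4⟩

lemma cover {k : ℕ} {ρ : ℝ} (h : 0 < ρ) (h' : ρ < P.R k) :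
    ∃ m, k ≤ m ∧ 2 * P.R (m + 2) < ρ ∧ ρ < P.R m := by
  obtain ⟨n, hn⟩ := P.exists_R_lt (half_pos h)
  obtain ⟨m, h1, -, h2⟩ := P.cover_le (le_max_left k n) (ρ := ρ) (by
    have := P.R_anti (show n ≤ max k n + 2 by omega); linarith) h'
  exact ⟨m, h1, h2⟩

lemma norm_g_le (ξ : ℂ) {v : V} (h : ‖v‖ < P.R 0) : ‖P.g (ξ, v)‖ ≤ 2 * lam * ‖v‖ := by
  rcases eq_or_ne v 0 with rfl | hv
  · simp [g_zero]
  · obtain ⟨m, -, h1, h2⟩ := P.cover (norm_pos_iff.2 hv) h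
    rw [P.g_mid h1 h2]
    exact norm_convex_le (rr_nonneg _ _) (rr_le_one _ _) (P.norm_F_le _ _ _ _)
      (P.norm_F_le _ _ _ _)

lemma contDiffAt_g_of_ne {x : ℂ × V} (hx : x.2 ≠ 0) : ContDiffAt ℝ 1 P.g x := by
  have hc : Continuous fun y : ℂ × V => ‖y.2‖ := by fun_prop
  by_cases h : 2 * P.R 1 < ‖x.2‖
  · refine (P.contDiff_G 0).contDiffAt.congr_of_eventuallyEq ?_
    filter_upwards [(isOpen_lt continuous_const hc).mem_nhds h] with y hy using P.g_top hy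
  · obtain ⟨m, -, h1, h2⟩ := P.cover (k := 0) (norm_pos_iff.2 hx) (by
      have := P.R_succ_le 0; have := P.R_pos 1; simp only [zero_add] at *; linarith)
    refine (P.contDiff_G (m + 1)).contDiffAt.congr_of_eventuallyEq ?_
    filter_upwards [(isOpen_lt continuous_const hc).mem_nhds h1,
      (isOpen_lt hc continuous_const).mem_nhds h2] with y hy hy' using P.g_mid hy hy'

lemma St_lip_v {k m : ℕ} (h : k ≤ m) (ξ : ℂ) (v v' : V) :
    ‖(P.St (m + 1) (ξ, v) - P.ainf ξ • v) - (P.St (m + 1) (ξ, v') - P.ainf ξ • v')‖ ≤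
      3 * (lam / 2 ^ k) * ‖v - v'‖ := by
  refine (P.F_lip_v (P.R_pos _) (m + 1) ξ v v').trans ?_
  have := lam_pos
  gcongr
  · norm_num
  · omega

lemma St_sub_le {k m : ℕ} (h : k ≤ m) (ξ : ℂ) (v : V) :
    ‖P.St (m + 1) (ξ, v) - P.ainf ξ • v‖ ≤ 3 * (lam / 2 ^ k) * ‖v‖ := by
  have := P.St_lip_v h ξ v 0
  simpa [St, P.F_zero] using this

lemma G_sub (k : ℕ) (ξ : ℂ) (c : ℝ) (v : V) : P.G k (ξ, v) - c • v =
    (1 - rr (P.R k) v) • (P.St k (ξ, v) - c • v) + rr (P.R k) v • (P.St (k + 1) (ξ, v) - c • v) := by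
  simp only [G]
  module

lemma g_sub_le {k : ℕ} (ξ : ℂ) {v : V} (h : ‖v‖ < P.R k) :
    ‖P.g (ξ, v) - P.ainf ξ • v‖ ≤ 3 * (lam / 2 ^ k) * ‖v‖ := by
  rcases eq_or_ne v 0 with rfl | hv
  · simp [g_zero]
  · obtain ⟨m, hm, h1, h2⟩ := P.cover (norm_pos_iff.2 hv) h
    rw [P.g_mid h1 h2, G_sub]
    exact norm_convex_le (rr_nonneg _ _) (rr_le_one _ _) (P.St_sub_le hm _ _)
      (P.St_sub_le (by omega) _ _)

/-- The derivative along the zero section. -/
noncomputable def L (ξ : ℂ) : ℂ × V →L[ℝ] V := P.ainf ξ • ContinuousLinearMap.snd ℝ ℂ V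

lemma continuous_L : Continuous P.L := P.continuous_ainf.smul continuous_const

lemma hasFDerivAt_g_zero (ξ : ℂ) : HasFDerivAt P.g (P.L ξ) (ξ, 0) := by
  rw [hasFDerivAt_iff_isLittleO, Asymptotics.isLittleO_iff]
  intro ε hε
  obtain ⟨k, hk⟩ := (Win.tendsto_lam_div.eventually (Iio_mem_nhds (show 0 < ε / 6 by
    positivity))).exists
  have hk' : lam / 2 ^ k < ε / 6 := hk
  have h1 : ∀ᶠ y : ℂ × V in 𝓝 (ξ, 0), ‖y.2‖ < P.R k :=
    (isOpen_lt (by fun_prop) continuous_const).mem_nhds (by simpa using P.R_pos k)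
  have h2 : ∀ᶠ y : ℂ × V in 𝓝 (ξ, 0), |P.ainf y.1 - P.ainf ξ| < ε / 2 :=
    (isOpen_lt (((P.continuous_ainf.comp continuous_fst).sub continuous_const).abs)
      continuous_const).mem_nhds (by simp [hε])
  filter_upwards [h1, h2] with y hy1 hy2
  obtain ⟨η, v⟩ := y
  have h3 := P.g_sub_le η hy1
  have h4 : ‖v‖ ≤ ‖((η, v) : ℂ × V) - (ξ, 0)‖ := by
    simpa using norm_snd_le (((η, v) : ℂ × V) - (ξ, 0))
  have h5 : P.g (η, v) - P.g (ξ, 0) - P.L ξ ((η, v) - (ξ, 0)) =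
      (P.g (η, v) - P.ainf η • v) + (P.ainf η - P.ainf ξ) • v := by
    simp [g_zero, L, sub_smul]
  rw [h5]
  refine (norm_add_le _ _).trans ?_
  rw [norm_smul, Real.norm_eq_abs]
  have h6 := norm_nonneg v
  simp only at hy2
  nlinarith

lemma norm_fderiv_sub_le {C : ℝ} (hC0 : 0 ≤ C) (hC : ∀ ρ, 0 < ρ → ∀ v v' : V,
    |rr ρ v' - rr ρ v| * ‖v‖ ≤ C * ‖v' - v‖) {k : ℕ} {ξ : ℂ} (hξ : ‖ξ‖ < 2) {v : V}
    (h : ‖v‖ < P.R k) :
    ‖fderiv ℝ P.g (ξ, v) - P.L ξ‖ ≤ 1 / 2 ^ k + 3 * (lam / 2 ^ k) * (1 + 2 * C) := by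
  have hl := lam_pos
  rcases eq_or_ne v 0 with rfl | hv
  · rw [(P.hasFDerivAt_g_zero ξ).fderiv, sub_self, norm_zero]; positivity
  obtain ⟨m, hm, h1, h2⟩ := P.cover (norm_pos_iff.2 hv) h
  have hd : HasFDerivAt (fun y => P.g y - P.L ξ y) (fderiv ℝ P.g (ξ, v) - P.L ξ) (ξ, v) :=
    ((P.contDiffAt_g_of_ne (x := (ξ, v)) hv).differentiableAt one_ne_zero).hasFDerivAt.sub
      (P.L ξ).hasFDerivAt
  refine hd.le_of_lip' (by positivity) ?_
  have hc : Continuous fun y : ℂ × V => ‖y.2‖ := by fun_prop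
  have hc' : Continuous fun y : ℂ × V => ‖y.1‖ := by fun_prop
  filter_upwards [(isOpen_lt continuous_const hc).mem_nhds (x := (ξ, v)) h1,
    (isOpen_lt hc continuous_const).mem_nhds (x := (ξ, v)) h2,
    (isOpen_lt hc' continuous_const).mem_nhds (x := (ξ, v)) hξ] with y hy1 hy2 hy3
  obtain ⟨η, w⟩ := y
  simp only at hy1 hy2 hy3
  rw [P.g_mid (x := (η, w)) hy1 hy2, P.g_mid (x := (ξ, v)) h1 h2]
  set D := ‖((η, w) : ℂ × V) - (ξ, v)‖ with hD
  have hD1 : ‖η - ξ‖ ≤ D := norm_fst_le (((η, w) : ℂ × V) - (ξ, v))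
  have hD2 : ‖w - v‖ ≤ D := norm_snd_le (((η, w) : ℂ × V) - (ξ, v))
  have hη : η ∈ Metric.closedBall (0 : ℂ) 2 := mem_closedBall_zero_iff.2 hy3.le
  have hξ' : ξ ∈ Metric.closedBall (0 : ℂ) 2 := mem_closedBall_zero_iff.2 hξ.le
  set ε := 3 * (lam / 2 ^ k) with hε
  have hε0 : 0 ≤ ε := by positivity
  -- variation in the base
  have e1 : ‖P.G (m + 1) (η, w) - P.G (m + 1) (ξ, w)‖ ≤ 1 / 2 ^ k * D := by
    have : P.G (m + 1) (η, w) - P.G (m + 1) (ξ, w) =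
        (1 - rr (P.R (m + 1)) w) • (P.St (m + 1) (η, w) - P.St (m + 1) (ξ, w)) +
          rr (P.R (m + 1)) w • (P.St (m + 2) (η, w) - P.St (m + 2) (ξ, w)) := by
      simp only [G]; module
    rw [this]
    have hK1 := P.K_nonneg (m + 1)
    have hK2 := P.K_nonneg (m + 2)
    have hb : (P.K (m + 1) + P.K (m + 2)) * ‖w‖ * ‖η - ξ‖ ≤ 1 / 2 ^ k * D := by
      refine mul_le_mul ?_ hD1 (norm_nonneg _) (by positivity)
      calc _ ≤ (P.K (m + 1) + P.K (m + 2)) * P.R m := by gcongr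
        _ ≤ 1 / 2 ^ m := by rw [mul_comm]; exact P.RK m
        _ ≤ 1 / 2 ^ k := by gcongr; norm_num
    refine norm_convex_le (rr_nonneg _ _) (rr_le_one _ _) ?_ ?_
    · refine (P.K_lip (m + 1) _ η hη ξ hξ' w).trans (le_trans ?_ hb)
      gcongr; linarith
    · refine (P.K_lip (m + 2) _ η hη ξ hξ' w).trans (le_trans ?_ hb)
      gcongr; linarith
  -- variation in the fibre
  have e2 : ‖(P.G (m + 1) (ξ, w) - P.ainf ξ • w) - (P.G (m + 1) (ξ, v) - P.ainf ξ • v)‖ ≤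
      ε * (1 + 2 * C) * D := by
    rw [G_sub, G_sub]
    set A := P.St (m + 1) (ξ, w) - P.ainf ξ • w
    set A' := P.St (m + 1) (ξ, v) - P.ainf ξ • v
    set B := P.St (m + 1 + 1) (ξ, w) - P.ainf ξ • w
    set B' := P.St (m + 1 + 1) (ξ, v) - P.ainf ξ • v
    set r := rr (P.R (m + 1)) w
    set r' := rr (P.R (m + 1)) v
    have : (1 - r) • A + r • B - ((1 - r') • A' + r' • B') =
        ((1 - r) • (A - A') + r • (B - B')) + (r - r') • (B' - A') := by module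
    rw [this]
    refine (norm_add_le _ _).trans ?_
    have i1 : ‖(1 - r) • (A - A') + r • (B - B')‖ ≤ ε * ‖w - v‖ :=
      norm_convex_le (rr_nonneg _ _) (rr_le_one _ _) (P.St_lip_v hm _ _ _)
        (P.St_lip_v (by omega) _ _ _)
    have i2 : ‖B' - A'‖ ≤ 2 * ε * ‖v‖ := by
      refine (norm_sub_le _ _).trans ?_
      have j1 : ‖A'‖ ≤ ε * ‖v‖ := P.St_sub_le hm _ _
      have j2 : ‖B'‖ ≤ ε * ‖v‖ := P.St_sub_le (by omega) _ _
      linarith
    have i3 : |r - r'| * ‖v‖ ≤ C * ‖w - v‖ := hC _ (P.R_pos _) v w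
    rw [norm_smul, Real.norm_eq_abs]
    have i4 : |r - r'| * ‖B' - A'‖ ≤ 2 * ε * (C * ‖w - v‖) := by
      calc _ ≤ |r - r'| * (2 * ε * ‖v‖) := by gcongr
        _ = 2 * ε * (|r - r'| * ‖v‖) := by ring
        _ ≤ _ := by gcongr
    have i5 : ε * (1 + 2 * C) * ‖w - v‖ ≤ ε * (1 + 2 * C) * D := by gcongr
    nlinarith
  have : P.G (m + 1) (η, w) - P.L ξ (η, w) - (P.G (m + 1) (ξ, v) - P.L ξ (ξ, v)) =
      (P.G (m + 1) (η, w) - P.G (m + 1) (ξ, w)) +
        ((P.G (m + 1) (ξ, w) - P.ainf ξ • w) - (P.G (m + 1) (ξ, v) - P.ainf ξ • v)) := by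
    simp only [L, smul_apply, ContinuousLinearMap.coe_snd']
    abel
  rw [this]
  refine (norm_add_le _ _).trans ?_
  linarith

theorem contDiffAt_g (ξ : Circle) (v : V) : ContDiffAt ℝ 1 P.g ((ξ : ℂ), v) := by
  rw [contDiffAt_one_iff]
  have hc' : Continuous fun y : ℂ × V => ‖y.1‖ := by fun_prop
  refine ⟨fderiv ℝ P.g, {y | ‖y.1‖ < 2}, (isOpen_lt hc' continuous_const).mem_nhds (by simp),
    fun y hy => ContinuousAt.continuousWithinAt ?_, fun y _ => ?_⟩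
  · obtain ⟨η, w⟩ := y
    rcases eq_or_ne w 0 with rfl | hw
    · obtain ⟨C, hC0, hC⟩ := exists_rr_lip
      rw [ContinuousAt, (P.hasFDerivAt_g_zero η).fderiv]
      have h1 : Tendsto (fun y : ℂ × V => P.L y.1) (𝓝 (η, 0)) (𝓝 (P.L η)) :=
        (P.continuous_L.comp continuous_fst).tendsto (η, 0)
      have h2 : Tendsto (fun y : ℂ × V => fderiv ℝ P.g y - P.L y.1) (𝓝 (η, 0)) (𝓝 0) := by
        rw [NormedAddGroup.tendsto_nhds_zero]
        intro ε hε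
        have h3 : Tendsto (fun k : ℕ => 1 / 2 ^ k + 3 * (lam / 2 ^ k) * (1 + 2 * C)) atTop
            (𝓝 (0 + 3 * 0 * (1 + 2 * C))) :=
          (tendsto_const_nhds.div_atTop (tendsto_pow_atTop_atTop_of_one_lt (by norm_num))).add
            ((Win.tendsto_lam_div.const_mul 3).mul_const _)
        rw [mul_zero, zero_mul, add_zero] at h3
        obtain ⟨k, hk⟩ := (h3.eventually (Iio_mem_nhds hε)).exists
        filter_upwards [(isOpen_lt hc' continuous_const).mem_nhds (x := (η, 0)) hy,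
          (isOpen_lt (f := fun y : ℂ × V => ‖y.2‖) (by fun_prop) continuous_const).mem_nhds
            (x := (η, 0)) (show ‖(0 : V)‖ < P.R k by simpa using P.R_pos k)] with y hy1 hy2
        exact (P.norm_fderiv_sub_le hC0 hC hy1 hy2).trans_lt hk
      simpa using h2.add h1
    · exact (P.contDiffAt_g_of_ne hw).continuousAt_fderiv one_ne_zero
  · obtain ⟨η, w⟩ := y
    rcases eq_or_ne w 0 with rfl | hw
    · exact (P.hasFDerivAt_g_zero η).differentiableAt.hasFDerivAt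
    · exact ((P.contDiffAt_g_of_ne hw).differentiableAt one_ne_zero).hasFDerivAt

end Par

end Crest.Agent.R123
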