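import Crest.Agent.R123.Hom3

/-! Row 123, homology part 4: the class in `H₂(S²; ℝ)` that is doubled. -/

set_option autoImplicit false

namespace Crest.Agent.R123.Hom

open CategoryTheory Simplicial AlgebraicTopology

/-- The coefficient module. -/
noncomputable abbrev RR : ModuleCat.{0} ℝ := ModuleCat.of ℝ ℝ

/-- The singular simplicial set of the sphere. -/
noncomputable abbrev XS : SSet.{0} := TopCat.toSSet.obj (TopCat.of S2)

/-- The singular chain complex of the sphere. -/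
noncomputable abbrev KK : ChainComplex (ModuleCat.{0} ℝ) ℕ := XS.chainComplex RR

/-- A continuous map from the simplex as a simplex of the singular set. -/
noncomputable def sx {n : ℕ} (σ : C(Sx n, S2)) : XS _⦋n⦌ :=
  (TopCat.toSSetObjEquiv (TopCat.of S2) (Opposite.op ⦋n⦌)).symm σ

/-- The converse. -/
noncomputable def xs {n : ℕ} (x : XS _⦋n⦌) : C(Sx n, S2) :=
  TopCat.toSSetObjEquiv (TopCat.of S2) (Opposite.op ⦋n⦌) x

lemma xs_sx {n : ℕ} (σ : C(Sx n, S2)) : xs (sx σ) = σ := Equiv.apply_symm_apply _ _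
lemma sx_xs {n : ℕ} (x : XS _⦋n⦌) : sx (xs x) = x := Equiv.symm_apply_apply _ _

lemma δ_sx {n : ℕ} (σ : C(Sx (n + 1), S2)) (i : Fin (n + 2)) :
    XS.δ i (sx σ) = sx (σ.comp (fc i)) := rfl

lemma map_sx {n : ℕ} (g : C(S2, S2)) (σ : C(Sx n, S2)) :
    (TopCat.toSSet.map (TopCat.ofHom g)).app _ (sx σ) = sx (g.comp σ) := rfl

/-- The chain of a singular simplex. -/
noncomputable def ch {n : ℕ} (σ : C(Sx n, S2)) : RR ⟶ KK.X n := XS.ιChainComplex (sx σ)

lemma ch_d2 (σ : C(Sx 2, S2)) :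
    ch σ ≫ KK.d 2 1 = ch (σ.comp (fc 0)) - ch (σ.comp (fc 1)) + ch (σ.comp (fc 2)) := by
  have := XS.ιChainComplex_d RR (sx σ)
  refine this.trans ?_
  simp only [δ_sx, ch]
  refine (Fin.sum_univ_three _).trans ?_
  simp [sub_eq_add_neg]

lemma ch_d3 (σ : C(Sx 3, S2)) :
    ch σ ≫ KK.d 3 2 = ch (σ.comp (fc 0)) - ch (σ.comp (fc 1)) + ch (σ.comp (fc 2)) -
      ch (σ.comp (fc 3)) := by
  have := XS.ιChainComplex_d RR (sx σ)
  refine this.trans ?_
  simp only [δ_sx, ch]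
  refine (Fin.sum_univ_four _).trans ?_
  have h3 : ((-1 : ℤ) ^ 3) = -1 := by norm_num
  simp [sub_eq_add_neg, h3]

lemma ch_map {n : ℕ} (g : C(S2, S2)) (σ : C(Sx n, S2)) :
    ch σ ≫ (SSet.chainComplexMap (TopCat.toSSet.map (TopCat.ofHom g)) RR).f n = ch (g.comp σ) :=
  SSet.ι_chainComplexMap_f _ _ _ _ _

/-- The Euler cochain as a morphism. -/
noncomputable def φ : KK.X 2 ⟶ RR :=
  (XS.isColimitChainComplexXCofan RR 2).desc
    (Limits.Cofan.mk RR fun x => (c2 (xs x)).im • 𝟙 RR)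

lemma ch_φ (σ : C(Sx 2, S2)) : ch σ ≫ φ = (c2 σ).im • 𝟙 RR := by
  have := (XS.isColimitChainComplexXCofan RR 2).fac
    (Limits.Cofan.mk RR fun x => (c2 (xs x)).im • 𝟙 RR) ⟨sx σ⟩
  refine this.trans ?_
  simp [xs_sx]

lemma d_φ : KK.d 3 2 ≫ φ = 0 := by
  apply SSet.chainComplex_hom_ext
  intro x
  rw [← sx_xs x]
  change ch (xs x) ≫ _ = ch (xs x) ≫ _
  rw [← Category.assoc, ch_d3]
  simp only [Preadditive.sub_comp, Preadditive.add_comp, ch_φ, Limits.comp_zero]
  rw [← sub_smul, ← add_smul, ← sub_smul]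
  have := congrArg Complex.im (cocycle (xs x))
  simp only [Complex.sub_im, Complex.add_im, Complex.zero_im] at this
  rw [this, zero_smul]

/-- The fundamental cycle. -/
noncomputable def z : RR ⟶ KK.X 2 :=
  ch (Sm ![(0, 0), (1, 0), (1, 1)]) - ch (Sm ![(0, 0), (0, 1), (1, 1)]) -
    ch (Sm ![(1, 0), (1, 0), (1, 0)]) + ch (Sm ![(0, 0), (0, 0), (0, 0)])

lemma z_φ : z ≫ φ = (2 * Real.pi) • 𝟙 RR := by
  simp only [z, Preadditive.sub_comp, Preadditive.add_comp, ch_φ]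
  rw [← sub_smul, ← sub_smul, ← add_smul]
  have := congrArg Complex.im c2_cycle
  simp only [Complex.sub_im, Complex.add_im] at this
  rw [this]
  simp

lemma d2_Sm (x y w : ℝ × ℝ) :
    ch (Sm ![x, y, w]) ≫ KK.d 2 1 = ch (Sm ![y, w]) - ch (Sm ![x, w]) + ch (Sm ![x, y]) := by
  rw [ch_d2]
  simp only [Sm_comp]
  rw [f3_0, f3_1, f3_2]

lemma d3_Sm (v x y w : ℝ × ℝ) :
    ch (Sm ![v, x, y, w]) ≫ KK.d 3 2 = ch (Sm ![x, y, w]) - ch (Sm ![v, y, w]) +
      ch (Sm ![v, x, w]) - ch (Sm ![v, x, y]) := by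
  rw [ch_d3]
  simp only [Sm_comp]
  rw [f4_0, f4_1, f4_2, f4_3]

lemma z_d : z ≫ KK.d 2 1 = 0 := by
  simp only [z, Preadditive.sub_comp, Preadditive.add_comp, d2_Sm]
  rw [Sm_shift ![(0, 0), (1, 0)] ![(0, 1), (1, 1)] (fun i => by fin_cases i <;> simp)
      (fun i => by fin_cases i <;> simp),
    Sm_pole ![(0, 0), (0, 0)] ![(0, 0), (0, 1)] 0 (by simp)
      (fun i => by fin_cases i <;> rfl) (fun i => by fin_cases i <;> rfl),
    Sm_pole ![(1, 0), (1, 0)] ![(1, 0), (1, 1)] 1 (by simp)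
      (fun i => by fin_cases i <;> rfl) (fun i => by fin_cases i <;> rfl)]
  abel

/-- The bounding chain. -/
noncomputable def w3 : RR ⟶ KK.X 3 :=
  ch (Sm ![(0, 0), (1, 0), (1, 1), (1, 2)]) - ch (Sm ![(0, 0), (0, 1), (1, 1), (1, 2)]) +
    ch (Sm ![(0, 0), (0, 1), (0, 2), (1, 2)])

lemma z_map (g : C(S2, S2))
    (hg : ∀ x : S2, (g x).1.fst = x.1.fst ^ 2 / (‖x.1.fst‖ : ℂ) ∧ (g x).1.snd = x.1.snd) :
    z ≫ (SSet.chainComplexMap (TopCat.toSSet.map (TopCat.ofHom g)) RR).f 2 =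
      z + z + w3 ≫ KK.d 3 2 := by
  simp only [z, w3, Preadditive.sub_comp, Preadditive.add_comp, d3_Sm, ch_map]
  rw [g_Sm g hg ![(0, 0), (1, 0), (1, 1)] ![(0, 0), (1, 0), (1, 2)]
      (fun i => by fin_cases i <;> simp) (fun i => by fin_cases i <;> simp)
      (fun i => by fin_cases i <;> simp),
    g_Sm g hg ![(0, 0), (0, 1), (1, 1)] ![(0, 0), (0, 2), (1, 2)]
      (fun i => by fin_cases i <;> simp) (fun i => by fin_cases i <;> simp)
      (fun i => by fin_cases i <;> simp),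
    g_Sm g hg ![(1, 0), (1, 0), (1, 0)] ![(1, 0), (1, 0), (1, 0)]
      (fun i => by fin_cases i <;> simp) (fun i => by fin_cases i <;> simp)
      (fun i => by fin_cases i <;> simp),
    g_Sm g hg ![(0, 0), (0, 0), (0, 0)] ![(0, 0), (0, 0), (0, 0)]
      (fun i => by fin_cases i <;> simp) (fun i => by fin_cases i <;> simp)
      (fun i => by fin_cases i <;> simp),
    Sm_shift ![(0, 0), (1, 0), (1, 1)] ![(0, 1), (1, 1), (1, 2)]
      (fun i => by fin_cases i <;> simp) (fun i => by fin_cases i <;> norm_num),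
    Sm_shift ![(0, 0), (0, 1), (1, 1)] ![(0, 1), (0, 2), (1, 2)]
      (fun i => by fin_cases i <;> simp) (fun i => by fin_cases i <;> norm_num),
    Sm_pole ![(0, 0), (0, 0), (0, 0)] ![(0, 0), (0, 1), (0, 2)] 0 (by simp)
      (fun i => by fin_cases i <;> rfl) (fun i => by fin_cases i <;> rfl),
    Sm_pole ![(1, 0), (1, 0), (1, 0)] ![(1, 0), (1, 1), (1, 2)] 1 (by simp)
      (fun i => by fin_cases i <;> rfl) (fun i => by fin_cases i <;> rfl)]
  abel

lemma next2 : (ComplexShape.down ℕ).next 2 = 1 := (ComplexShape.down ℕ).next_eq' (by simp)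
lemma prev2 : (ComplexShape.down ℕ).prev 2 = 3 := (ComplexShape.down ℕ).prev_eq' (by simp)

/-- The homology class, as a morphism out of the coefficients. -/
noncomputable def cls : RR ⟶ KK.homology 2 := KK.liftCycles z 1 next2 z_d ≫ KK.homologyπ 2

lemma cls_pair : cls ≫ KK.homologyι 2 ≫ KK.descOpcycles φ 3 prev2 d_φ = (2 * Real.pi) • 𝟙 RR := by
  simp [cls, z_φ]

lemma cls_map (g : C(S2, S2))
    (hg : ∀ x : S2, (g x).1.fst = x.1.fst ^ 2 / (‖x.1.fst‖ : ℂ) ∧ (g x).1.snd = x.1.snd) :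
    cls ≫ HomologicalComplex.homologyMap
      (SSet.chainComplexMap (TopCat.toSSet.map (TopCat.ofHom g)) RR) 2 = cls + cls := by
  have h0 := KK.liftCycles_homologyπ_eq_zero_of_boundary (w3 ≫ KK.d 3 2) 1 next2 w3 rfl
  rw [cls, Category.assoc, HomologicalComplex.homologyπ_naturality,
    HomologicalComplex.liftCycles_comp_cyclesMap_assoc, ← add_zero (_ + _), ← h0,
    ← Preadditive.add_comp, ← Preadditive.add_comp]
  congr 1
  rw [← cancel_mono (KK.iCycles 2)]
  simp only [Preadditive.add_comp, HomologicalComplex.liftCycles_i]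
  exact z_map g hg

end Crest.Agent.R123.Hom

namespace Crest.Agent.R123

open Hom CategoryTheory

theorem sphereEigen : SphereEigen := by
  intro g hg
  refine ⟨cls.hom (1 : ℝ), fun h0 => ?_, ?_⟩
  · have h := congrArg (fun f : RR ⟶ RR => f.hom (1 : ℝ)) cls_pair
    have h1 : cls.hom (1 : ℝ) = 0 := h0
    simp only [ModuleCat.hom_comp, LinearMap.comp_apply, h1, map_zero] at h
    simp at h
  · have h := congrArg (fun f : RR ⟶ KK.homology 2 => f.hom (1 : ℝ)) (cls_map g hg)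
    simp only [ModuleCat.hom_comp, LinearMap.comp_apply, ModuleCat.hom_add,
      LinearMap.add_apply] at h
    rw [two_smul]
    exact h

end Crest.Agent.R123
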