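import Crest.Agent.R123.Defs

/-! Row 123, homology part 1: logarithms and Hopf lifts on simplices. -/

set_option autoImplicit false

namespace Crest.Agent.R123.Hom

open Complex

/-- The topological `n`-simplex. -/
abbrev Sx (n : ℕ) : Type := stdSimplex ℝ (Fin (n + 1))

instance (n : ℕ) : ContractibleSpace (Sx n) :=
  (convex_stdSimplex ℝ (Fin (n + 1))).contractibleSpace ⟨_, single_mem_stdSimplex ℝ 0⟩

instance (n : ℕ) : LocallyPathConnectedSpace (Sx n) :=
  (convex_stdSimplex ℝ (Fin (n + 1))).locallyPathConnectedSpace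

lemma exists_log {n : ℕ} (f : C(Sx n, ℂ)) (hf : ∀ x, f x ≠ 0) :
    ∃ g : C(Sx n, ℂ), ∀ x, exp (g x) = f x := by
  let f' : C(Sx n, {z : ℂ // z ≠ 0}) := ⟨fun x => ⟨f x, hf x⟩, by fun_prop⟩
  let a₀ : Sx n := stdSimplex.vertex 0
  obtain ⟨F, ⟨-, hF⟩, -⟩ := Complex.isCoveringMap_exp.existsUnique_continuousMap_lifts f' a₀
    (log (f a₀)) (Subtype.ext (exp_log (hf a₀)))
  exact ⟨F, fun x => congrArg Subtype.val (congrFun hF x)⟩

lemma log_sub_const {n : ℕ} (g g' : C(Sx n, ℂ)) (h : ∀ x, exp (g x) = exp (g' x)) (x y : Sx n) :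
    g x - g y = g' x - g' y := by
  have h1 : ∀ z, exp (g z - g' z) = exp (g y - g' y) := fun z => by
    rw [exp_sub, exp_sub, h z, h y, div_self (exp_ne_zero _), div_self (exp_ne_zero _)]
  have := Complex.isCoveringMap_exp.const_of_comp (g := fun z => g z - g' z) (by fun_prop)
    (fun a b => Subtype.ext ((h1 a).trans (h1 b).symm)) x y
  linear_combination this

/-- First vertex of the `1`-simplex. -/
noncomputable abbrev v0 : Sx 1 := stdSimplex.vertex 0
/-- Second vertex of the `1`-simplex. -/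
noncomputable abbrev v1 : Sx 1 := stdSimplex.vertex 1

open Classical in
/-- Variation of a logarithm along the `1`-simplex. -/
noncomputable def Var (f : C(Sx 1, ℂ)) : ℂ :=
  if h : ∃ g : C(Sx 1, ℂ), ∀ x, exp (g x) = f x then h.choose v1 - h.choose v0 else 0

lemma Var_eq (f g : C(Sx 1, ℂ)) (h : ∀ x, exp (g x) = f x) : Var f = g v1 - g v0 := by
  have h' : ∃ g : C(Sx 1, ℂ), ∀ x, exp (g x) = f x := ⟨g, h⟩
  rw [Var, dif_pos h']
  exact log_sub_const _ _ (fun x => by rw [h'.choose_spec x, h x]) _ _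

lemma Var_mul_exp (f l f' : C(Sx 1, ℂ)) (hf : ∀ x, f x ≠ 0)
    (h : ∀ x, f' x = f x * exp (l x)) : Var f' = Var f + (l v1 - l v0) := by
  obtain ⟨g, hg⟩ := exists_log f hf
  rw [Var_eq f g hg, Var_eq f' (g + l) (fun x => by simp [exp_add, hg, h])]
  simp only [ContinuousMap.add_apply]
  ring

/-- The two-sphere. -/
abbrev S2 : Type := Sph ℂ

lemma sph_eq (u : S2) : (starRingEnd ℂ) u.1.fst * u.1.fst + (u.1.snd : ℂ) ^ 2 = 1 := by
  have h := u.2
  rw [mem_sphere_zero_iff_norm] at h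
  have h2 := WithLp.prod_norm_sq_eq_of_L2 u.1
  rw [h] at h2
  rw [Complex.conj_mul']
  rw [Real.norm_eq_abs, sq_abs] at h2
  have : ((‖u.1.fst‖ ^ 2 + u.1.snd ^ 2 : ℝ) : ℂ) = 1 := by rw [← h2]; simp
  simpa using this

/-- The rank-one projector attached to a point of the sphere. -/
noncomputable def P (u : S2) (v : ℂ × ℂ) : ℂ × ℂ :=
  (((1 + (u.1.snd : ℂ)) * v.1 + (starRingEnd ℂ) u.1.fst * v.2) / 2,
    (u.1.fst * v.1 + (1 - (u.1.snd : ℂ)) * v.2) / 2)

lemma continuous_fst' : Continuous fun u : S2 => u.1.fst := by fun_prop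
lemma continuous_snd' : Continuous fun u : S2 => u.1.snd := by fun_prop

lemma continuous_P : Continuous fun p : S2 × (ℂ × ℂ) => P p.1 p.2 := by
  have h1 : Continuous fun p : S2 × (ℂ × ℂ) => p.1.1.fst := continuous_fst'.comp continuous_fst
  have h2 : Continuous fun p : S2 × (ℂ × ℂ) => p.1.1.snd := continuous_snd'.comp continuous_fst
  unfold P
  fun_prop

lemma continuous_P' {D : Type*} [TopologicalSpace D] {u : D → S2} {v : D → ℂ × ℂ}
    (hu : Continuous u) (hv : Continuous v) : Continuous fun x => P (u x) (v x) :=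
  continuous_P.comp (f := fun x => (u x, v x)) (hu.prodMk hv)

lemma P_P (u : S2) (v : ℂ × ℂ) : P u (P u v) = P u v := by
  have h := sph_eq u
  ext
  · simp only [P]; linear_combination (v.1 / 4) * h
  · simp only [P]; linear_combination (v.2 / 4) * h

/-- `v` lies on the line attached to `u`. -/
def IsL (u : S2) (v : ℂ × ℂ) : Prop := v ≠ 0 ∧ P u v = v

lemma norm_P_sub (u u' : S2) (v : ℂ × ℂ) : ‖P u' v - P u v‖ ≤ dist u' u * ‖v‖ := by
  have hd : dist u' u = ‖u'.1 - u.1‖ := by rw [Subtype.dist_eq, dist_eq_norm]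
  have h1 : ‖u'.1.fst - u.1.fst‖ ≤ dist u' u := by
    rw [hd]; simpa using WithLp.norm_fst_le (p := 2) ℂ (u'.1 - u.1)
  have h2 : ‖(u'.1.snd : ℂ) - u.1.snd‖ ≤ dist u' u := by
    rw [hd, ← Complex.ofReal_sub, Complex.norm_real]
    simpa using WithLp.norm_snd_le (p := 2) ℂ (u'.1 - u.1)
  have h1' : ‖(starRingEnd ℂ) u'.1.fst - (starRingEnd ℂ) u.1.fst‖ ≤ dist u' u := by
    rw [← map_sub, Complex.norm_conj]; exact h1
  have hv1 := norm_fst_le v
  have hv2 := norm_snd_le v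
  have hd0 : 0 ≤ dist u' u := dist_nonneg
  rw [Prod.norm_def]
  apply max_le
  · have : (P u' v - P u v).1 = (((u'.1.snd : ℂ) - u.1.snd) * v.1 +
        ((starRingEnd ℂ) u'.1.fst - (starRingEnd ℂ) u.1.fst) * v.2) / 2 := by
      simp only [P, Prod.fst_sub]; ring
    rw [this, norm_div, Complex.norm_two, div_le_iff₀ two_pos]
    refine (norm_add_le _ _).trans ?_
    rw [norm_mul, norm_mul]
    have a := mul_le_mul h2 hv1 (norm_nonneg _) hd0
    have b := mul_le_mul h1' hv2 (norm_nonneg _) hd0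
    linarith
  · have : (P u' v - P u v).2 = ((u'.1.fst - u.1.fst) * v.1 +
        (-((u'.1.snd : ℂ) - u.1.snd)) * v.2) / 2 := by
      simp only [P, Prod.snd_sub]; ring
    rw [this, norm_div, Complex.norm_two, div_le_iff₀ two_pos]
    refine (norm_add_le _ _).trans ?_
    rw [norm_mul, norm_mul, norm_neg]
    have a := mul_le_mul h1 hv1 (norm_nonneg _) hd0
    have b := mul_le_mul h2 hv2 (norm_nonneg _) hd0
    linarith

lemma IsL.step {u u' : S2} {v : ℂ × ℂ} (h : IsL u v) (hd : dist u' u < 1) : IsL u' (P u' v) := by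
  refine ⟨fun h0 => ?_, P_P _ _⟩
  have h1 := norm_P_sub u u' v
  rw [h0, h.2, zero_sub, norm_neg] at h1
  have h2 : 0 < ‖v‖ := norm_pos_iff.2 h.1
  nlinarith

lemma exists_isL (u : S2) : ∃ v, IsL u v := by
  by_cases h : P u (1, 0) = 0
  · refine ⟨P u (0, 1), fun h0 => ?_, P_P _ _⟩
    have a := congrArg Prod.fst h
    have b := congrArg Prod.snd h0
    simp only [P, Prod.fst_zero, Prod.snd_zero] at a b
    have : (2 : ℂ) = 0 := by linear_combination 2 * a + 2 * b
    norm_num at this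
  · exact ⟨P u (1, 0), h, P_P _ _⟩

/-- The straight contraction of the simplex to its first vertex. -/
noncomputable def contr (n : ℕ) (p : Sx n × Set.Icc (0 : ℝ) 1) : Sx n :=
  ⟨(1 - p.2.1) • (stdSimplex.vertex (0 : Fin (n + 1)) : Sx n).1 + p.2.1 • p.1.1,
    convex_stdSimplex ℝ _ (stdSimplex.vertex (0 : Fin (n + 1)) : Sx n).2 p.1.2
      (sub_nonneg.2 p.2.2.2) p.2.2.1 (by ring)⟩

lemma continuous_contr (n : ℕ) : Continuous (contr n) := by
  unfold contr
  fun_prop

lemma exists_lift {n : ℕ} (σ : C(Sx n, S2)) : ∃ v : C(Sx n, ℂ × ℂ), ∀ x, IsL (σ x) (v x) := by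
  obtain ⟨G, hc, hG0, hG1⟩ : ∃ G : Sx n × Set.Icc (0 : ℝ) 1 → S2, Continuous G ∧
      (∀ x, G (x, 0) = σ (stdSimplex.vertex 0)) ∧ ∀ x, G (x, 1) = σ x := by
    refine ⟨fun p => σ (contr n p), σ.continuous.comp (continuous_contr n), fun x => ?_,
      fun x => ?_⟩
    · exact congrArg σ (Subtype.ext (by simp [contr]))
    · exact congrArg σ (Subtype.ext (by simp [contr]))
  have hu := CompactSpace.uniformContinuous_of_continuous hc
  obtain ⟨δ, hδ, hδ'⟩ := Metric.uniformContinuous_iff.1 hu 1 one_pos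
  obtain ⟨N, hN⟩ := exists_nat_one_div_lt hδ
  have hN0 : (0 : ℝ) < (N : ℝ) + 1 := by positivity
  obtain ⟨τ, hτ0, hτ1, hτ⟩ : ∃ τ : ℕ → Set.Icc (0 : ℝ) 1, τ 0 = 0 ∧ τ (N + 1) = 1 ∧
      ∀ k, dist (τ (k + 1)) (τ k) < δ := by
    refine ⟨fun k => Set.projIcc 0 1 zero_le_one (k / ((N : ℝ) + 1)), by simp, ?_, fun k => ?_⟩
    · have : ((N + 1 : ℕ) : ℝ) / ((N : ℝ) + 1) = 1 := by push_cast; exact div_self hN0.ne'
      simp only [this]
      simp
    · refine lt_of_le_of_lt ?_ hN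
      refine ((LipschitzWith.projIcc (zero_le_one' ℝ)).dist_le_mul _ _).trans ?_
      have : ((k + 1 : ℕ) : ℝ) / ((N : ℝ) + 1) - k / ((N : ℝ) + 1) = 1 / ((N : ℝ) + 1) := by
        push_cast; ring
      rw [Real.dist_eq, this, abs_of_pos (by positivity)]
      simp
  have key : ∀ k : ℕ, ∃ v : C(Sx n, ℂ × ℂ), ∀ x, IsL (G (x, τ k)) (v x) := by
    intro k
    induction k with
    | zero =>
      obtain ⟨v, hv⟩ := exists_isL (σ (stdSimplex.vertex 0))
      refine ⟨ContinuousMap.const _ v, fun x => ?_⟩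
      rw [hτ0, hG0]
      exact hv
    | succ k ih =>
      obtain ⟨v, hv⟩ := ih
      refine ⟨⟨fun x => P (G (x, τ (k + 1))) (v x), ?_⟩, fun x => ?_⟩
      · exact continuous_P' (hc.comp (continuous_id.prodMk continuous_const)) v.continuous
      · refine (hv x).step (hδ' ?_)
        rw [Prod.dist_eq, dist_self]
        exact max_lt hδ (hτ k)
  obtain ⟨v, hv⟩ := key (N + 1)
  exact ⟨v, fun x => by simpa only [hτ1, hG1] using hv x⟩

/-- The Hermitian product on `ℂ × ℂ`. -/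
noncomputable def herm (v w : ℂ × ℂ) : ℂ := (starRingEnd ℂ) v.1 * w.1 + (starRingEnd ℂ) v.2 * w.2

lemma herm_self_ne {v : ℂ × ℂ} (h : v ≠ 0) : herm v v ≠ 0 := by
  intro h0
  rw [herm, Complex.conj_mul', Complex.conj_mul'] at h0
  have h1 : ‖v.1‖ ^ 2 + ‖v.2‖ ^ 2 = 0 := by exact_mod_cast h0
  apply h
  have a : ‖v.1‖ = 0 := by nlinarith [norm_nonneg v.1, norm_nonneg v.2]
  have b : ‖v.2‖ = 0 := by nlinarith [norm_nonneg v.1, norm_nonneg v.2]
  exact Prod.ext (norm_eq_zero.1 a) (norm_eq_zero.1 b)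

lemma det_zero {u : S2} {v w : ℂ × ℂ} (hv : P u v = v) (hw : P u w = w) :
    v.1 * w.2 - v.2 * w.1 = 0 := by
  have h := sph_eq u
  have a := congrArg Prod.fst hv
  have b := congrArg Prod.snd hv
  have c := congrArg Prod.fst hw
  have d := congrArg Prod.snd hw
  simp only [P] at a b c d
  calc v.1 * w.2 - v.2 * w.1
      = (((1 + (u.1.snd : ℂ)) * v.1 + (starRingEnd ℂ) u.1.fst * v.2) / 2) *
          ((u.1.fst * w.1 + (1 - (u.1.snd : ℂ)) * w.2) / 2) -
        ((u.1.fst * v.1 + (1 - (u.1.snd : ℂ)) * v.2) / 2) *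
          (((1 + (u.1.snd : ℂ)) * w.1 + (starRingEnd ℂ) u.1.fst * w.2) / 2) := by rw [a, b, c, d]
    _ = 0 := by linear_combination (-(v.1 * w.2 - v.2 * w.1) / 4) * h

lemma IsL.eq_smul {u : S2} {v w : ℂ × ℂ} (hv : IsL u v) (hw : IsL u w) :
    w = (herm v w / herm v v) • v := by
  have h := det_zero hv.2 hw.2
  have h0 := herm_self_ne hv.1
  ext
  · simp only [Prod.smul_fst, smul_eq_mul]
    field_simp
    simp only [herm]
    linear_combination (-(starRingEnd ℂ) v.2) * h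
  · simp only [Prod.smul_snd, smul_eq_mul]
    field_simp
    simp only [herm]
    linear_combination ((starRingEnd ℂ) v.1) * h

lemma IsL.herm_ne {u : S2} {v w : ℂ × ℂ} (hv : IsL u v) (hw : IsL u w) : herm v w ≠ 0 := by
  intro h0
  apply hw.1
  rw [hv.eq_smul hw, h0]
  simp

lemma herm_smul (v w : ℂ × ℂ) (c : ℂ) : herm v (c • w) = herm v w * c := by
  simp only [herm, Prod.smul_fst, Prod.smul_snd, smul_eq_mul]; ring

lemma continuous_herm : Continuous fun p : (ℂ × ℂ) × (ℂ × ℂ) => herm p.1 p.2 := by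
  unfold herm; fun_prop

end Crest.Agent.R123.Hom
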