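import Crest.Agent.R123.Hom1

/-! Row 123, homology part 2: the Euler cocycle of the Hopf bundle on singular simplices. -/

set_option autoImplicit false

namespace Crest.Agent.R123.Hom

open Complex

/-- The simplicial map induced by a map of vertices. -/
noncomputable def mp {m n : ℕ} (f : Fin (m + 1) → Fin (n + 1)) : C(Sx m, Sx n) :=
  ⟨stdSimplex.map f, stdSimplex.continuous_map f⟩

lemma mp_comp {k m n : ℕ} (f : Fin (k + 1) → Fin (m + 1)) (g : Fin (m + 1) → Fin (n + 1)) :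
    (mp g).comp (mp f) = mp (g ∘ f) :=
  ContinuousMap.ext fun x => stdSimplex.map_comp_apply f g x

lemma mp_vertex {m n : ℕ} (f : Fin (m + 1) → Fin (n + 1)) (i : Fin (m + 1)) :
    mp f (stdSimplex.vertex i) = stdSimplex.vertex (f i) := stdSimplex.map_vertex f i

/-- Face maps. -/
noncomputable abbrev fc {n : ℕ} (i : Fin (n + 2)) : C(Sx n, Sx (n + 1)) := mp i.succAbove

/-- A chosen lift of a singular simplex. -/
noncomputable def lft {n : ℕ} (σ : C(Sx n, S2)) : C(Sx n, ℂ × ℂ) := (exists_lift σ).choose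

lemma lft_spec {n : ℕ} (σ : C(Sx n, S2)) (x : Sx n) : IsL (σ x) (lft σ x) :=
  (exists_lift σ).choose_spec x

/-- Hermitian product of two maps. -/
noncomputable def hm {n : ℕ} (a b : C(Sx n, ℂ × ℂ)) : C(Sx n, ℂ) :=
  ⟨fun x => herm (a x) (b x),
    continuous_herm.comp (f := fun x => (a x, b x)) (a.continuous.prodMk b.continuous)⟩

/-- Winding of a lift of an edge against the chosen lift. -/
noncomputable def om (e : C(Sx 1, S2)) (γ : C(Sx 1, ℂ × ℂ)) : ℂ := Var (hm (lft e) γ)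

lemma om_change (e : C(Sx 1, S2)) (γ γ' : C(Sx 1, ℂ × ℂ)) (l : C(Sx 1, ℂ))
    (hγ : ∀ x, IsL (e x) (γ x)) (h : ∀ x, γ' x = exp (l x) • γ x) :
    om e γ' = om e γ + (l v1 - l v0) :=
  Var_mul_exp _ l _ (fun x => (lft_spec e x).herm_ne (hγ x))
    (fun x => by simp only [hm, ContinuousMap.coe_mk, h, herm_smul])

/-- The cocycle computed with a given lift. -/
noncomputable def c2' (σ : C(Sx 2, S2)) (γ : C(Sx 2, ℂ × ℂ)) : ℂ :=
  om (σ.comp (fc 0)) (γ.comp (fc 0)) - om (σ.comp (fc 1)) (γ.comp (fc 1)) +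
    om (σ.comp (fc 2)) (γ.comp (fc 2))

lemma c2'_indep (σ : C(Sx 2, S2)) (γ γ' : C(Sx 2, ℂ × ℂ)) (h : ∀ x, IsL (σ x) (γ x))
    (h' : ∀ x, IsL (σ x) (γ' x)) : c2' σ γ' = c2' σ γ := by
  let q : C(Sx 2, ℂ) := ⟨fun x => hm γ γ' x / hm γ γ x,
    (hm γ γ').continuous.div (hm γ γ).continuous fun x => herm_self_ne (h x).1⟩
  obtain ⟨l, hl⟩ := exists_log q fun x =>
    div_ne_zero ((h x).herm_ne (h' x)) (herm_self_ne (h x).1)
  have key : ∀ i : Fin 3, om (σ.comp (fc i)) (γ'.comp (fc i)) =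
      om (σ.comp (fc i)) (γ.comp (fc i)) + (l (fc i v1) - l (fc i v0)) := fun i =>
    om_change _ _ _ (l.comp (fc i)) (fun x => h _) (fun x => by
      simp only [ContinuousMap.comp_apply, hl]
      exact (h _).eq_smul (h' _))
  simp only [c2', key, mp_vertex]
  have a0 : Fin.succAbove (0 : Fin 3) 1 = 2 := by decide
  have a1 : Fin.succAbove (0 : Fin 3) 0 = 1 := by decide
  have a2 : Fin.succAbove (1 : Fin 3) 1 = 2 := by decide
  have a3 : Fin.succAbove (1 : Fin 3) 0 = 0 := by decide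
  have a4 : Fin.succAbove (2 : Fin 3) 1 = 1 := by decide
  have a5 : Fin.succAbove (2 : Fin 3) 0 = 0 := by decide
  rw [a0, a1, a2, a3, a4, a5]
  ring

/-- The Euler cocycle. -/
noncomputable def c2 (σ : C(Sx 2, S2)) : ℂ := c2' σ (lft σ)

lemma c2_eq (σ : C(Sx 2, S2)) (γ : C(Sx 2, ℂ × ℂ)) (h : ∀ x, IsL (σ x) (γ x)) :
    c2 σ = c2' σ γ := c2'_indep σ γ _ h (lft_spec σ)

lemma cocycle (τ : C(Sx 3, S2)) :
    c2 (τ.comp (fc 0)) - c2 (τ.comp (fc 1)) + c2 (τ.comp (fc 2)) - c2 (τ.comp (fc 3)) = 0 := by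
  have key : ∀ i : Fin 4, c2 (τ.comp (fc i)) = c2' (τ.comp (fc i)) ((lft τ).comp (fc i)) :=
    fun i => c2_eq _ _ fun x => lft_spec τ _
  simp only [key, c2', ContinuousMap.comp_assoc, mp_comp]
  have a0 : Fin.succAbove (0 : Fin 4) ∘ Fin.succAbove (0 : Fin 3) =
    Fin.succAbove (1 : Fin 4) ∘ Fin.succAbove (0 : Fin 3) := by decide
  have a1 : Fin.succAbove (0 : Fin 4) ∘ Fin.succAbove (1 : Fin 3) =
    Fin.succAbove (2 : Fin 4) ∘ Fin.succAbove (0 : Fin 3) := by decide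
  have a2 : Fin.succAbove (0 : Fin 4) ∘ Fin.succAbove (2 : Fin 3) =
    Fin.succAbove (3 : Fin 4) ∘ Fin.succAbove (0 : Fin 3) := by decide
  have a3 : Fin.succAbove (1 : Fin 4) ∘ Fin.succAbove (1 : Fin 3) =
    Fin.succAbove (2 : Fin 4) ∘ Fin.succAbove (1 : Fin 3) := by decide
  have a4 : Fin.succAbove (1 : Fin 4) ∘ Fin.succAbove (2 : Fin 3) =
    Fin.succAbove (3 : Fin 4) ∘ Fin.succAbove (1 : Fin 3) := by decide
  have a5 : Fin.succAbove (2 : Fin 4) ∘ Fin.succAbove (2 : Fin 3) =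
    Fin.succAbove (3 : Fin 4) ∘ Fin.succAbove (2 : Fin 3) := by decide
  rw [a0, a1, a2, a3, a4, a5]
  ring

end Crest.Agent.R123.Hom
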