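import Crest.Agent.R123.Hom2

/-! Row 123, homology part 3: explicit affine simplices on the sphere. -/

set_option autoImplicit false

namespace Crest.Agent.R123.Hom

open Complex

lemma continuous_coord {n : ℕ} (i : Fin (n + 1)) : Continuous fun x : Sx n => x.1 i :=
  (continuous_apply i).comp continuous_subtype_val

/-- Affine simplex in the plane. -/
noncomputable def aff {n : ℕ} (p : Fin (n + 1) → ℝ × ℝ) : C(Sx n, ℝ × ℝ) :=
  ⟨fun x => ∑ i, x.1 i • p i,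
    continuous_finsetSum _ fun i _ => (continuous_coord i).smul continuous_const⟩

lemma aff_comp {m n : ℕ} (p : Fin (n + 1) → ℝ × ℝ) (f : Fin (m + 1) → Fin (n + 1)) :
    (aff p).comp (mp f) = aff (p ∘ f) := by
  ext1 x
  change ∑ j, (FunOnFinite.linearMap ℝ ℝ f x.1) j • p j = ∑ i, x.1 i • p (f i)
  simp only [FunOnFinite.linearMap_apply_apply, Finset.sum_smul]
  rw [← Finset.sum_fiberwise Finset.univ f (fun i => x.1 i • p (f i))]
  refine Finset.sum_congr rfl fun j _ => Finset.sum_congr rfl fun i hi => ?_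
  rw [(Finset.mem_filter.1 hi).2]

lemma aff_fst {n : ℕ} (p : Fin (n + 1) → ℝ × ℝ) (x : Sx n) :
    (aff p x).1 = ∑ i, x.1 i * (p i).1 := by
  simp [aff, Prod.fst_sum]

lemma aff_snd {n : ℕ} (p : Fin (n + 1) → ℝ × ℝ) (x : Sx n) :
    (aff p x).2 = ∑ i, x.1 i * (p i).2 := by
  simp [aff, Prod.snd_sum]

lemma aff_fst_const {n : ℕ} (p : Fin (n + 1) → ℝ × ℝ) (c : ℝ) (h : ∀ i, (p i).1 = c) (x : Sx n) :
    (aff p x).1 = c := by
  simp only [aff_fst, h, ← Finset.sum_mul, x.2.2, one_mul]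

lemma aff_fst_mem {n : ℕ} (p : Fin (n + 1) → ℝ × ℝ) (h : ∀ i, 0 ≤ (p i).1 ∧ (p i).1 ≤ 1)
    (x : Sx n) : 0 ≤ (aff p x).1 ∧ (aff p x).1 ≤ 1 := by
  rw [aff_fst]
  refine ⟨Finset.sum_nonneg fun i _ => mul_nonneg (x.2.1 i) (h i).1, ?_⟩
  rw [← x.2.2]
  exact Finset.sum_le_sum fun i _ => mul_le_of_le_one_right (x.2.1 i) (h i).2

/-- The unit complex number of angle `2πφ`. -/
noncomputable def E (φ : ℝ) : ℂ := exp (2 * Real.pi * I * φ)

lemma continuous_E : Continuous E := by unfold E; fun_prop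

lemma norm_E (φ : ℝ) : ‖E φ‖ = 1 := by
  have : E φ = exp (((2 * Real.pi * φ : ℝ) : ℂ) * I) := by
    unfold E; congr 1; push_cast; ring
  rw [this, norm_exp_ofReal_mul_I]

lemma E_add_one (φ : ℝ) : E (φ + 1) = E φ := by
  unfold E
  push_cast
  rw [mul_add, mul_one, exp_add, exp_two_pi_mul_I, mul_one]

lemma E_two_mul (φ : ℝ) : E (2 * φ) = E φ ^ 2 := by
  unfold E
  rw [sq, ← exp_add]
  congr 1; push_cast; ring

lemma conj_E_mul (φ : ℝ) : (starRingEnd ℂ) (E φ) * E φ = 1 := by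
  rw [Complex.conj_mul', norm_E]; simp

/-- Polar parametrisation of the sphere. -/
noncomputable def Qm : C(ℝ × ℝ, S2) :=
  ⟨fun z => ⟨WithLp.toLp 2 ((Real.sin (Real.pi * z.1) : ℂ) * E z.2, Real.cos (Real.pi * z.1)), by
      rw [mem_sphere_zero_iff_norm]
      have h := WithLp.prod_norm_sq_eq_of_L2 (WithLp.toLp 2
        (((Real.sin (Real.pi * z.1) : ℂ) * E z.2, Real.cos (Real.pi * z.1)) : ℂ × ℝ))
      simp only [WithLp.toLp_fst, WithLp.toLp_snd, norm_mul, norm_E, mul_one, Complex.norm_real,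
        Real.norm_eq_abs, sq_abs, Real.sin_sq_add_cos_sq] at h
      exact (pow_eq_one_iff_of_nonneg (norm_nonneg _) two_ne_zero).1 h⟩, by
    have := continuous_E
    fun_prop⟩

lemma Qm_fst (z : ℝ × ℝ) : (Qm z).1.fst = (Real.sin (Real.pi * z.1) : ℂ) * E z.2 := rfl
lemma Qm_snd (z : ℝ × ℝ) : (Qm z).1.snd = Real.cos (Real.pi * z.1) := rfl

lemma S2_ext {u v : S2} (h1 : u.1.fst = v.1.fst) (h2 : u.1.snd = v.1.snd) : u = v := by
  apply Subtype.ext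
  apply (WithLp.equiv 2 (ℂ × ℝ)).injective
  exact Prod.ext h1 h2

/-- The Hopf lift of the polar parametrisation. -/
noncomputable def Ql : C(ℝ × ℝ, ℂ × ℂ) :=
  ⟨fun z => ((Real.cos (Real.pi * z.1 / 2) : ℂ), (Real.sin (Real.pi * z.1 / 2) : ℂ) * E z.2), by
    have := continuous_E
    fun_prop⟩

lemma isL_Q (z : ℝ × ℝ) : IsL (Qm z) (Ql z) := by
  have h1 : Real.sin (Real.pi * z.1) =
      2 * Real.sin (Real.pi * z.1 / 2) * Real.cos (Real.pi * z.1 / 2) := by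
    rw [← Real.sin_two_mul]; congr 1; ring
  have h2 : Real.cos (Real.pi * z.1) = 2 * Real.cos (Real.pi * z.1 / 2) ^ 2 - 1 := by
    rw [← Real.cos_two_mul]; congr 1; ring
  have h3 := Real.sin_sq_add_cos_sq (Real.pi * z.1 / 2)
  have hE := conj_E_mul z.2
  have hn := norm_E z.2
  obtain ⟨s, hs⟩ : ∃ s, s = Real.sin (Real.pi * z.1 / 2) := ⟨_, rfl⟩
  obtain ⟨c, hc⟩ : ∃ c, c = Real.cos (Real.pi * z.1 / 2) := ⟨_, rfl⟩
  have hQ : Ql z = ((c : ℂ), (s : ℂ) * E z.2) := by rw [hs, hc]; rfl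
  rw [← hs, ← hc] at h1 h3
  rw [← hc] at h2
  have h3' : (s : ℂ) ^ 2 + (c : ℂ) ^ 2 = 1 := by exact_mod_cast h3
  refine ⟨fun h0 => ?_, ?_⟩
  · rw [hQ] at h0
    have a := congrArg Prod.fst h0
    have b := congrArg Prod.snd h0
    simp only [Prod.fst_zero, Prod.snd_zero] at a b
    have b' : (s : ℂ) = 0 := by
      rcases mul_eq_zero.1 b with b | b
      · exact b
      · rw [b] at hn; simp at hn
    rw [a, b'] at h3'
    norm_num at h3'
  · rw [hQ]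
    ext
    · simp only [P, Qm_fst, Qm_snd, h1, h2, map_mul, Complex.conj_ofReal]
      push_cast
      linear_combination (s ^ 2 * c : ℂ) * hE + (c : ℂ) * h3'
    · simp only [P, Qm_fst, Qm_snd, h1, h2]
      push_cast
      ring

/-- Affine simplex on the sphere. -/
noncomputable def Sm {n : ℕ} (p : Fin (n + 1) → ℝ × ℝ) : C(Sx n, S2) := Qm.comp (aff p)
/-- Its lift. -/
noncomputable def Lm {n : ℕ} (p : Fin (n + 1) → ℝ × ℝ) : C(Sx n, ℂ × ℂ) := Ql.comp (aff p)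

lemma isL_Sm {n : ℕ} (p : Fin (n + 1) → ℝ × ℝ) (x : Sx n) : IsL (Sm p x) (Lm p x) :=
  isL_Q (aff p x)

lemma Sm_comp {m n : ℕ} (p : Fin (n + 1) → ℝ × ℝ) (f : Fin (m + 1) → Fin (n + 1)) :
    (Sm p).comp (mp f) = Sm (p ∘ f) := by
  rw [Sm, ContinuousMap.comp_assoc, aff_comp, Sm]

lemma Lm_comp {m n : ℕ} (p : Fin (n + 1) → ℝ × ℝ) (f : Fin (m + 1) → Fin (n + 1)) :
    (Lm p).comp (mp f) = Lm (p ∘ f) := by
  rw [Lm, ContinuousMap.comp_assoc, aff_comp, Lm]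

lemma aff_shift {n : ℕ} (p q : Fin (n + 1) → ℝ × ℝ) (h1 : ∀ i, (q i).1 = (p i).1)
    (h2 : ∀ i, (q i).2 = (p i).2 + 1) (x : Sx n) :
    (aff q x).1 = (aff p x).1 ∧ (aff q x).2 = (aff p x).2 + 1 := by
  constructor
  · simp only [aff_fst, h1]
  · simp only [aff_snd, h2, mul_add, Finset.sum_add_distrib, mul_one, x.2.2]

lemma Sm_shift {n : ℕ} (p q : Fin (n + 1) → ℝ × ℝ) (h1 : ∀ i, (q i).1 = (p i).1)
    (h2 : ∀ i, (q i).2 = (p i).2 + 1) : Sm q = Sm p := by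
  ext1 x
  obtain ⟨a, b⟩ := aff_shift p q h1 h2 x
  apply S2_ext
  · simp only [Sm, ContinuousMap.comp_apply, Qm_fst, a, b, E_add_one]
  · simp only [Sm, ContinuousMap.comp_apply, Qm_snd, a]

lemma Lm_shift {n : ℕ} (p q : Fin (n + 1) → ℝ × ℝ) (h1 : ∀ i, (q i).1 = (p i).1)
    (h2 : ∀ i, (q i).2 = (p i).2 + 1) : Lm q = Lm p := by
  ext1 x
  obtain ⟨a, b⟩ := aff_shift p q h1 h2 x
  simp only [Lm, ContinuousMap.comp_apply, Ql, ContinuousMap.coe_mk, a, b, E_add_one]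

lemma Sm_pole {n : ℕ} (p q : Fin (n + 1) → ℝ × ℝ) (c : ℝ) (hc : Real.sin (Real.pi * c) = 0)
    (hp : ∀ i, (p i).1 = c) (hq : ∀ i, (q i).1 = c) : Sm q = Sm p := by
  ext1 x
  apply S2_ext
  · simp only [Sm, ContinuousMap.comp_apply, Qm_fst, aff_fst_const p c hp, aff_fst_const q c hq, hc,
      ofReal_zero, zero_mul]
  · simp only [Sm, ContinuousMap.comp_apply, Qm_snd, aff_fst_const p c hp, aff_fst_const q c hq]

lemma Lm_pole {n : ℕ} (p q : Fin (n + 1) → ℝ × ℝ)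
    (hp : ∀ i, (p i).1 = 0) (hq : ∀ i, (q i).1 = 0) : Lm q = Lm p := by
  ext1 x
  simp [Lm, Ql, aff_fst_const p 0 hp, aff_fst_const q 0 hq]

lemma g_Sm (g : C(S2, S2))
    (hg : ∀ x : S2, (g x).1.fst = x.1.fst ^ 2 / (‖x.1.fst‖ : ℂ) ∧ (g x).1.snd = x.1.snd)
    {n : ℕ} (p q : Fin (n + 1) → ℝ × ℝ) (h : ∀ i, 0 ≤ (p i).1 ∧ (p i).1 ≤ 1)
    (h1 : ∀ i, (q i).1 = (p i).1) (h2 : ∀ i, (q i).2 = 2 * (p i).2) : g.comp (Sm p) = Sm q := by
  ext1 x
  have a : (aff q x).1 = (aff p x).1 := by simp only [aff_fst, h1]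
  have b : (aff q x).2 = 2 * (aff p x).2 := by
    simp only [aff_snd, h2, Finset.mul_sum]
    exact Finset.sum_congr rfl fun i _ => by ring
  obtain ⟨c0, c1⟩ := aff_fst_mem p h x
  have hs : 0 ≤ Real.sin (Real.pi * (aff p x).1) :=
    Real.sin_nonneg_of_nonneg_of_le_pi (by positivity) (mul_le_of_le_one_right Real.pi_pos.le c1)
  apply S2_ext
  · simp only [ContinuousMap.comp_apply, (hg _).1, Sm, Qm_fst, a, b, E_two_mul, norm_mul, norm_E,
      mul_one, Complex.norm_real, Real.norm_eq_abs, abs_of_nonneg hs]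
    obtain ⟨s, hs'⟩ : ∃ s, s = Real.sin (Real.pi * (aff p x).1) := ⟨_, rfl⟩
    rw [← hs']
    by_cases h0 : (s : ℂ) = 0
    · simp [h0]
    · field_simp
  · simp only [ContinuousMap.comp_apply, (hg _).2, Sm, Qm_snd, a]

/-- Winding of an affine edge. -/
noncomputable def o (x y : ℝ × ℝ) : ℂ := om (Sm ![x, y]) (Lm ![x, y])

lemma f3_0 {α : Type*} (x y z : α) : ![x, y, z] ∘ Fin.succAbove 0 = ![y, z] := by
  funext i; fin_cases i <;> rfl
lemma f3_1 {α : Type*} (x y z : α) : ![x, y, z] ∘ Fin.succAbove 1 = ![x, z] := by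
  funext i; fin_cases i <;> rfl
lemma f3_2 {α : Type*} (x y z : α) : ![x, y, z] ∘ Fin.succAbove 2 = ![x, y] := by
  funext i; fin_cases i <;> rfl
lemma f4_0 {α : Type*} (w x y z : α) : ![w, x, y, z] ∘ Fin.succAbove 0 = ![x, y, z] := by
  funext i; fin_cases i <;> rfl
lemma f4_1 {α : Type*} (w x y z : α) : ![w, x, y, z] ∘ Fin.succAbove 1 = ![w, y, z] := by
  funext i; fin_cases i <;> rfl
lemma f4_2 {α : Type*} (w x y z : α) : ![w, x, y, z] ∘ Fin.succAbove 2 = ![w, x, z] := by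
  funext i; fin_cases i <;> rfl
lemma f4_3 {α : Type*} (w x y z : α) : ![w, x, y, z] ∘ Fin.succAbove 3 = ![w, x, y] := by
  funext i; fin_cases i <;> rfl

lemma c2_Sm (x y z : ℝ × ℝ) : c2 (Sm ![x, y, z]) = o y z - o x z + o x y := by
  rw [c2_eq _ _ (isL_Sm ![x, y, z]), c2']
  simp only [Sm_comp, Lm_comp, o]
  rw [f3_0, f3_1, f3_2]

lemma o_top : o (1, 0) (1, 1) = o (1, 0) (1, 0) + 2 * Real.pi * I := by
  have h1 : Sm ![((1 : ℝ), (0 : ℝ)), (1, 1)] = Sm ![(1, 0), (1, 0)] :=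
    Sm_pole _ _ 1 (by simp) (fun i => by fin_cases i <;> rfl) (fun i => by fin_cases i <;> rfl)
  let l : C(Sx 1, ℂ) := ⟨fun x => 2 * Real.pi * I * (x.1 1 : ℝ),
    continuous_const.mul (continuous_ofReal.comp (continuous_coord 1))⟩
  rw [o, o, h1, om_change _ (Lm ![(1, 0), (1, 0)]) (Lm ![(1, 0), (1, 1)]) l (isL_Sm _)]
  · simp [l]
  · intro x
    have a : (aff ![((1 : ℝ), (0 : ℝ)), (1, 1)] x).1 = 1 :=
      aff_fst_const _ 1 (fun i => by fin_cases i <;> rfl) x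
    have b : (aff ![((1 : ℝ), (0 : ℝ)), (1, 0)] x).1 = 1 :=
      aff_fst_const _ 1 (fun i => by fin_cases i <;> rfl) x
    have c : (aff ![((1 : ℝ), (0 : ℝ)), (1, 1)] x).2 = x.1 1 := by
      simp [aff_snd, Fin.sum_univ_two]
    have d : (aff ![((1 : ℝ), (0 : ℝ)), (1, 0)] x).2 = 0 := by
      simp [aff_snd, Fin.sum_univ_two]
    simp [Lm, Ql, a, b, c, d, l, E]

lemma c2_cycle : c2 (Sm ![(0, 0), (1, 0), (1, 1)]) - c2 (Sm ![(0, 0), (0, 1), (1, 1)]) -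
    c2 (Sm ![(1, 0), (1, 0), (1, 0)]) + c2 (Sm ![(0, 0), (0, 0), (0, 0)]) = 2 * Real.pi * I := by
  simp only [c2_Sm, o_top]
  have h1 : o (0, 1) (1, 1) = o (0, 0) (1, 0) := by
    rw [o, o, Sm_shift ![(0, 0), (1, 0)] ![(0, 1), (1, 1)] (fun i => by fin_cases i <;> simp)
      (fun i => by fin_cases i <;> simp), Lm_shift ![(0, 0), (1, 0)] ![(0, 1), (1, 1)]
      (fun i => by fin_cases i <;> simp) (fun i => by fin_cases i <;> simp)]
  have h2 : o (0, 0) (0, 1) = o (0, 0) (0, 0) := by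
    rw [o, o, Sm_pole ![(0, 0), (0, 0)] ![(0, 0), (0, 1)] 0 (by simp)
      (fun i => by fin_cases i <;> rfl) (fun i => by fin_cases i <;> rfl),
      Lm_pole ![(0, 0), (0, 0)] ![(0, 0), (0, 1)]
      (fun i => by fin_cases i <;> rfl) (fun i => by fin_cases i <;> rfl)]
  rw [h1, h2]
  ring

end Crest.Agent.R123.Hom
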