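import Crest.Agent.R123.Glue
import Crest.Agent.R123.Count

/-! One period of the dynamics after a common refresh of all registers. -/

set_option autoImplicit false

open Finset

namespace Crest.Agent.R123

namespace Par

variable (P : Par)

/-- The fibre orbit. -/
noncomputable def y (ξ : Circle) (v : V) (t : ℕ) : V := orb P.om P.g ξ v t

lemma y_zero (ξ : Circle) (v : V) : P.y ξ v 0 = v := rfl

lemma y_succ (ξ : Circle) (v : V) (t : ℕ) : P.y ξ v (t + 1) = P.g (P.xi ξ t, P.y ξ v t) := rfl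

lemma y_add (ξ : Circle) (v : V) (T t : ℕ) :
    P.y ξ v (T + t) = P.y (P.om ^ T * ξ) (P.y ξ v T) t := by
  induction t with
  | zero => rfl
  | succ t ih =>
    rw [← add_assoc, y_succ, y_succ, ih]
    congr 2
    unfold Win.xi
    rw [← mul_assoc, ← pow_add, add_comm]

lemma bk_xi (ξ : Circle) (t : ℕ) : P.bk (P.xi ξ (t + 1)) = P.xi ξ t := P.bk_succ t ξ

/-- Thresholds separating the zones. -/
noncomputable def Bd (k : ℕ) : ℝ := P.R k / (2 * P.EE (k + 1))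

lemma Bd_pos (k : ℕ) : 0 < P.Bd k := by
  have := P.R_pos k; have := P.one_le_EE (k + 1); unfold Bd; positivity

lemma EE_mul_Bd (k : ℕ) : P.EE (k + 1) * P.Bd k = P.R k / 2 := by
  have := P.one_le_EE (k + 1); unfold Bd; field_simp

lemma le_Bd (k : ℕ) : 2 * P.EE k * P.R (k + 1) ≤ P.Bd k := by
  have := P.one_le_EE (k + 1)
  have := P.R_succ k
  unfold Bd
  rw [le_div_iff₀ (by positivity)]
  linarith

lemma Bd_succ_le (k : ℕ) : P.Bd (k + 1) ≤ P.Bd k := by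
  have h1 := P.le_Bd k
  have h2 := P.EE_mul_Bd (k + 1)
  have h3 := P.one_le_EE k
  have h4 := P.one_le_EE (k + 1 + 1)
  have h5 := P.Bd_pos (k + 1)
  have h6 := P.R_pos (k + 1)
  nlinarith

lemma Bd_anti : Antitone P.Bd := antitone_nat_of_succ_le P.Bd_succ_le

lemma pow_le_EE {k t : ℕ} (ht : t ≤ P.J k) : (2 * lam) ^ t ≤ P.EE k := by
  unfold Win.EE
  calc (2 * lam) ^ t ≤ (2 * lam) ^ P.J k := pow_le_pow_right₀ one_le_two_lam ht
    _ ≤ _ := le_mul_of_one_le_right (by have := lam_pos; positivity) (one_le_pow₀ (by norm_num))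

lemma two_pow_le_EE (k : ℕ) : (2 : ℝ) ^ (k + 5) ≤ P.EE k :=
  le_mul_of_one_le_left (by positivity) (one_le_pow₀ one_le_two_lam)

lemma y_up {k : ℕ} (ξ : Circle) {v : V} (hv : ‖v‖ ≤ P.Bd k) {t : ℕ} (ht : t ≤ P.J (k + 1)) :
    ‖P.y ξ v t‖ ≤ (2 * lam) ^ t * ‖v‖ ∧ ‖P.y ξ v t‖ < P.R k := by
  have hl := lam_pos
  have key : ∀ t ≤ P.J (k + 1), (2 * lam) ^ t * ‖v‖ < P.R k := fun t ht => by
    have h1 := P.pow_le_EE ht
    have h2 := P.EE_mul_Bd k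
    have h3 := P.R_pos k
    have : (2 * lam) ^ t * ‖v‖ ≤ P.EE (k + 1) * P.Bd k :=
      mul_le_mul h1 hv (norm_nonneg _) (by have := P.one_le_EE (k + 1); linarith)
    linarith
  induction t with
  | zero => simpa [y_zero] using key 0 ht
  | succ t ih =>
    obtain ⟨h1, h2⟩ := ih (by omega)
    have h3 : ‖P.y ξ v (t + 1)‖ ≤ (2 * lam) ^ (t + 1) * ‖v‖ := by
      rw [y_succ]
      refine (P.norm_g_le _ (h2.trans_le (P.R_anti (Nat.zero_le k)))).trans ?_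
      rw [pow_succ', mul_assoc (2 * lam)]
      gcongr
    exact ⟨h3, h3.trans_lt (key _ ht)⟩

/-- The value written by a refresh in the transition from stage `k + 1` to stage `k + 2`. -/
noncomputable def NN (k : ℕ) (ξ : ℂ) (v : V) : ℂ :=
  ((1 - rr (P.R (k + 1)) v) * P.a (k + 1) ξ) • P.nw (P.R (k + 2)) (k + 1) ξ v +
    (rr (P.R (k + 1)) v * P.a (k + 2) ξ) • P.nw (P.R (k + 3)) (k + 2) ξ v

/-- The averaged multiplier. -/
noncomputable def aa (k : ℕ) (ξ : ℂ) (v : V) : ℝ :=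
  (1 - rr (P.R (k + 1)) v) * P.a (k + 1) ξ + rr (P.R (k + 1)) v * P.a (k + 2) ξ

lemma le_aa (k : ℕ) (ξ : ℂ) (v : V) : P.a (k + 2) ξ ≤ P.aa k ξ v := by
  have h1 : P.a (k + 2) ξ ≤ P.a (k + 1) ξ := P.a_anti ξ (by omega)
  have := rr_le_one (P.R (k + 1)) v
  unfold aa
  nlinarith

lemma G_stable {k i : ℕ} (h1 : k + 1 < i) (h2 : i ≤ k + 4) (ξ : ℂ) (v : V) :
    P.G (k + 1) (ξ, v) (i : ZMod 4) =
      (P.o i ξ * P.aa k ξ v) • v (i : ZMod 4) + P.p i ξ • P.NN k ξ v := by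
  simp only [G, St, Win.F, Pi.add_apply, Pi.smul_apply, win_cast h1.le h2,
    win_cast (k := k + 1 + 1) h1 (by omega), NN, aa]
  module

lemma G_core {k : ℕ} {ξ : ℂ} (h : dd ξ ≤ P.s (k + 5) / 2) (v : V) :
    P.G (k + 1) (ξ, v) = fun _ => P.NN k ξ v := by
  ext c
  have hp : ∀ i, i ≤ k + 5 → P.p i ξ = 1 := fun i hi => P.p_eq_one (h.trans (P.half_le_core hi))
  have ho : ∀ i, i ≤ k + 5 → P.o i ξ = 0 := fun i hi => P.o_eq_zero (by
    have := P.half_le_core hi; have := P.e_pos i; linarith)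
  have h1 := win_le (k + 1) c
  have h2 := win_le (k + 1 + 1) c
  simp only [G, St, Win.F, Pi.add_apply, Pi.smul_apply, hp _ (h1.trans (by omega)),
    ho _ (h1.trans (by omega)), hp _ (h2.trans (by omega)), ho _ (h2.trans (by omega)), NN]
  module

/-- Window `i` has not been hit on its edge before time `t`. -/
def Healthy (ξ : Circle) (i t : ℕ) : Prop := ∀ l < t, ¬ |dd (P.xi ξ l) - P.s i| < P.e i

lemma exists_healthy {k m t : ℕ} (ξ : Circle) (hm1 : k + 1 ≤ m) (hm2 : m ≤ k + 2)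
    (ht : t ≤ P.J (k + 1)) : P.Healthy ξ (m + 1) t ∨ P.Healthy ξ (tr2 m) t := by
  by_cases hm : m = 1
  · subst hm
    left
    intro l _ h
    have := P.dd_le_core (i := 1 + 1) (by norm_num) (P.om ^ l * ξ)
    have := (abs_lt.1 h).1
    unfold Win.xi at this
    linarith
  · by_contra h
    simp only [Healthy, not_or, not_forall, not_not] at h
    obtain ⟨⟨l, hl, h1⟩, ⟨l', hl', h2⟩⟩ := h
    rw [tr2, if_neg hm] at h2
    exact P.sep (k + 1) (m + 1) (m + 2) (by omega) (by omega) (by omega) (by omega) (by omega) ξ l l'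
      (by omega) (by omega) ⟨h1, h2⟩

lemma tr2_range {k m : ℕ} (hm1 : k + 1 ≤ m) (hm2 : m ≤ k + 2) : k + 1 < tr2 m ∧ tr2 m ≤ k + 4 := by
  unfold tr2; split_ifs <;> omega

/-- The guaranteed size of a healthy register. -/
noncomputable def Lb (k : ℕ) (ξ : Circle) (w : ℂ) (t : ℕ) : ℝ :=
  ‖w‖ / 8 * ∏ l ∈ range t, P.a (k + 2) (P.xi ξ l) / 8

lemma Lb_succ (k : ℕ) (ξ : Circle) (w : ℂ) (t : ℕ) :
    P.Lb k ξ w (t + 1) = P.Lb k ξ w t * (P.a (k + 2) (P.xi ξ t) / 8) := by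
  unfold Lb; rw [prod_range_succ, mul_assoc]

lemma le_Lb (k : ℕ) (ξ : Circle) (w : ℂ) (t : ℕ) :
    ‖w‖ / 8 * (2 ^ t / 2 ^ (k + 2)) ≤ P.Lb k ξ w t :=
  mul_le_mul_of_nonneg_left (P.le_prod_a _ _ _) (by positivity)

lemma lt_Lb {k : ℕ} (ξ : Circle) {w : ℂ} (hw : P.Bd (k + 1) < ‖w‖) (t : ℕ) :
    2 * P.R (k + 2) < P.Lb k ξ w t := by
  refine lt_of_lt_of_le ?_ (P.le_Lb k ξ w t)
  have h1 := P.le_Bd (k + 1)
  have h2 := P.two_pow_le_EE (k + 1)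
  have h3 := P.R_pos (k + 1 + 1)
  have h4 : (1 : ℝ) ≤ 2 ^ t := one_le_pow₀ (by norm_num)
  have h5 : 2 * 2 ^ (k + 1 + 5) * P.R (k + 1 + 1) < ‖w‖ := by nlinarith
  have h6 : (2 : ℝ) ^ (k + 1 + 5) = 2 ^ (k + 2) * 16 := by ring
  rw [h6] at h5
  have h7 : (0 : ℝ) < 2 ^ (k + 2) := by positivity
  calc 2 * P.R (k + 2) < ‖w‖ / 8 * (1 / 2 ^ (k + 2)) := by
        rw [mul_one_div, lt_div_iff₀ h7]; nlinarith
    _ ≤ _ := by gcongr

/-- The invariant along a period. -/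
structure Inv (k : ℕ) (ξ : Circle) (w : ℂ) (t : ℕ) : Prop where
  al : ∀ i, k + 1 < i → i ≤ k + 4 → ∀ j, P.age i j (P.xi ξ t) ≠ 0 →
    j ≤ t ∧ Cn (w ^ 2 ^ (t - j)) (P.y ξ (fun _ => w) t (i : ZMod 4))
  lo : ∀ i, k + 1 < i → i ≤ k + 4 → P.Healthy ξ i t → ∃ j ≤ t, P.age i j (P.xi ξ t) = 1 ∧
    P.Lb k ξ w t ≤ ‖P.y ξ (fun _ => w) t (i : ZMod 4)‖ / 8 ^ (j + 1)

variable {P}

lemma Inv.cn_summand {k : ℕ} {ξ : Circle} {w : ℂ} {t : ℕ} (h : P.Inv k ξ w t) {i : ℕ}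
    (h1 : k + 1 < i) (h2 : i ≤ k + 4) (δ : ℝ) (j : ℕ) :
    Cn (w ^ 2 ^ (t + 1))
      (P.age i j (P.xi ξ t) • (Sq δ)^[j + 1] (P.y ξ (fun _ => w) t (i : ZMod 4))) := by
  by_cases hj : P.age i j (P.xi ξ t) = 0
  · rw [hj, zero_smul]; exact Cn.zero _
  · obtain ⟨h3, h4⟩ := h.al i h1 h2 j hj
    have := h4.Sq_iter δ (j + 1)
    rw [← pow_mul, ← pow_add, show t - j + (j + 1) = t + 1 by omega] at this
    exact this.smul (P.age_nonneg _ _ _)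

lemma Inv.cn_term {k : ℕ} {ξ : Circle} {w : ℂ} {t : ℕ} (h : P.Inv k ξ w t) {i : ℕ}
    (h1 : k + 1 < i) (h2 : i ≤ k + 4) (δ : ℝ) (J : ℕ) :
    Cn (w ^ 2 ^ (t + 1)) (P.term δ J i (P.xi ξ t) (P.y ξ (fun _ => w) t)) :=
  Cn.sum _ fun j _ => h.cn_summand h1 h2 δ j

lemma Inv.le_term {k : ℕ} {ξ : Circle} {w : ℂ} {t : ℕ} (h : P.Inv k ξ w t) {i : ℕ}
    (h1 : k + 1 < i) (h2 : i ≤ k + 4) {δ : ℝ} (hδ : 0 < δ) (hδ' : δ ≤ P.Lb k ξ w t) {J : ℕ}
    (hJ : t < J) (hh : P.Healthy ξ i t) :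
    P.Lb k ξ w t ≤ ‖P.term δ J i (P.xi ξ t) (P.y ξ (fun _ => w) t)‖ := by
  obtain ⟨j, hj, h3, h4⟩ := h.lo i h1 h2 hh
  refine le_trans ?_ (Cn.le_norm_sum _ (fun j _ => h.cn_summand h1 h2 δ j)
    (mem_range.2 (show j < J by omega)))
  rw [h3, one_smul]
  exact h4.trans (le_norm_Sq_iter hδ _ (hδ'.trans h4))

lemma Inv.nw {k : ℕ} {ξ : Circle} {w : ℂ} {t : ℕ} (h : P.Inv k ξ w t) {m : ℕ}
    (hm1 : k + 1 ≤ m) (hm2 : m ≤ k + 2) {δ : ℝ} (hδ : 0 < δ) (hδ' : δ ≤ P.Lb k ξ w t)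
    (ht : t < P.J (k + 1)) :
    Cn (w ^ 2 ^ (t + 1)) (P.nw δ m (P.xi ξ t) (P.y ξ (fun _ => w) t)) ∧
      P.Lb k ξ w t ≤ ‖P.nw δ m (P.xi ξ t) (P.y ξ (fun _ => w) t)‖ := by
  obtain ⟨h1, h2⟩ := tr2_range hm1 hm2
  have c1 := h.cn_term (i := m + 1) (by omega) (by omega) δ (P.J m)
  have c2 := h.cn_term h1 h2 δ (P.J m)
  have hJ : t < P.J m := ht.trans_le (P.J_mono hm1)
  refine ⟨c1.add c2, ?_⟩
  unfold Win.nw
  rw [c1.norm_add c2]
  rcases P.exists_healthy ξ hm1 hm2 ht.le with hh | hh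
  · exact (h.le_term (by omega) (by omega) hδ hδ' hJ hh).trans (le_add_of_nonneg_right
      (norm_nonneg _))
  · exact (h.le_term h1 h2 hδ hδ' hJ hh).trans (le_add_of_nonneg_left (norm_nonneg _))

lemma Inv.NN {k : ℕ} {ξ : Circle} {w : ℂ} {t : ℕ} (h : P.Inv k ξ w t) (hw : P.Bd (k + 1) < ‖w‖)
    (ht : t < P.J (k + 1)) :
    Cn (w ^ 2 ^ (t + 1)) (P.NN k (P.xi ξ t) (P.y ξ (fun _ => w) t)) ∧
      8 * P.Lb k ξ w (t + 1) ≤ ‖P.NN k (P.xi ξ t) (P.y ξ (fun _ => w) t)‖ := by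
  have hL := P.lt_Lb ξ hw t
  have hR2 := P.R_pos (k + 2)
  have hR3 : P.R (k + 3) ≤ P.R (k + 2) := P.R_anti (by omega)
  obtain ⟨c1, l1⟩ := h.nw (m := k + 1) le_rfl (by omega) hR2 (by linarith) ht
  obtain ⟨c2, l2⟩ := h.nw (m := k + 2) (by omega) le_rfl (P.R_pos (k + 3)) (by linarith) ht
  set v := P.y ξ (fun _ => w) t
  have r0 := rr_nonneg (P.R (k + 1)) v
  have r1 := rr_le_one (P.R (k + 1)) v
  have a1 := P.a_nonneg (k + 1) (P.xi ξ t)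
  have a2 := P.a_nonneg (k + 2) (P.xi ξ t)
  have b1 : 0 ≤ (1 - rr (P.R (k + 1)) v) * P.a (k + 1) (P.xi ξ t) := mul_nonneg (by linarith) a1
  have b2 : 0 ≤ rr (P.R (k + 1)) v * P.a (k + 2) (P.xi ξ t) := mul_nonneg r0 a2
  refine ⟨(c1.smul b1).add (c2.smul b2), ?_⟩
  unfold Par.NN
  rw [(c1.smul b1).norm_add (c2.smul b2), norm_smul, norm_smul, Real.norm_of_nonneg b1,
    Real.norm_of_nonneg b2, Lb_succ]
  have h3 := P.le_aa k (P.xi ξ t) v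
  unfold aa at h3
  have h4 := mul_le_mul_of_nonneg_left l1 b1
  have h5 := mul_le_mul_of_nonneg_left l2 b2
  have h6 := mul_le_mul_of_nonneg_right h3 (show 0 ≤ P.Lb k ξ w t by linarith)
  nlinarith

lemma Inv.lower {k : ℕ} {ξ : Circle} {w : ℂ} {t : ℕ} (h : P.Inv k ξ w t) (hw : P.Bd (k + 1) < ‖w‖)
    (ht : t ≤ P.J (k + 1)) : 2 * P.R (k + 2) < ‖P.y ξ (fun _ => w) t‖ := by
  have key : ∀ i, k + 1 < i → i ≤ k + 4 → P.Healthy ξ i t →
      2 * P.R (k + 2) < ‖P.y ξ (fun _ => w) t‖ := fun i h1 h2 hh => by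
    obtain ⟨j, -, -, h4⟩ := h.lo i h1 h2 hh
    refine (P.lt_Lb ξ hw t).trans_le (h4.trans ((div_le_self (norm_nonneg _)
      (one_le_pow₀ (by norm_num))).trans (norm_le_pi_norm _ _)))
  obtain ⟨h1, h2⟩ := tr2_range (k := k) (m := k + 1) le_rfl (by omega)
  rcases P.exists_healthy (k := k) (m := k + 1) ξ le_rfl (by omega) ht with hh | hh
  · exact key _ (by omega) (by omega) hh
  · exact key _ h1 h2 hh

lemma inv_zero {k : ℕ} {ξ : Circle} (w : ℂ) (hc : dd (P.bk ξ) ≤ P.s (k + 5) / 2) :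
    P.Inv k ξ w 0 := by
  have hx : P.xi ξ 0 = ξ := by simp [Win.xi]
  have hp : ∀ i, i ≤ k + 5 → P.p i (P.bk ξ) = 1 := fun i hi =>
    P.p_eq_one (hc.trans (P.half_le_core hi))
  have ho : ∀ i, i ≤ k + 5 → P.o i (P.bk ξ) = 0 := fun i hi => P.o_eq_zero (by
    have := P.half_le_core hi; have := P.e_pos i; linarith)
  constructor
  · intro i h1 h2 j hj
    cases j with
    | zero => exact ⟨le_rfl, by simpa [y_zero] using Cn.refl w⟩
    | succ j => exact (hj (by rw [hx, Win.age, ho i (by omega), mul_zero])).elim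
  · intro i h1 h2 _
    exact ⟨0, le_rfl, by rw [hx, Win.age, hp i (by omega)], by simp [Lb, y_zero]⟩

lemma Inv.succ {k : ℕ} {ξ : Circle} {w : ℂ} {t : ℕ} (h : P.Inv k ξ w t) (hw : P.Bd (k + 1) < ‖w‖)
    (hw' : ‖w‖ ≤ P.Bd k) (ht : t < P.J (k + 1)) : P.Inv k ξ w (t + 1) := by
  have hup := (P.y_up ξ (v := fun _ => w) (by rwa [pi_norm_const]) ht.le).2
  have hy : ∀ i, k + 1 < i → i ≤ k + 4 → P.y ξ (fun _ => w) (t + 1) (i : ZMod 4) =
      (P.o i (P.xi ξ t) * P.aa k (P.xi ξ t) (P.y ξ (fun _ => w) t)) •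
        P.y ξ (fun _ => w) t (i : ZMod 4) +
        P.p i (P.xi ξ t) • P.NN k (P.xi ξ t) (P.y ξ (fun _ => w) t) := fun i h1 h2 => by
    rw [y_succ, P.g_mid (h.lower hw ht.le) hup, P.G_stable h1 h2]
  obtain ⟨cN, lN⟩ := h.NN hw ht
  have haa := P.le_aa k (P.xi ξ t) (P.y ξ (fun _ => w) t)
  have ha := P.a_nonneg (k + 2) (P.xi ξ t)
  constructor
  · intro i h1 h2 j hj
    rw [hy i h1 h2]
    cases j with
    | zero =>
      rw [Win.age, bk_xi] at hj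
      rw [(P.p_or_o i _).resolve_left hj, zero_mul, zero_smul, zero_add]
      exact ⟨Nat.zero_le _, cN.smul (P.p_nonneg _ _)⟩
    | succ j =>
      rw [Win.age, bk_xi] at hj
      obtain ⟨h3, h4⟩ := h.al i h1 h2 j (left_ne_zero_of_mul hj)
      rw [(P.p_or_o i _).resolve_right (right_ne_zero_of_mul hj), zero_smul, add_zero,
        Nat.add_sub_add_right]
      exact ⟨by omega, h4.smul (mul_nonneg (P.o_nonneg _ _) (ha.trans haa))⟩
  · intro i h1 h2 hh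
    have hne := hh t (Nat.lt_succ_self t)
    have he := P.e_pos i
    rw [hy i h1 h2]
    rcases le_or_gt (dd (P.xi ξ t)) (P.s i) with hd | hd
    · have hp : P.p i (P.xi ξ t) = 1 := P.p_eq_one (by
        rw [abs_of_nonpos (by linarith)] at hne; linarith [not_lt.1 hne])
      refine ⟨0, Nat.zero_le _, by rw [Win.age, bk_xi, hp], ?_⟩
      rw [P.o_eq_zero hd, hp, zero_mul, zero_smul, zero_add, one_smul, zero_add, pow_one]
      linarith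
    · have ho : P.o i (P.xi ξ t) = 1 := P.o_eq_one (by
        rw [abs_of_pos (by linarith)] at hne; linarith [not_lt.1 hne])
      obtain ⟨j, h3, h4, h5⟩ := h.lo i h1 h2 fun l hl => hh l (by omega)
      refine ⟨j + 1, by omega, by rw [Win.age, bk_xi, h4, ho, mul_one], ?_⟩
      rw [P.p_eq_zero hd.le, ho, one_mul, zero_smul, add_zero, norm_smul,
        Real.norm_of_nonneg (ha.trans haa), Lb_succ]
      calc _ ≤ (‖P.y ξ (fun _ => w) t (i : ZMod 4)‖ / 8 ^ (j + 1)) *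
            (P.aa k (P.xi ξ t) (P.y ξ (fun _ => w) t) / 8) :=
            mul_le_mul h5 (by linarith) (by positivity) (by positivity)
        _ = _ := by rw [pow_succ _ (j + 1)]; field_simp

lemma inv_all {k : ℕ} {ξ : Circle} {w : ℂ} (hw : P.Bd (k + 1) < ‖w‖) (hw' : ‖w‖ ≤ P.Bd k)
    (hc : dd (P.bk ξ) ≤ P.s (k + 5) / 2) {t : ℕ} (ht : t ≤ P.J (k + 1)) : P.Inv k ξ w t := by
  induction t with
  | zero => exact inv_zero w hc
  | succ t ih => exact (ih (by omega)).succ hw hw' ht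

theorem period {k : ℕ} {ξ : Circle} {w : ℂ} (hw : P.Bd (k + 1) < ‖w‖) (hw' : ‖w‖ ≤ P.Bd k)
    (hc : dd (P.bk ξ) ≤ P.s (k + 5) / 2) :
    ∃ (T : ℕ) (w' : ℂ), 0 < T ∧ T ≤ P.J (k + 1) ∧ (∀ t < T, ‖P.y ξ (fun _ => w) t‖ < P.R k) ∧
      P.y ξ (fun _ => w) T = (fun _ => w') ∧ 2 * ‖w‖ ≤ ‖w'‖ ∧
      dd (P.bk (P.om ^ T * ξ : Circle)) ≤ P.s (k + 5) / 2 := by
  obtain ⟨t, h1, h2, h3⟩ := P.ret (k + 1) ξ
  have h4 : dd (P.xi ξ t) ≤ P.s (k + 5) / 2 := by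
    have := P.s_anti (show k + 5 ≤ k + 1 + 6 by omega)
    unfold Win.xi; linarith
  have hI := inv_all hw hw' hc h2.le
  have hv : ‖(fun _ => w : V)‖ ≤ P.Bd k := by rwa [pi_norm_const]
  refine ⟨t + 1, P.NN k (P.xi ξ t) (P.y ξ (fun _ => w) t), Nat.succ_pos _, h2,
    fun l hl => (P.y_up ξ hv (by omega)).2, ?_, ?_, ?_⟩
  · rw [y_succ, P.g_mid (hI.lower hw h2.le) (P.y_up ξ hv h2.le).2, P.G_core h4]
  · refine le_trans ?_ (hI.NN hw h2).2
    have h5 := P.le_Lb k ξ w (t + 1)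
    have h6 : (2 : ℝ) ≤ 2 ^ (t + 1) / 2 ^ (k + 2) := by
      rw [le_div_iff₀ (by positivity), ← pow_succ']
      exact pow_le_pow_right₀ (by norm_num) (by omega)
    nlinarith [norm_nonneg w]
  · rw [P.bk_succ]; exact h4

end Par

end Crest.Agent.R123
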