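import Crest.Agent.R123.Defs

/-! The smoothed angle doubling map and positive rays in `ℂ`. -/

set_option autoImplicit false

namespace Crest.Agent.R123

/-- Smoothed, `1`-Lipschitz angle doubling. -/
noncomputable def Sq (δ : ℝ) (w : ℂ) : ℂ := ((4 * √(‖w‖ ^ 2 + δ ^ 2))⁻¹ : ℝ) • w ^ 2

lemma norm_le_sqrt (δ : ℝ) (w : ℂ) : ‖w‖ ≤ √(‖w‖ ^ 2 + δ ^ 2) :=
  Real.le_sqrt_of_sq_le (by nlinarith [sq_nonneg δ])

lemma sqrt_pos' {δ : ℝ} (hδ : 0 < δ) (w : ℂ) : 0 < √(‖w‖ ^ 2 + δ ^ 2) :=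
  Real.sqrt_pos.2 (by positivity)

lemma norm_Sq (δ : ℝ) (w : ℂ) : ‖Sq δ w‖ = ‖w‖ ^ 2 / (4 * √(‖w‖ ^ 2 + δ ^ 2)) := by
  rw [Sq, norm_smul, norm_pow, Real.norm_of_nonneg (by positivity)]
  ring

lemma norm_Sq_le (δ : ℝ) (w : ℂ) : ‖Sq δ w‖ ≤ ‖w‖ := by
  rw [norm_Sq]
  rcases eq_or_lt_of_le (norm_nonneg w) with h | h
  · rw [← h]; simp
  · have := norm_le_sqrt δ w
    rw [div_le_iff₀ (by linarith)]
    nlinarith

lemma norm_Sq_iter_le (δ : ℝ) (j : ℕ) (w : ℂ) : ‖(Sq δ)^[j] w‖ ≤ ‖w‖ := by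
  induction j with
  | zero => simp
  | succ j ih => rw [Function.iterate_succ_apply']; exact (norm_Sq_le _ _).trans ih

lemma le_norm_Sq {δ : ℝ} (hδ : 0 < δ) {w : ℂ} (h : δ ≤ ‖w‖) : ‖w‖ / 8 ≤ ‖Sq δ w‖ := by
  rw [norm_Sq]
  have h1 : √(‖w‖ ^ 2 + δ ^ 2) ≤ 2 * ‖w‖ := by
    rw [Real.sqrt_le_iff]
    constructor
    · positivity
    · nlinarith
  have := sqrt_pos' hδ w
  rw [div_le_div_iff₀ (by norm_num) (by positivity)]
  nlinarith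

lemma le_norm_Sq_iter {δ : ℝ} (hδ : 0 < δ) (j : ℕ) {w : ℂ} (h : δ ≤ ‖w‖ / 8 ^ j) :
    ‖w‖ / 8 ^ j ≤ ‖(Sq δ)^[j] w‖ := by
  induction j with
  | zero => simp
  | succ j ih =>
    have h0 : ‖w‖ / 8 ^ (j + 1) = ‖w‖ / 8 ^ j / 8 := by rw [pow_succ, div_div]
    have h1 : δ ≤ ‖w‖ / 8 ^ j := by
      have : 0 ≤ ‖w‖ / 8 ^ j := by positivity
      linarith
    have h2 := ih h1
    rw [Function.iterate_succ_apply', h0]
    have := le_norm_Sq hδ (h1.trans h2)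
    linarith

lemma contDiff_Sq {δ : ℝ} (hδ : 0 < δ) : ContDiff ℝ 1 (Sq δ) := by
  unfold Sq
  refine ContDiff.smul (ContDiff.inv (contDiff_const.mul (ContDiff.sqrt
    ((contDiff_norm_sq ℝ).add contDiff_const) fun w => by positivity)) fun w => ?_) (by fun_prop)
  have := sqrt_pos' hδ w
  positivity

lemma contDiff_Sq_iter {δ : ℝ} (hδ : 0 < δ) (j : ℕ) : ContDiff ℝ 1 (Sq δ)^[j] := by
  induction j with
  | zero => exact contDiff_id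
  | succ j ih => rw [Function.iterate_succ']; exact (contDiff_Sq hδ).comp ih

lemma Sq_lip_aux {δ : ℝ} (hδ : 0 < δ) (w z : ℂ) (h : ‖z‖ ≤ ‖w‖) :
    ‖Sq δ w - Sq δ z‖ ≤ ‖w - z‖ := by
  set a := √(‖w‖ ^ 2 + δ ^ 2) with ha
  set b := √(‖z‖ ^ 2 + δ ^ 2) with hb
  have ha0 : 0 < a := sqrt_pos' hδ w
  have hb0 : 0 < b := sqrt_pos' hδ z
  have hwa : ‖w‖ ≤ a := norm_le_sqrt δ w
  have hzb : ‖z‖ ≤ b := norm_le_sqrt δ z
  have ha2 : a ^ 2 = ‖w‖ ^ 2 + δ ^ 2 := Real.sq_sqrt (by positivity)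
  have hb2 : b ^ 2 = ‖z‖ ^ 2 + δ ^ 2 := Real.sq_sqrt (by positivity)
  have hd : ‖w‖ - ‖z‖ ≤ ‖w - z‖ := norm_sub_norm_le w z
  have hz0 := norm_nonneg z
  have hba : b ≤ a := Real.sqrt_le_sqrt (by nlinarith)
  have hab : a - b ≤ ‖w - z‖ := by
    have h1 : (a - b) * (a + b) = (‖w‖ - ‖z‖) * (‖w‖ + ‖z‖) := by nlinarith
    have h2 : (a - b) * (a + b) ≤ ‖w - z‖ * (a + b) := by
      rw [h1]
      exact mul_le_mul hd (by linarith) (by positivity) (norm_nonneg _)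
    exact le_of_mul_le_mul_right h2 (by positivity)
  have key : Sq δ w - Sq δ z =
      ((4 * a)⁻¹ : ℝ) • ((w - z) * (w + z)) - (((a - b) / (4 * a * b) : ℝ)) • z ^ 2 := by
    simp only [Sq, ← ha, ← hb, Complex.real_smul]
    push_cast
    have : (a : ℂ) ≠ 0 := by exact_mod_cast ha0.ne'
    have : (b : ℂ) ≠ 0 := by exact_mod_cast hb0.ne'
    field_simp
    ring
  rw [key]
  refine (norm_sub_le _ _).trans ?_
  rw [norm_smul, norm_smul, norm_mul, norm_pow, Real.norm_of_nonneg (by positivity),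
    Real.norm_of_nonneg (div_nonneg (by linarith) (by positivity))]
  have h1 : ‖w + z‖ ≤ 2 * a := (norm_add_le _ _).trans (by linarith)
  have h2 : (4 * a)⁻¹ * (‖w - z‖ * ‖w + z‖) ≤ ‖w - z‖ / 2 := by
    rw [inv_mul_le_iff₀ (by positivity)]
    nlinarith [norm_nonneg (w - z)]
  have h3 : (a - b) / (4 * a * b) * ‖z‖ ^ 2 ≤ ‖w - z‖ / 4 := by
    rw [div_mul_eq_mul_div, div_le_div_iff₀ (by positivity) (by norm_num)]
    have : ‖z‖ ^ 2 ≤ a * b := by nlinarith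
    have h4 : (a - b) * ‖z‖ ^ 2 ≤ ‖w - z‖ * (a * b) :=
      mul_le_mul hab this (by positivity) (norm_nonneg _)
    nlinarith
  linarith [norm_nonneg (w - z)]

lemma Sq_lip {δ : ℝ} (hδ : 0 < δ) (w z : ℂ) : ‖Sq δ w - Sq δ z‖ ≤ ‖w - z‖ := by
  rcases le_total ‖z‖ ‖w‖ with h | h
  · exact Sq_lip_aux hδ w z h
  · rw [norm_sub_rev, norm_sub_rev w]; exact Sq_lip_aux hδ z w h

lemma Sq_iter_lip {δ : ℝ} (hδ : 0 < δ) (j : ℕ) (w z : ℂ) :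
    ‖(Sq δ)^[j] w - (Sq δ)^[j] z‖ ≤ ‖w - z‖ := by
  induction j with
  | zero => simp
  | succ j ih =>
    rw [Function.iterate_succ_apply', Function.iterate_succ_apply']
    exact (Sq_lip hδ _ _).trans ih

/-- `x` lies on the closed ray spanned by `u`. -/
def Cn (u x : ℂ) : Prop := ∃ ρ : ℝ, 0 ≤ ρ ∧ x = ρ • u

lemma Cn.refl (u : ℂ) : Cn u u := ⟨1, zero_le_one, by simp⟩

lemma Cn.zero (u : ℂ) : Cn u 0 := ⟨0, le_rfl, by simp⟩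

lemma Cn.add {u x y : ℂ} (hx : Cn u x) (hy : Cn u y) : Cn u (x + y) := by
  obtain ⟨a, ha, rfl⟩ := hx
  obtain ⟨b, hb, rfl⟩ := hy
  exact ⟨a + b, by positivity, by rw [add_smul]⟩

lemma Cn.smul {u x : ℂ} (hx : Cn u x) {c : ℝ} (hc : 0 ≤ c) : Cn u (c • x) := by
  obtain ⟨a, ha, rfl⟩ := hx
  exact ⟨c * a, by positivity, by rw [mul_smul]⟩

lemma Cn.norm_add {u x y : ℂ} (hx : Cn u x) (hy : Cn u y) : ‖x + y‖ = ‖x‖ + ‖y‖ := by
  obtain ⟨a, ha, rfl⟩ := hx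
  obtain ⟨b, hb, rfl⟩ := hy
  rw [← add_smul, norm_smul, norm_smul, norm_smul, Real.norm_of_nonneg ha, Real.norm_of_nonneg hb,
    Real.norm_of_nonneg (by positivity), add_mul]

lemma Cn.sum {ι : Type*} {u : ℂ} (s : Finset ι) {f : ι → ℂ} (h : ∀ i ∈ s, Cn u (f i)) :
    Cn u (∑ i ∈ s, f i) :=
  Finset.sum_induction f (Cn u) (fun _ _ => Cn.add) (Cn.zero u) h

lemma Cn.le_norm_sum {ι : Type*} {u : ℂ} (s : Finset ι) {f : ι → ℂ} (h : ∀ i ∈ s, Cn u (f i))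
    {i : ι} (hi : i ∈ s) : ‖f i‖ ≤ ‖∑ i ∈ s, f i‖ := by
  classical
  rw [← Finset.add_sum_erase s f hi,
    (h i hi).norm_add (Cn.sum _ fun j hj => h j (Finset.mem_of_mem_erase hj))]
  linarith [norm_nonneg (∑ x ∈ s.erase i, f x)]

lemma Cn.sq {u x : ℂ} (hx : Cn u x) : Cn (u ^ 2) (x ^ 2) := by
  obtain ⟨a, ha, rfl⟩ := hx
  exact ⟨a ^ 2, by positivity, by rw [smul_pow]⟩

lemma Cn.Sq {u x : ℂ} (hx : Cn u x) (δ : ℝ) : Cn (u ^ 2) (Sq δ x) :=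
  hx.sq.smul (by positivity)

lemma Cn.Sq_iter {u x : ℂ} (hx : Cn u x) (δ : ℝ) (j : ℕ) :
    Cn (u ^ 2 ^ j) ((Crest.Agent.R123.Sq δ)^[j] x) := by
  induction j with
  | zero => simpa using hx
  | succ j ih =>
    rw [Function.iterate_succ_apply', pow_succ, pow_mul]
    exact ih.Sq δ

end Crest.Agent.R123
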