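import Crest.Agent.R123.Win
import Crest.Agent.R123.Sq

/-! The stage maps `F δ k` and their estimates. -/

set_option autoImplicit false

open Filter Topology Finset

namespace Crest.Agent.R123

/-- The expansion constant. -/
def lam : ℝ := 2 ^ 11

lemma lam_pos : 0 < lam := by unfold lam; positivity

/-- The window of colour `c` that is active at stage `k`. -/
def win (k : ℕ) (c : ZMod 4) : ℕ := k + (c - (k : ZMod 4)).val

lemma le_win (k : ℕ) (c : ZMod 4) : k ≤ win k c := Nat.le_add_right _ _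

lemma win_le (k : ℕ) (c : ZMod 4) : win k c ≤ k + 3 := by
  have := ZMod.val_lt (c - (k : ZMod 4))
  unfold win; omega

lemma win_cast {k i : ℕ} (h1 : k ≤ i) (h2 : i ≤ k + 3) : win k (i : ZMod 4) = i := by
  obtain ⟨r, rfl⟩ := Nat.exists_eq_add_of_le h1
  unfold win
  rw [Nat.cast_add, add_sub_cancel_left, ZMod.val_cast_of_lt (by omega)]

/-- The second trusted window. -/
def tr2 (k : ℕ) : ℕ := if k = 1 then 2 else k + 2

namespace Win

variable (W : Win)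

lemma s_pos (i : ℕ) : 0 < W.s i := by have := W.e_pos i; have := W.e_le i; linarith

lemma s_anti : Antitone W.s := antitone_nat_of_succ_le fun i => by
  have := W.s_succ i; have := W.s_pos i; linarith

lemma out_le_core {i k : ℕ} (h : i < k) : W.s k + W.e k ≤ W.s i - W.e i := by
  have h1 : W.s k ≤ W.s (i + 1) := W.s_anti h
  have := W.s_succ i; have := W.e_le i; have := W.e_le k; have := W.s_pos i
  linarith

lemma out_anti {i k : ℕ} (h : i ≤ k) : W.s k + W.e k ≤ W.s i + W.e i := by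
  rcases h.eq_or_lt with rfl | h
  · exact le_rfl
  · have := W.out_le_core h; have := W.e_pos i; linarith

lemma half_le_core {i k : ℕ} (h : i ≤ k) : W.s k / 2 ≤ W.s i - W.e i := by
  have h1 : W.s k ≤ W.s i := W.s_anti h
  have := W.e_le i; have := W.s_pos i
  linarith

lemma dd_le_core {i : ℕ} (h : i ≤ 4) (ξ : Circle) : dd ξ ≤ W.s i - W.e i := by
  have h1 : W.s 4 ≤ W.s i := W.s_anti h
  have := W.e_le i; have := W.s_four; have := dd_le_two ξ
  linarith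

/-- Refresh weight. -/
noncomputable def p (i : ℕ) (ξ : ℂ) : ℝ := Real.smoothTransition ((W.s i - dd ξ) / W.e i)

/-- Keep weight. -/
noncomputable def o (i : ℕ) (ξ : ℂ) : ℝ := Real.smoothTransition ((dd ξ - W.s i) / W.e i)

lemma p_nonneg (i : ℕ) (ξ : ℂ) : 0 ≤ W.p i ξ := Real.smoothTransition.nonneg _
lemma o_nonneg (i : ℕ) (ξ : ℂ) : 0 ≤ W.o i ξ := Real.smoothTransition.nonneg _
lemma p_le_one (i : ℕ) (ξ : ℂ) : W.p i ξ ≤ 1 := Real.smoothTransition.le_one _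
lemma o_le_one (i : ℕ) (ξ : ℂ) : W.o i ξ ≤ 1 := Real.smoothTransition.le_one _

lemma p_eq_one {i : ℕ} {ξ : ℂ} (h : dd ξ ≤ W.s i - W.e i) : W.p i ξ = 1 :=
  Real.smoothTransition.one_of_one_le (by rw [le_div_iff₀ (W.e_pos i)]; linarith)

lemma o_eq_one {i : ℕ} {ξ : ℂ} (h : W.s i + W.e i ≤ dd ξ) : W.o i ξ = 1 :=
  Real.smoothTransition.one_of_one_le (by rw [le_div_iff₀ (W.e_pos i)]; linarith)

lemma p_eq_zero {i : ℕ} {ξ : ℂ} (h : W.s i ≤ dd ξ) : W.p i ξ = 0 :=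
  Real.smoothTransition.zero_of_nonpos
    (div_nonpos_of_nonpos_of_nonneg (by linarith) (W.e_pos i).le)

lemma o_eq_zero {i : ℕ} {ξ : ℂ} (h : dd ξ ≤ W.s i) : W.o i ξ = 0 :=
  Real.smoothTransition.zero_of_nonpos
    (div_nonpos_of_nonpos_of_nonneg (by linarith) (W.e_pos i).le)

lemma p_or_o (i : ℕ) (ξ : ℂ) : W.p i ξ = 0 ∨ W.o i ξ = 0 :=
  (le_total (W.s i) (dd ξ)).imp W.p_eq_zero W.o_eq_zero

lemma p_add_o (i : ℕ) (ξ : ℂ) : W.p i ξ + W.o i ξ ≤ 1 := by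
  rcases W.p_or_o i ξ with h | h
  · rw [h, zero_add]; exact W.o_le_one _ _
  · rw [h, add_zero]; exact W.p_le_one _ _

lemma contDiff_dd : ContDiff ℝ 1 dd := contDiff_const.sub Complex.reCLM.contDiff

lemma contDiff_p (i : ℕ) : ContDiff ℝ 1 (W.p i) :=
  Real.smoothTransition.contDiff.comp ((contDiff_const.sub contDiff_dd).div_const _)

lemma contDiff_o (i : ℕ) : ContDiff ℝ 1 (W.o i) :=
  Real.smoothTransition.contDiff.comp ((contDiff_dd.sub contDiff_const).div_const _)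

/-- One step back in the base. -/
noncomputable def bk (ξ : ℂ) : ℂ := ((W.om⁻¹ : Circle) : ℂ) * ξ

lemma contDiff_bk : ContDiff ℝ 1 W.bk := contDiff_const.mul contDiff_id

lemma bk_succ (t : ℕ) (ξ : Circle) :
    W.bk (W.om ^ (t + 1) * ξ : Circle) = (W.om ^ t * ξ : Circle) := by
  unfold bk
  rw [← Circle.coe_mul, pow_succ', mul_assoc, inv_mul_cancel_left]

/-- Weight of the event that the last refresh of window `i` was `j + 1` steps ago. -/
noncomputable def age (i : ℕ) : ℕ → ℂ → ℝ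
  | 0, ξ => W.p i (W.bk ξ)
  | j + 1, ξ => age i j (W.bk ξ) * W.o i (W.bk ξ)

lemma age_nonneg (i j : ℕ) (ξ : ℂ) : 0 ≤ W.age i j ξ := by
  induction j generalizing ξ with
  | zero => exact W.p_nonneg _ _
  | succ j ih => exact mul_nonneg (ih _) (W.o_nonneg _ _)

lemma sum_age_le (i J : ℕ) (ξ : ℂ) : ∑ j ∈ range J, W.age i j ξ ≤ 1 := by
  induction J generalizing ξ with
  | zero => simp
  | succ J ih =>
    rw [sum_range_succ']
    simp only [age]
    rw [← sum_mul]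
    have := W.p_add_o i (W.bk ξ)
    have h2 := mul_le_mul_of_nonneg_right (ih (W.bk ξ)) (W.o_nonneg i (W.bk ξ))
    linarith

lemma contDiff_age (i j : ℕ) : ContDiff ℝ 1 (W.age i j) := by
  induction j with
  | zero => exact (W.contDiff_p i).comp W.contDiff_bk
  | succ j ih => exact (ih.comp W.contDiff_bk).mul ((W.contDiff_o i).comp W.contDiff_bk)

/-- The linear multiplier at stage `n`. -/
noncomputable def a (n : ℕ) (ξ : ℂ) : ℝ := lam * ∏ i ∈ range n, (1 - W.p i ξ / 2)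

lemma fac_nonneg (i : ℕ) (ξ : ℂ) : 0 ≤ 1 - W.p i ξ / 2 := by have := W.p_le_one i ξ; linarith

lemma a_nonneg (n : ℕ) (ξ : ℂ) : 0 ≤ W.a n ξ :=
  mul_nonneg lam_pos.le (prod_nonneg fun i _ => W.fac_nonneg i ξ)

lemma a_succ (n : ℕ) (ξ : ℂ) : W.a (n + 1) ξ = W.a n ξ * (1 - W.p n ξ / 2) := by
  unfold a; rw [prod_range_succ, mul_assoc]

lemma a_anti (ξ : ℂ) : Antitone fun n => W.a n ξ := antitone_nat_of_succ_le fun n => by
  rw [a_succ]
  have := W.p_nonneg n ξ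
  have := W.a_nonneg n ξ
  nlinarith

lemma a_le (n : ℕ) (ξ : ℂ) : W.a n ξ ≤ lam := by
  have := W.a_anti ξ (Nat.zero_le n)
  simpa [a] using this

lemma contDiff_a (n : ℕ) : ContDiff ℝ 1 (W.a n) :=
  contDiff_const.mul (contDiff_prod fun i _ => contDiff_const.sub ((W.contDiff_p i).div_const _))

lemma a_inside {n : ℕ} {ξ : ℂ} (h : dd ξ ≤ W.s n + W.e n) : W.a n ξ = lam / 2 ^ n := by
  unfold a
  rw [prod_congr rfl (g := fun _ => (1 / 2 : ℝ)) fun i hi => by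
    rw [W.p_eq_one (h.trans (W.out_le_core (mem_range.1 hi)))]; norm_num]
  simp [div_eq_mul_inv]

lemma a_outside {n : ℕ} {ξ : ℂ} (h : W.s n ≤ dd ξ) {m : ℕ} (hm : n ≤ m) : W.a m ξ = W.a n ξ := by
  induction m, hm using Nat.le_induction with
  | base => rfl
  | succ m hm ih => rw [a_succ, ih, W.p_eq_zero ((W.s_anti hm).trans h)]; ring

/-- The limiting multiplier. -/
noncomputable def ainf (ξ : ℂ) : ℝ := ⨅ n, W.a n ξ

lemma ainf_nonneg (ξ : ℂ) : 0 ≤ W.ainf ξ := le_ciInf fun n => W.a_nonneg n ξ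

lemma ainf_le (n : ℕ) (ξ : ℂ) : W.ainf ξ ≤ W.a n ξ :=
  ciInf_le ⟨0, by rintro _ ⟨m, rfl⟩; exact W.a_nonneg m ξ⟩ n

lemma ainf_outside {n : ℕ} {ξ : ℂ} (h : W.s n ≤ dd ξ) : W.ainf ξ = W.a n ξ := by
  refine le_antisymm (W.ainf_le n ξ) (le_ciInf fun m => ?_)
  rcases le_total n m with hm | hm
  · exact (W.a_outside h hm).ge
  · exact W.a_anti ξ hm

lemma a_sub_ainf (n : ℕ) (ξ : ℂ) : |W.a n ξ - W.ainf ξ| ≤ lam / 2 ^ n := by
  rcases le_total (W.s n) (dd ξ) with h | h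
  · rw [W.ainf_outside h, sub_self, abs_zero]; have := lam_pos; positivity
  · have h1 := W.a_inside (n := n) (ξ := ξ) (by have := W.e_pos n; linarith)
    have := W.ainf_le n ξ
    have := W.ainf_nonneg ξ
    rw [abs_of_nonneg (by linarith)]
    linarith

lemma tendsto_lam_div : Tendsto (fun n : ℕ => lam / 2 ^ n) atTop (𝓝 0) :=
  tendsto_const_nhds.div_atTop (tendsto_pow_atTop_atTop_of_one_lt (by norm_num))

lemma continuous_ainf : Continuous W.ainf := by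
  refine TendstoUniformly.continuous (F := W.a) (p := atTop) ?_
    (Frequently.of_forall fun n => (W.contDiff_a n).continuous)
  rw [Metric.tendstoUniformly_iff]
  intro ε hε
  filter_upwards [tendsto_lam_div.eventually (Iio_mem_nhds hε)] with n hn ξ
  rw [Real.dist_eq, abs_sub_comm]
  exact (W.a_sub_ainf n ξ).trans_lt hn

/-- The contribution of window `i` to a refresh. -/
noncomputable def term (δ : ℝ) (J i : ℕ) (ξ : ℂ) (v : V) : ℂ :=
  ∑ j ∈ range J, W.age i j ξ • (Sq δ)^[j + 1] (v (i : ZMod 4))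

/-- The refreshed value at stage `k`. -/
noncomputable def nw (δ : ℝ) (k : ℕ) (ξ : ℂ) (v : V) : ℂ :=
  W.term δ (W.J k) (k + 1) ξ v + W.term δ (W.J k) (tr2 k) ξ v

/-- The stage map. -/
noncomputable def F (δ : ℝ) (k : ℕ) (x : ℂ × V) : V := fun c =>
  W.a k x.1 • (W.o (win k c) x.1 • x.2 c + W.p (win k c) x.1 • W.nw δ k x.1 x.2)

lemma norm_term_le (δ : ℝ) (J i : ℕ) (ξ : ℂ) (v : V) : ‖W.term δ J i ξ v‖ ≤ ‖v‖ := by
  refine (norm_sum_le _ _).trans ?_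
  calc _ ≤ ∑ j ∈ range J, W.age i j ξ * ‖v‖ := sum_le_sum fun j _ => by
        rw [norm_smul, Real.norm_of_nonneg (W.age_nonneg _ _ _)]
        exact mul_le_mul_of_nonneg_left ((norm_Sq_iter_le _ _ _).trans (norm_le_pi_norm v _))
          (W.age_nonneg _ _ _)
    _ ≤ ‖v‖ := by
        rw [← sum_mul]
        exact mul_le_of_le_one_left (norm_nonneg _) (W.sum_age_le _ _ _)

lemma term_lip {δ : ℝ} (hδ : 0 < δ) (J i : ℕ) (ξ : ℂ) (v v' : V) :
    ‖W.term δ J i ξ v - W.term δ J i ξ v'‖ ≤ ‖v - v'‖ := by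
  unfold term
  rw [← sum_sub_distrib]
  refine (norm_sum_le _ _).trans ?_
  calc _ ≤ ∑ j ∈ range J, W.age i j ξ * ‖v - v'‖ := sum_le_sum fun j _ => by
        rw [← smul_sub, norm_smul, Real.norm_of_nonneg (W.age_nonneg _ _ _)]
        exact mul_le_mul_of_nonneg_left ((Sq_iter_lip hδ _ _ _).trans (norm_le_pi_norm (v - v') _))
          (W.age_nonneg _ _ _)
    _ ≤ ‖v - v'‖ := by
        rw [← sum_mul]
        exact mul_le_of_le_one_left (norm_nonneg _) (W.sum_age_le _ _ _)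

lemma norm_nw_le (δ : ℝ) (k : ℕ) (ξ : ℂ) (v : V) : ‖W.nw δ k ξ v‖ ≤ 2 * ‖v‖ := by
  refine (norm_add_le _ _).trans ?_
  have := W.norm_term_le δ (W.J k) (k + 1) ξ v
  have := W.norm_term_le δ (W.J k) (tr2 k) ξ v
  linarith

lemma nw_lip {δ : ℝ} (hδ : 0 < δ) (k : ℕ) (ξ : ℂ) (v v' : V) :
    ‖W.nw δ k ξ v - W.nw δ k ξ v'‖ ≤ 2 * ‖v - v'‖ := by
  unfold nw
  rw [add_sub_add_comm]
  refine (norm_add_le _ _).trans ?_
  have := W.term_lip hδ (W.J k) (k + 1) ξ v v'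
  have := W.term_lip hδ (W.J k) (tr2 k) ξ v v'
  linarith

lemma comb_le {i : ℕ} {ξ : ℂ} {x y : ℂ} {C : ℝ} (hx : ‖x‖ ≤ C) (hy : ‖y‖ ≤ C) :
    ‖W.o i ξ • x + W.p i ξ • y‖ ≤ C := by
  refine (norm_add_le _ _).trans ?_
  rw [norm_smul, norm_smul, Real.norm_of_nonneg (W.o_nonneg _ _),
    Real.norm_of_nonneg (W.p_nonneg _ _)]
  have := W.p_add_o i ξ
  have := W.p_nonneg i ξ
  have := W.o_nonneg i ξ
  have : 0 ≤ C := (norm_nonneg _).trans hx
  nlinarith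

lemma norm_F_le' (δ : ℝ) (k : ℕ) (ξ : ℂ) (v : V) : ‖W.F δ k (ξ, v)‖ ≤ W.a k ξ * (2 * ‖v‖) := by
  refine (pi_norm_le_iff_of_nonneg (mul_nonneg (W.a_nonneg _ _) (by positivity))).2 fun c => ?_
  unfold F
  rw [norm_smul, Real.norm_of_nonneg (W.a_nonneg _ _)]
  refine mul_le_mul_of_nonneg_left (W.comb_le ?_ (W.norm_nw_le _ _ _ _)) (W.a_nonneg _ _)
  have := norm_le_pi_norm v c
  linarith [norm_nonneg v]

lemma norm_F_le (δ : ℝ) (k : ℕ) (ξ : ℂ) (v : V) : ‖W.F δ k (ξ, v)‖ ≤ 2 * lam * ‖v‖ := by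
  refine (W.norm_F_le' δ k ξ v).trans ?_
  have := W.a_le k ξ
  nlinarith [norm_nonneg v]

lemma F_zero (δ : ℝ) (k : ℕ) (ξ : ℂ) : W.F δ k (ξ, 0) = 0 := by
  simpa using W.norm_F_le δ k ξ 0

lemma F_outside (δ : ℝ) {k : ℕ} {ξ : ℂ} (h : W.s k + W.e k ≤ dd ξ) (v : V) :
    W.F δ k (ξ, v) = W.ainf ξ • v := by
  ext c
  have h1 := (W.out_anti (le_win k c)).trans h
  have := W.e_pos k
  have := W.e_pos (win k c)
  simp only [F, W.o_eq_one h1, W.p_eq_zero (i := win k c) (ξ := ξ) (by linarith),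
    W.ainf_outside (n := k) (ξ := ξ) (by linarith), one_smul, zero_smul, add_zero, Pi.smul_apply]

lemma F_lip_v {δ : ℝ} (hδ : 0 < δ) (k : ℕ) (ξ : ℂ) (v v' : V) :
    ‖(W.F δ k (ξ, v) - W.ainf ξ • v) - (W.F δ k (ξ, v') - W.ainf ξ • v')‖ ≤
      3 * (lam / 2 ^ k) * ‖v - v'‖ := by
  have hl := lam_pos
  rcases le_total (W.s k + W.e k) (dd ξ) with h | h
  · rw [W.F_outside δ h, W.F_outside δ h]
    simp only [sub_self, norm_zero]
    positivity
  · have h1 := W.a_inside h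
    have h2 : ‖W.F δ k (ξ, v) - W.F δ k (ξ, v')‖ ≤ lam / 2 ^ k * (2 * ‖v - v'‖) := by
      refine (pi_norm_le_iff_of_nonneg (by positivity)).2 fun c => ?_
      simp only [F, Pi.sub_apply]
      rw [← smul_sub, add_sub_add_comm, ← smul_sub, ← smul_sub, norm_smul, h1,
        Real.norm_of_nonneg (by positivity)]
      refine mul_le_mul_of_nonneg_left (W.comb_le ?_ (W.nw_lip hδ _ _ _ _)) (by positivity)
      have := norm_le_pi_norm (v - v') c
      rw [Pi.sub_apply] at this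
      linarith [norm_nonneg (v - v')]
    have h3 : ‖W.ainf ξ • v - W.ainf ξ • v'‖ ≤ lam / 2 ^ k * ‖v - v'‖ := by
      rw [← smul_sub, norm_smul, Real.norm_of_nonneg (W.ainf_nonneg _), ← h1]
      exact mul_le_mul_of_nonneg_right (W.ainf_le _ _) (norm_nonneg _)
    rw [sub_sub_sub_comm]
    refine (norm_sub_le _ _).trans ?_
    linarith

lemma contDiff_term {δ : ℝ} (hδ : 0 < δ) (J i : ℕ) :
    ContDiff ℝ 1 fun x : ℂ × V => W.term δ J i x.1 x.2 :=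
  ContDiff.sum fun j _ => ((W.contDiff_age i j).comp contDiff_fst).smul
    ((contDiff_Sq_iter hδ (j + 1)).comp ((contDiff_apply ℝ ℂ (i : ZMod 4)).comp contDiff_snd))

lemma contDiff_F {δ : ℝ} (hδ : 0 < δ) (k : ℕ) : ContDiff ℝ 1 (W.F δ k) :=
  contDiff_pi.2 fun c => ((W.contDiff_a k).comp contDiff_fst).smul
    ((((W.contDiff_o _).comp contDiff_fst).smul ((contDiff_apply ℝ ℂ c).comp contDiff_snd)).add
      (((W.contDiff_p _).comp contDiff_fst).smul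
        ((W.contDiff_term hδ _ _).add (W.contDiff_term hδ _ _))))

/-- Lipschitz in the base variable, with constant proportional to `‖v‖`, uniformly in `δ`. -/
def XL (Φ : ℝ → ℂ → V → ℂ) : Prop :=
  ∃ K : ℝ, 0 ≤ K ∧ ∀ δ, ∀ ξ ∈ Metric.closedBall (0 : ℂ) 2, ∀ ξ' ∈ Metric.closedBall (0 : ℂ) 2, ∀ v,
    ‖Φ δ ξ v - Φ δ ξ' v‖ ≤ K * ‖v‖ * ‖ξ - ξ'‖

lemma XL.base {β : ℂ → ℝ} (hβ : ContDiff ℝ 1 β) {Y : ℝ → V → ℂ} (hY : ∀ δ v, ‖Y δ v‖ ≤ ‖v‖) :
    XL fun δ ξ v => β ξ • Y δ v := by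
  obtain ⟨K, hK⟩ := hβ.contDiffOn.exists_lipschitzOnWith one_ne_zero (convex_closedBall (0 : ℂ) 2)
    (isCompact_closedBall 0 2)
  refine ⟨K, K.2, fun δ ξ hξ ξ' hξ' v => ?_⟩
  rw [← sub_smul, norm_smul]
  have h1 := hK.norm_sub_le hξ hξ'
  calc _ ≤ (K * ‖ξ - ξ'‖) * ‖v‖ := mul_le_mul h1 (hY δ v) (norm_nonneg _) (by positivity)
    _ = _ := by ring

lemma XL.add {Φ Ψ : ℝ → ℂ → V → ℂ} (h1 : XL Φ) (h2 : XL Ψ) :
    XL fun δ ξ v => Φ δ ξ v + Ψ δ ξ v := by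
  obtain ⟨K, hK, h1⟩ := h1
  obtain ⟨L, hL, h2⟩ := h2
  refine ⟨K + L, by positivity, fun δ ξ hξ ξ' hξ' v => ?_⟩
  rw [add_sub_add_comm]
  refine (norm_add_le _ _).trans ?_
  have := h1 δ ξ hξ ξ' hξ' v
  have := h2 δ ξ hξ ξ' hξ' v
  linarith

lemma XL.sum {Φ : ℕ → ℝ → ℂ → V → ℂ} (h : ∀ j, XL (Φ j)) (J : ℕ) :
    XL fun δ ξ v => ∑ j ∈ range J, Φ j δ ξ v := by
  induction J with
  | zero => exact ⟨0, le_rfl, by simp⟩
  | succ J ih => simpa only [sum_range_succ] using ih.add (h J)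

lemma exists_F_lip_xi (k : ℕ) : ∃ K : ℝ, 0 ≤ K ∧ ∀ δ, ∀ ξ ∈ Metric.closedBall (0 : ℂ) 2,
    ∀ ξ' ∈ Metric.closedBall (0 : ℂ) 2, ∀ v,
    ‖W.F δ k (ξ, v) - W.F δ k (ξ', v)‖ ≤ K * ‖v‖ * ‖ξ - ξ'‖ := by
  have h : ∀ c, XL fun δ ξ v => W.F δ k (ξ, v) c := by
    intro c
    have hT : ∀ i, XL fun δ ξ v => ∑ j ∈ range (W.J k),
        (W.a k ξ * W.p (win k c) ξ * W.age i j ξ) • (Sq δ)^[j + 1] (v (i : ZMod 4)) := fun i =>
      XL.sum (fun j => XL.base (((W.contDiff_a k).mul (W.contDiff_p _)).mul (W.contDiff_age i j))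
        fun δ v => (norm_Sq_iter_le _ _ _).trans (norm_le_pi_norm v _)) _
    have := (XL.base ((W.contDiff_a k).mul (W.contDiff_o (win k c))) (Y := fun _ v => v c)
      fun δ v => norm_le_pi_norm v _).add ((hT (k + 1)).add (hT (tr2 k)))
    convert this using 4 with δ ξ v
    simp only [F, nw, term, smul_add, smul_sum, smul_smul, mul_assoc]
  choose K hK0 hK using h
  refine ⟨∑ c, K c, sum_nonneg fun c _ => hK0 c, fun δ ξ hξ ξ' hξ' v => ?_⟩
  have h0 : 0 ≤ ∑ c, K c := sum_nonneg fun c _ => hK0 c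
  refine (pi_norm_le_iff_of_nonneg (by positivity)).2 fun c => (hK c δ ξ hξ ξ' hξ' v).trans ?_
  have : K c ≤ ∑ c, K c := single_le_sum (fun c _ => hK0 c) (mem_univ c)
  gcongr

end Win

end Crest.Agent.R123
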