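import Crest.Agent.R123.Defs

/-! The windows around `ξ = 1` and their arithmetic properties. -/

set_option autoImplicit false

open Filter Topology

namespace Crest.Agent.R123

/-- A smooth substitute for the distance to `1`. -/
def dd (ξ : ℂ) : ℝ := 1 - ξ.re

lemma continuous_dd : Continuous dd := by unfold dd; fun_prop

lemma dd_nonneg (ξ : Circle) : 0 ≤ dd ξ := by
  have := Complex.re_le_norm (ξ : ℂ)
  rw [Circle.norm_coe] at this
  unfold dd; linarith

lemma dd_le_two (ξ : Circle) : dd ξ ≤ 2 := by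
  have := Complex.abs_re_le_norm (ξ : ℂ)
  rw [Circle.norm_coe] at this
  have := (abs_le.1 this).1
  unfold dd; linarith

lemma dd_eq_zero {ξ : Circle} (h : dd ξ = 0) : ξ = 1 := by
  have h1 : (ξ : ℂ).re = 1 := by unfold dd at h; linarith
  have h2 := Circle.normSq_coe ξ
  rw [Complex.normSq_apply, h1] at h2
  have h3 : (ξ : ℂ).im = 0 := by nlinarith
  ext
  apply Complex.ext <;> simp [h1, h3]

/-- The window parameters. -/
structure Win where
  om : Circle
  s : ℕ → ℝ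
  e : ℕ → ℝ
  J : ℕ → ℕ
  e_pos : ∀ i, 0 < e i
  e_le : ∀ i, e i ≤ s i / 4
  s_succ : ∀ i, s (i + 1) ≤ s i / 4
  s_four : 4 ≤ s 4
  J_mono : Monotone J
  ret : ∀ (k : ℕ) (ξ : Circle), ∃ t, k + 1 ≤ t ∧ t < J k ∧ dd (om ^ t * ξ : Circle) ≤ s (k + 6) / 2
  gap : ∀ i, 5 ≤ i → ∀ (ξ : Circle) (j : ℕ), 0 < j → j < 2 ^ i → dd ξ < s i →
    ¬ dd (om ^ j * ξ : Circle) < s i
  sep : ∀ k i i', i ≠ i' → k < i → k < i' → i ≤ k + 3 → i' ≤ k + 3 → ∀ (ξ : Circle) (l l' : ℕ),
    l < J k → l' < J k →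
    ¬ (|dd (om ^ l * ξ : Circle) - s i| < e i ∧ |dd (om ^ l' * ξ : Circle) - s i'| < e i')

lemma exists_seq {α : Type*} (Q : ℕ → α → Prop) (P : ℕ → α → α → Prop) (a : α) (h0 : Q 0 a)
    (h : ∀ i x, Q i x → ∃ y, Q (i + 1) y ∧ P i x y) :
    ∃ s : ℕ → α, (∀ i, Q i (s i)) ∧ ∀ i, P i (s i) (s (i + 1)) := by
  choose f hf using h
  let u : ∀ i, {x // Q i x} := fun i =>
    Nat.rec (motive := fun i => {x // Q i x}) ⟨a, h0⟩ (fun i x => ⟨f i x.1 x.2, (hf i x.1 x.2).1⟩) i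
  exact ⟨fun i => (u i).1, fun i => (u i).2, fun i => (hf i (u i).1 (u i).2).2⟩

lemma exists_om : ∃ om : Circle, (∀ j : ℕ, 0 < j → om ^ j ≠ 1) ∧
    DenseRange (fun j : ℕ => om ^ j) := by
  have hirr : Irrational (√2 / 1) := by simpa using irrational_sqrt_two
  have hd : DenseRange (fun n : ℤ => n • ((√2 : ℝ) : AddCircle (1 : ℝ))) :=
    AddCircle.denseRange_zsmul_coe_iff.2 hirr
  let e := AddCircle.homeomorphCircle (T := 1) one_ne_zero
  refine ⟨AddCircle.toCircle ((√2 : ℝ) : AddCircle (1 : ℝ)), fun j hj h => ?_, ?_⟩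
  · rw [AddCircle.toCircle_apply_mk, ← Circle.exp_natCast_mul, Circle.exp_eq_one] at h
    obtain ⟨n, hn⟩ := h
    have hj' : (j : ℝ) ≠ 0 := by positivity
    have : √2 = ((n : ℚ) / (j : ℚ) : ℚ) := by
      push_cast
      field_simp
      have hpi : Real.pi ≠ 0 := Real.pi_ne_zero
      field_simp at hn
      linarith
    exact irrational_sqrt_two ⟨_, this.symm⟩
  · rw [← denseRange_zpow_iff_pow]
    have := e.surjective.denseRange.comp hd e.continuous
    convert this using 1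
    ext n
    simp [e, AddCircle.homeomorphCircle_apply, AddCircle.toCircle_zsmul]

lemma exists_return {om : Circle} (hd : DenseRange (fun j : ℕ => om ^ j)) {s : ℝ} (hs : 0 < s) :
    ∃ N : ℕ, ∀ ξ : Circle, ∃ j < N, dd (om ^ j * ξ : Circle) < s := by
  have hop : ∀ j : ℕ, IsOpen {ξ : Circle | dd (om ^ j * ξ : Circle) < s} := fun j =>
    isOpen_lt (continuous_dd.comp (by fun_prop)) continuous_const
  obtain ⟨t, ht⟩ := isCompact_univ.elim_finite_subcover _ hop (by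
    intro ξ _
    have ho : IsOpen {η : Circle | dd (η * ξ : Circle) < s} :=
      isOpen_lt (continuous_dd.comp (by fun_prop)) continuous_const
    obtain ⟨j, hj⟩ := hd.exists_mem_open ho ⟨ξ⁻¹, by
      rw [Set.mem_ofPred_eq, inv_mul_cancel]; simpa [dd] using hs⟩
    exact Set.mem_iUnion.2 ⟨j, hj⟩)
  refine ⟨t.sup id + 1, fun ξ => ?_⟩
  obtain ⟨j, hj, h⟩ := Set.mem_iUnion₂.1 (ht (Set.mem_univ ξ))
  exact ⟨j, Nat.lt_succ_of_le (Finset.le_sup (f := id) hj), h⟩

lemma eventually_no_common {φ ψ : Circle → ℝ} (hφ : Continuous φ) (hψ : Continuous ψ)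
    (h : ∀ ξ, φ ξ = 0 → ψ ξ ≠ 0) :
    ∀ᶠ η in 𝓝[>] (0 : ℝ), ∀ ξ, ¬ (|φ ξ| < η ∧ |ψ ξ| < η) := by
  obtain ⟨ξ₀, -, h₀⟩ := isCompact_univ.exists_isMinOn Set.univ_nonempty
    (f := fun ξ => max |φ ξ| |ψ ξ|) (by fun_prop)
  have hm : 0 < max |φ ξ₀| |ψ ξ₀| := by
    by_cases h1 : φ ξ₀ = 0
    · exact lt_max_of_lt_right (abs_pos.2 (h _ h1))
    · exact lt_max_of_lt_left (abs_pos.2 h1)
  filter_upwards [Ioo_mem_nhdsGT hm] with η hη ξ hξ
  have : max |φ ξ₀| |ψ ξ₀| ≤ max |φ ξ| |ψ ξ| := h₀ (Set.mem_univ ξ)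
  have := max_lt hξ.1 hξ.2
  linarith [hη.2]

/-- The level set of `dd` consists of roots of unity. -/
def RU (s : ℝ) : Prop := ∀ ξ : Circle, dd ξ = s → ∃ q : ℕ, 0 < q ∧ ξ ^ q = 1

lemma exists_RU {b : ℝ} (hb : 0 < b) : ∃ y, 0 < y ∧ y ≤ b ∧ RU y := by
  have h1 : Tendsto (fun q : ℕ => 1 - Real.cos (2 * Real.pi / q)) atTop (𝓝 (1 - Real.cos 0)) :=
    tendsto_const_nhds.sub ((Real.continuous_cos.tendsto 0).comp
      (tendsto_const_div_atTop_nhds_zero_nat _))
  rw [Real.cos_zero, sub_self] at h1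
  obtain ⟨q, hq, hq2⟩ := ((h1.eventually (Iic_mem_nhds hb)).and (eventually_ge_atTop 2)).exists
  have hq0 : (2 : ℝ) ≤ q := by exact_mod_cast hq2
  refine ⟨_, ?_, hq, fun ξ hξ => ⟨q, by omega, ?_⟩⟩
  · have h2 : 0 < 2 * Real.pi / q := by positivity
    have h3 : 2 * Real.pi / q ≤ Real.pi := by
      rw [div_le_iff₀ (by positivity)]; nlinarith [Real.pi_pos]
    have := Real.cos_lt_cos_of_nonneg_of_le_pi le_rfl h3 h2
    rw [Real.cos_zero] at this
    linarith
  · set θ := 2 * Real.pi / q with hθ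
    have hre : (ξ : ℂ).re = Real.cos θ := by unfold dd at hξ; linarith
    have h2 := Circle.normSq_coe ξ
    rw [Complex.normSq_apply, hre] at h2
    have h3 : ((ξ : ℂ).im - Real.sin θ) * ((ξ : ℂ).im + Real.sin θ) = 0 := by
      nlinarith [Real.sin_sq_add_cos_sq θ]
    have hqθ : Circle.exp θ ^ q = 1 := by
      rw [← Circle.exp_natCast_mul, Circle.exp_eq_one]
      exact ⟨1, by rw [hθ]; field_simp; simp⟩
    rcases mul_eq_zero.1 h3 with h4 | h4
    · have : ξ = Circle.exp θ := by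
        ext
        rw [Circle.coe_exp]
        apply Complex.ext
        · rw [hre, Complex.exp_ofReal_mul_I_re]
        · rw [Complex.exp_ofReal_mul_I_im]; linarith
      rw [this, hqθ]
    · have : ξ = (Circle.exp θ)⁻¹ := by
        rw [← Circle.exp_neg]
        ext
        rw [Circle.coe_exp]
        apply Complex.ext
        · rw [hre, Complex.exp_ofReal_mul_I_re, Real.cos_neg]
        · rw [Complex.exp_ofReal_mul_I_im, Real.sin_neg]; linarith
      rw [this, inv_pow, hqθ, inv_one]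

theorem exists_win : Nonempty Win := by
  obtain ⟨om, hom, hd⟩ := exists_om
  have hcont : ∀ j : ℕ, Continuous fun ξ : Circle => dd (om ^ j * ξ : Circle) := fun j =>
    continuous_dd.comp (by fun_prop)
  have hcont0 : Continuous fun ξ : Circle => dd ξ := continuous_dd.comp (by fun_prop)
  -- gaps
  have hγ : ∀ i : ℕ, ∃ γ, 0 < γ ∧ ∀ j ∈ Finset.Ioo 0 (2 ^ i), ∀ ξ : Circle,
      ¬ (|dd ξ| < γ ∧ |dd (om ^ j * ξ : Circle)| < γ) := by
    intro i
    have : ∀ᶠ γ in 𝓝[>] (0 : ℝ), ∀ j ∈ Finset.Ioo 0 (2 ^ i), ∀ ξ : Circle,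
        ¬ (|dd ξ| < γ ∧ |dd (om ^ j * ξ : Circle)| < γ) := by
      rw [Finset.eventually_all]
      intro j hj
      refine eventually_no_common hcont0 (hcont j) fun ξ h1 h2 => ?_
      have h3 := dd_eq_zero h2
      rw [dd_eq_zero h1, mul_one] at h3
      exact hom j (Finset.mem_Ioo.1 hj).1 h3
    obtain ⟨γ, h1, h2⟩ := (this.and self_mem_nhdsWithin).exists
    exact ⟨γ, h2, h1⟩
  choose γ hγ0 hγ using hγ
  obtain ⟨s, hsQ, hsP⟩ := exists_seq
    (fun i x => 0 < x ∧ RU x ∧ (5 ≤ i → x ≤ γ i) ∧ (i ≤ 4 → x = 4 ^ (5 - i)))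
    (fun _ x y => y ≤ x / 4) ((4 : ℝ) ^ 5)
    ⟨by positivity, fun ξ h => by have := dd_le_two ξ; norm_num at h; linarith, by omega, by simp⟩
    (by
      rintro i x ⟨h1, -, -, h4⟩
      by_cases hi : i + 1 ≤ 4
      · have hx := h4 (by omega)
        have h5 : x / 4 = 4 ^ (5 - (i + 1)) := by
          rw [hx, show 5 - i = 5 - (i + 1) + 1 by omega, pow_succ]; ring
        refine ⟨x / 4, ⟨by positivity, fun ξ h => ?_, by omega, fun _ => h5⟩, le_rfl⟩
        have := dd_le_two ξ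
        have h6 : (4 : ℝ) ^ 1 ≤ 4 ^ (5 - (i + 1)) := pow_le_pow_right₀ (by norm_num) (by omega)
        linarith
      · obtain ⟨y, hy0, hy, hRU⟩ := exists_RU (lt_min (hγ0 (i + 1)) (by positivity : 0 < x / 4))
        exact ⟨y, ⟨hy0, hRU, fun _ => hy.trans (min_le_left _ _), by omega⟩,
          hy.trans (min_le_right _ _)⟩)
  have hs0 : ∀ i, 0 < s i := fun i => (hsQ i).1
  have hanti : StrictAnti s := strictAnti_nat_of_succ_lt fun i => by
    have := hsP i; have := hs0 i; linarith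
  have hN : ∀ i, ∃ N : ℕ, ∀ ξ : Circle, ∃ j < N, dd (om ^ j * ξ : Circle) < s i / 2 := fun i =>
    exists_return hd (by have := hs0 i; positivity)
  choose N hN using hN
  let J : ℕ → ℕ := fun k => ∑ l ∈ Finset.range (k + 1), N (l + 6) + k + 1
  have hJ : Monotone J := monotone_nat_of_le_succ fun k => by
    simp only [J, Finset.sum_range_succ _ (k + 1)]; omega
  have hη : ∀ k : ℕ, ∃ η, 0 < η ∧ ∀ i ∈ Finset.range (k + 4), ∀ i' ∈ Finset.range (k + 4),
      ∀ j ∈ Finset.range (J k), i ≠ i' → ∀ ξ : Circle,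
      ¬ (|dd ξ - s i| < η ∧ |dd (om ^ j * ξ : Circle) - s i'| < η) := by
    intro k
    have : ∀ᶠ η in 𝓝[>] (0 : ℝ), ∀ i ∈ Finset.range (k + 4), ∀ i' ∈ Finset.range (k + 4),
        ∀ j ∈ Finset.range (J k), i ≠ i' → ∀ ξ : Circle,
        ¬ (|dd ξ - s i| < η ∧ |dd (om ^ j * ξ : Circle) - s i'| < η) := by
      simp only [Finset.eventually_all]
      intro i _ i' _ j _
      by_cases hii : i = i'
      · exact Eventually.of_forall fun _ h => (h hii).elim
      refine (eventually_no_common (φ := fun ξ => dd ξ - s i)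
        (ψ := fun ξ => dd (om ^ j * ξ : Circle) - s i')
        (hcont0.sub continuous_const) ((hcont j).sub continuous_const)
        fun ξ h1 h2 => ?_).mono fun η h _ => h
      obtain ⟨q, hq, hq1⟩ := (hsQ i).2.1 ξ (sub_eq_zero.1 h1)
      obtain ⟨q', hq', hq1'⟩ := (hsQ i').2.1 _ (sub_eq_zero.1 h2)
      rcases Nat.eq_zero_or_pos j with rfl | hj
      · rw [pow_zero, one_mul] at h2
        exact hii (hanti.injective (by linarith [sub_eq_zero.1 h1, sub_eq_zero.1 h2]))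
      · apply hom (j * q' * q) (by positivity)
        have : (om ^ j * ξ) ^ (q' * q) = 1 := by rw [pow_mul, hq1', one_pow]
        rwa [mul_pow, mul_comm q' q, pow_mul ξ, hq1, one_pow, mul_one, ← pow_mul, mul_comm q q',
          ← mul_assoc] at this
    obtain ⟨η, h1, h2⟩ := (this.and self_mem_nhdsWithin).exists
    exact ⟨η, h2, h1⟩
  choose η hη0 hη using hη
  let e : ℕ → ℝ := fun i => min (s i / 4)
    ((Finset.range (i + 1)).inf' Finset.nonempty_range_add_one η)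
  have he : ∀ i k, k ≤ i → e i ≤ η k := fun i k hk =>
    (min_le_right _ _).trans (Finset.inf'_le _ (Finset.mem_range.2 (by omega)))
  refine ⟨⟨om, s, e, J, fun i => ?_, fun i => min_le_left _ _, hsP, ?_, hJ, fun k ξ => ?_,
    fun i hi ξ j hj hj' h1 h2 => ?_, fun k i i' hii hi hi' hi2 hi2' ξ l l' hl hl' h => ?_⟩⟩
  · exact lt_min (by have := hs0 i; positivity) ((Finset.lt_inf'_iff _).2 fun k _ => hη0 k)
  · rw [(hsQ 4).2.2.2 le_rfl]; norm_num
  · obtain ⟨j, hj, h⟩ := hN (k + 6) (om ^ (k + 1) * ξ)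
    refine ⟨j + (k + 1), by omega, ?_, ?_⟩
    · simp only [J, Finset.sum_range_succ]; omega
    · rw [pow_add, mul_assoc]; exact h.le
  · have h3 := (hsQ i).2.2.1 hi
    refine hγ i j (Finset.mem_Ioo.2 ⟨hj, hj'⟩) ξ ⟨?_, ?_⟩
    · rw [abs_of_nonneg (dd_nonneg _)]; linarith
    · rw [abs_of_nonneg (dd_nonneg _)]; linarith
  · have h1 := h.1.trans_le (he i k hi.le)
    have h2 := h.2.trans_le (he i' k hi'.le)
    rcases le_total l l' with hll | hll
    · refine hη k i (Finset.mem_range.2 (by omega)) i' (Finset.mem_range.2 (by omega)) (l' - l)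
        (Finset.mem_range.2 (by omega)) hii (om ^ l * ξ) ⟨h1, ?_⟩
      rwa [← mul_assoc, ← pow_add, Nat.sub_add_cancel hll]
    · refine hη k i' (Finset.mem_range.2 (by omega)) i (Finset.mem_range.2 (by omega)) (l - l')
        (Finset.mem_range.2 (by omega)) hii.symm (om ^ l' * ξ) ⟨h2, ?_⟩
      rwa [← mul_assoc, ← pow_add, Nat.sub_add_cancel hll]

end Crest.Agent.R123
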